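import Vale.Agent.P078.Defs

namespace Vale.Agent.P078

variable {H : Type*} [NormedAddCommGroup H] [InnerProductSpace ℂ H] [CompleteSpace H]

/-- `x = e x e` is `(ε, r)` so-pavable over the corner inclusion `A e ⊆ e M e` acting on `e H`,
where `e` is a projection of `A` -/
def SoPavableOn (M : VonNeumannAlgebra H) (A : StarSubalgebra ℂ (H →L[ℂ] H)) (e x : H →L[ℂ] H)
    (ε : ℝ) (r : ℕ) : Prop :=
  ∀ (F : Finset H) (δ : ℝ), 0 < δ →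
    ∃ (p : Fin r → H →L[ℂ] H) (a q : H →L[ℂ] H), IsPartition A e p ∧
      a ∈ A ∧ IsSelfAdjoint a ∧ a * e = a ∧ ‖a‖ ≤ ‖x‖ ∧
      q ∈ M ∧ IsStarProjection q ∧ q * e = q ∧ (∀ ξ ∈ F, ‖(e - q) ξ‖ < δ) ∧
      ‖q * (pinching p x - a) * q‖ ≤ ε * ‖x‖

/-- the paving number of the corner inclusion `A e ⊆ e M e` -/
noncomputable def cornerPavingNumber (M : VonNeumannAlgebra H)
    (A : StarSubalgebra ℂ (H →L[ℂ] H)) (e : H →L[ℂ] H) (ε : ℝ) : ℕ∞ :=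
  ⨅ (r : ℕ) (_ : 1 ≤ r ∧ ∀ x ∈ M, IsSelfAdjoint x → e * x * e = x → SoPavableOn M A e x ε r),
    (r : ℕ∞)

end Vale.Agent.P078
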