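import Vale.Agent.P078.Paving
import Vale.Agent.P078.DefsCorner

open scoped InnerProductSpace Topology
open Filter

namespace Vale.Agent.P078

universe u

variable {H : Type u} [NormedAddCommGroup H] [InnerProductSpace ℂ H] [CompleteSpace H]

/-- arbitrarily large projections `q` of `M` below `e` see a fine partition of `e` as small -/
def Infinitesimal (M : VonNeumannAlgebra H) (A : StarSubalgebra ℂ (H →L[ℂ] H))
    (e : H →L[ℂ] H) : Prop :=
  ∀ (F : Finset H) (δ : ℝ), 0 < δ → ∃ q ∈ M, IsStarProjection q ∧ q * e = q ∧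
    (∀ ξ ∈ F, ‖(e - q) ξ‖ < δ) ∧ ∃ C : FinPart A e, ∀ s, ‖q * C.p s * q‖ ≤ δ

theorem soPavableOn_of_infinitesimal {M : VonNeumannAlgebra H}
    {A : StarSubalgebra ℂ (H →L[ℂ] H)} {e : H →L[ℂ] H}
    (hA : IsMASA M A) (heA : e ∈ A) (he : IsStarProjection e) (hinf : Infinitesimal M A e)
    (x : H →L[ℂ] H) (hx : x ∈ M) (hxs : IsSelfAdjoint x) (ε : ℝ) (r : ℕ)
    (hr : 1 < r * ε) : SoPavableOn M A e x ε r := by
  classical
  intro F δ hδ
  have hcomm := hA.comm
  have hee : e * e = e := he.isIdempotentElem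
  have hr0 : 0 < r := by
    rcases Nat.eq_zero_or_pos r with h | h
    · rw [h] at hr; norm_num at hr
    · exact h
  have hrR : (0 : ℝ) < r := by exact_mod_cast hr0
  have hrinv : (r : ℝ)⁻¹ < ε := by
    rw [inv_lt_iff_one_lt_mul₀ hrR, mul_comm]; exact hr
  have hrinv1 : (r : ℝ)⁻¹ ≤ 1 := by
    apply inv_le_one_of_one_le₀
    exact_mod_cast hr0
  by_cases hx0 : x = 0
  · subst hx0
    refine ⟨fun l => if l = ⟨0, hr0⟩ then e else 0, 0, e, ⟨?_, ?_, ?_, ?_⟩, zero_mem A,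
      IsSelfAdjoint.zero _, by simp, by simp, hA.subset e heA, he, hee, ?_, ?_⟩
    · intro l; split_ifs
      · exact heA
      · exact zero_mem A
    · intro l; split_ifs
      · exact he
      · exact ⟨by simp [IsIdempotentElem], IsSelfAdjoint.zero _⟩
    · intro l l' h
      by_cases h1 : l = ⟨0, hr0⟩
      · have : l' ≠ ⟨0, hr0⟩ := fun h2 => h (h1.trans h2.symm)
        simp [this]
      · simp [h1]
    · simp
    · intro ξ _; simpa using hδ
    · simp [pinching]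
  have hxn : 0 < ‖x‖ := norm_pos_iff.mpr hx0
  set κ : ℝ := (ε - (r : ℝ)⁻¹) * ‖x‖ with hκ
  have hκpos : 0 < κ := mul_pos (by linarith) hxn
  set η : ℝ := κ * δ / 2 with hη
  have hηpos : 0 < η := by positivity
  obtain ⟨k, ξ, hξ, hξF⟩ : ∃ (k : ℕ) (ξ : Fin k → H), (∀ v ∈ F, ∃ j, ξ j = v) ∧
      ∀ j, ξ j ∈ F :=
    ⟨F.card, fun j => (F.equivFin.symm j : H), fun v hv => ⟨F.equivFin ⟨v, hv⟩, by simp⟩,
      fun j => (F.equivFin.symm j).2⟩
  set N : ℝ := ∑ j, ‖ξ j‖ ^ 2 with hN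
  have hN0 : 0 ≤ N := Finset.sum_nonneg (fun j _ => by positivity)
  obtain ⟨δ0, hδ0, hδ1, hδ2, hδ3⟩ : ∃ δ0 : ℝ, 0 < δ0 ∧ δ0 ≤ δ / 2 ∧
      4 * δ0 * ‖x‖ ^ 2 * N ≤ (η / 4) ^ 2 ∧ 2 * ‖x‖ * δ0 ≤ η / 4 := by
    refine ⟨min (δ / 2) (min ((η / 4) ^ 2 / (4 * (‖x‖ ^ 2 * N + 1))) (η / 4 / (2 * ‖x‖))), ?_,
      min_le_left _ _, ?_, ?_⟩
    · refine lt_min (by positivity) (lt_min (by positivity) (by positivity))
    · have h1 : min (δ / 2) (min ((η / 4) ^ 2 / (4 * (‖x‖ ^ 2 * N + 1))) (η / 4 / (2 * ‖x‖))) ≤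
          (η / 4) ^ 2 / (4 * (‖x‖ ^ 2 * N + 1)) := (min_le_right _ _).trans (min_le_left _ _)
      rw [le_div_iff₀ (by positivity)] at h1
      have h2 : 0 ≤ min (δ / 2) (min ((η / 4) ^ 2 / (4 * (‖x‖ ^ 2 * N + 1)))
          (η / 4 / (2 * ‖x‖))) := by
        refine le_min (by positivity) (le_min (by positivity) (by positivity))
      nlinarith
    · have h1 : min (δ / 2) (min ((η / 4) ^ 2 / (4 * (‖x‖ ^ 2 * N + 1))) (η / 4 / (2 * ‖x‖))) ≤
          η / 4 / (2 * ‖x‖) := (min_le_right _ _).trans (min_le_right _ _)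
      rw [le_div_iff₀ (by positivity)] at h1
      linarith
  obtain ⟨q0, hq0M, hq0, hq0e, hq0F, C0, hC0⟩ := hinf F δ0 hδ0
  have hq0e' : e * q0 = q0 := by
    have := congrArg star hq0e
    rwa [star_mul, he.isSelfAdjoint.star_eq, hq0.isSelfAdjoint.star_eq] at this
  obtain ⟨I, U, B, a0, ha0A, ha0n, ha0s, ha0e, ha0c⟩ := exists_diag_limit hA heA he x hx
  have ha0c' : ∀ v w, Tendsto (fun i => ⟪pinching C0.p (pinching (B i).p x) v, w⟫_ℂ) U
      (𝓝 ⟪a0 v, w⟫_ℂ) := by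
    intro v w
    have h1 : a0 = pinching C0.p a0 := by
      rw [pinching]
      have : ∀ s, C0.p s * a0 * C0.p s = a0 * C0.p s := by
        intro s
        rw [hcomm _ (C0.isPart.mem s) _ ha0A, mul_assoc, (C0.isPart.proj s).isIdempotentElem]
      simp_rw [this]
      rw [← Finset.mul_sum, C0.isPart.sum, ha0e]
    rw [h1]
    simp only [pinching, sum_apply, sum_inner, mul_apply']
    apply tendsto_finset_sum
    intro s _
    have h2 : ∀ z w : H, ⟪C0.p s z, w⟫_ℂ = ⟪z, C0.p s w⟫_ℂ := by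
      intro z w
      calc ⟪C0.p s z, w⟫_ℂ = ⟪z, (ContinuousLinearMap.adjoint (C0.p s)) w⟫_ℂ :=
            (ContinuousLinearMap.adjoint_inner_right _ _ _).symm
        _ = _ := by
            rw [← ContinuousLinearMap.star_eq_adjoint, (C0.isPart.proj s).isSelfAdjoint.star_eq]
    simp_rw [h2]
    have h3 := ha0c (C0.p s v) (C0.p s w)
    simp only [pinching, sum_apply, sum_inner, mul_apply'] at h3
    have h4 : (fun i => ⟪∑ l, (B i).p l (x ((B i).p l (C0.p s v))), C0.p s w⟫_ℂ) =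
      (fun i => ∑ l, ⟪(B i).p l (x ((B i).p l (C0.p s v))), C0.p s w⟫_ℂ) := by
      funext i; rw [sum_inner]
    rw [h4]
    exact h3
  obtain ⟨μ, hμ, lam, i, hl0, hl1, hmaz⟩ := mazur U
    (fun i => pinching C0.p (pinching (B i).p x)) a0 ha0c' ξ (η / 4) (by positivity)
  obtain ⟨C, hC, hClev⟩ := levels hcomm he hq0 C0.isPart hδ0.le hC0 lam hl0 hl1
    (fun m => B (i m)) x ξ
  obtain ⟨p, hp, hpcol⟩ := colors hcomm he hq0 C.isPart hδ0.le hC x ξ r hr0
  set R : H →L[ℂ] H := ∑ m, (lam m : ℂ) • pinching C0.p (pinching (B (i m)).p x) with hR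
  set t : ℝ := 1 - (r : ℝ)⁻¹ with ht
  have ht0 : 0 ≤ t := by rw [ht]; linarith
  have ht1 : t ≤ 1 := by
    rw [ht]
    have : 0 < (r : ℝ)⁻¹ := by positivity
    linarith
  set Y : H →L[ℂ] H := q0 * (pinching p x - (((r : ℝ)⁻¹ : ℝ) : ℂ) • (e * x * e)
    - (t : ℂ) • a0) * q0 with hY
  have ha0s' := ha0s hxs
  have hreal : ∀ (c : ℝ) (z : H →L[ℂ] H), IsSelfAdjoint z → IsSelfAdjoint ((c : ℂ) • z) := by
    intro c z hz
    rw [IsSelfAdjoint, star_smul, hz.star_eq]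
    simp
  have hconj : ∀ (c z : H →L[ℂ] H), IsSelfAdjoint c → IsSelfAdjoint z →
      IsSelfAdjoint (c * z * c) := by
    intro c z hc hz
    rw [IsSelfAdjoint, star_mul, star_mul, hc.star_eq, hz.star_eq, mul_assoc]
  have hYs : IsSelfAdjoint Y := by
    apply hconj _ _ hq0.isSelfAdjoint
    apply IsSelfAdjoint.sub
    · apply IsSelfAdjoint.sub
      · exact pinching_isSelfAdjoint hp.proj hxs
      · exact hreal _ _ (hconj _ _ he.isSelfAdjoint hxs)
    · exact hreal _ _ ha0s'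
  have hsmulM : ∀ (c : ℂ) (z : H →L[ℂ] H), z ∈ M → c • z ∈ M := fun c z hz =>
    M.toStarSubalgebra.smul_mem hz c
  have heM : e ∈ M := hA.subset e heA
  have hYM : Y ∈ M := by
    apply mul_mem (mul_mem hq0M _) hq0M
    apply sub_mem
    · apply sub_mem
      · exact pinching_mem (fun j => hA.subset _ (hp.mem j)) hx
      · exact hsmulM _ _ (mul_mem (mul_mem heM hx) heM)
    · exact hsmulM _ _ (hA.subset _ ha0A)
  have hYq0 : Commute q0 Y := by
    have h1 : q0 * q0 = q0 := hq0.isIdempotentElem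
    show q0 * Y = Y * q0
    rw [hY]
    rw [← mul_assoc, ← mul_assoc, h1, mul_assoc _ q0 q0, h1]
  have hYn : ∀ j, ‖Y (ξ j)‖ ≤ η := by
    intro j
    have hdec : Y (ξ j) = q0 ((pinching p x - (((r : ℝ)⁻¹ : ℝ) : ℂ) • (e * x * e)
        - ((1 - (r : ℝ)⁻¹ : ℝ) : ℂ) • pinching C.p x) (q0 (ξ j)))
        + (t : ℂ) • q0 ((pinching C.p x - R) (q0 (ξ j)))
        + (t : ℂ) • q0 ((R - a0) (q0 (ξ j))) := by
      have hq0s : ∀ z : H, (t : ℂ) • q0 z = q0 ((t : ℂ) • z) := fun z => (map_smul q0 _ z).symm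
      rw [hY, mul_apply', mul_apply', hq0s, hq0s, ← map_add, ← map_add]
      congr 1
      simp only [sub_apply, smul_apply, smul_sub]
      rw [← ht]
      abel
    have hn1 : ‖q0 ((pinching p x - (((r : ℝ)⁻¹ : ℝ) : ℂ) • (e * x * e)
        - ((1 - (r : ℝ)⁻¹ : ℝ) : ℂ) • pinching C.p x) (q0 (ξ j)))‖ ≤ η / 4 := by
      apply le_of_sq_le_sq _ (by positivity)
      have h1 := Finset.single_le_sum (f := fun j =>
        ‖q0 ((pinching p x - (((r : ℝ)⁻¹ : ℝ) : ℂ) • (e * x * e)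
        - ((1 - (r : ℝ)⁻¹ : ℝ) : ℂ) • pinching C.p x) (q0 (ξ j)))‖ ^ 2)
        (fun j _ => by positivity) (Finset.mem_univ j)
      refine h1.trans (hpcol.trans ?_)
      have h2 : 0 ≤ δ0 * ‖x‖ ^ 2 * N := by positivity
      linarith
    have hn2 : ‖q0 ((pinching C.p x - R) (q0 (ξ j)))‖ ≤ η / 4 := by
      apply le_of_sq_le_sq _ (by positivity)
      have h1 := Finset.single_le_sum (f := fun j =>
        ‖q0 ((pinching C.p x - R) (q0 (ξ j)))‖ ^ 2)
        (fun j _ => by positivity) (Finset.mem_univ j)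
      exact h1.trans (hClev.trans hδ2)
    have hRn : ‖R‖ ≤ ‖x‖ := by
      calc ‖R‖ ≤ ∑ m, ‖(lam m : ℂ) • pinching C0.p (pinching (B (i m)).p x)‖ := norm_sum_le _ _
        _ ≤ ∑ m, lam m * ‖x‖ := by
            refine Finset.sum_le_sum (fun m _ => ?_)
            rw [norm_smul, Complex.norm_real, Real.norm_eq_abs, abs_of_nonneg (hl0 m)]
            refine mul_le_mul_of_nonneg_left ?_ (hl0 m)
            exact (C0.isPart.pinching_norm_le he _).trans
              ((B (i m)).isPart.pinching_norm_le he x)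
        _ = ‖x‖ := by rw [← Finset.sum_mul, hl1, one_mul]
    have hRe : R * e = R := by
      rw [hR, Finset.sum_mul]
      refine Finset.sum_congr rfl (fun m _ => ?_)
      rw [smul_mul_assoc]
      congr 1
      rw [pinching, Finset.sum_mul]
      refine Finset.sum_congr rfl (fun s _ => ?_)
      rw [mul_assoc _ _ e, (C0.isPart.mul_eq s).2]
    have hn3 : ‖q0 ((R - a0) (q0 (ξ j)))‖ ≤ η / 2 := by
      refine (proj_norm_le hq0 _).trans ?_
      have h1 : (R - a0) (q0 (ξ j)) = (R - a0) (ξ j) - (R - a0) ((e - q0) (ξ j)) := by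
        have h2 : (R - a0) (e (ξ j)) = (R - a0) (ξ j) := by
          have : (R - a0) * e = R - a0 := by rw [sub_mul, hRe, ha0e]
          exact congrArg (fun S : H →L[ℂ] H => S (ξ j)) this
        rw [sub_apply e q0, map_sub (R - a0), h2]
        abel
      rw [h1]
      have h3 : ‖(R - a0) (ξ j)‖ ≤ η / 4 := by
        have := (hmaz j).le
        have h4 : ∑ m, (lam m : ℂ) • (pinching C0.p (pinching (B (i m)).p x)) (ξ j) = R (ξ j) := by
          rw [hR, sum_apply]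
          rfl
        rw [h4] at this
        exact this
      have h5 : ‖(R - a0) ((e - q0) (ξ j))‖ ≤ η / 4 := by
        have h6 : ‖(e - q0) (ξ j)‖ ≤ δ0 := (hq0F _ (hξF j)).le
        calc ‖(R - a0) ((e - q0) (ξ j))‖ ≤ ‖R - a0‖ * ‖(e - q0) (ξ j)‖ :=
              ContinuousLinearMap.le_opNorm _ _
          _ ≤ (2 * ‖x‖) * δ0 := by
              gcongr
              refine (norm_sub_le _ _).trans ?_
              linarith
          _ ≤ _ := hδ3
      refine (norm_sub_le _ _).trans ?_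
      linarith
    rw [hdec]
    have hts : ∀ z : H, ‖(t : ℂ) • z‖ ≤ ‖z‖ := by
      intro z
      rw [norm_smul, Complex.norm_real, Real.norm_eq_abs, abs_of_nonneg ht0]
      exact mul_le_of_le_one_left (norm_nonneg _) ht1
    calc _ ≤ _ := norm_add₃_le
      _ ≤ η / 4 + η / 4 + η / 2 := by
          gcongr
          · exact (hts _).trans hn2
          · exact (hts _).trans hn3
      _ = η := by ring
  obtain ⟨q1, hq1, hq1c, hq1n, hq1v⟩ := spectral_cut Y hYs κ hκpos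
  have hq1M : q1 ∈ M := mem_of_commute_imp hYM hq1c
  have hq01 : q0 * q1 = q1 * q0 := (hq1c q0 hYq0).eq
  have hqp : IsStarProjection (q0 * q1) := hq0.mul hq1 hq01
  refine ⟨p, (t : ℂ) • a0, q0 * q1, hp, A.smul_mem ha0A _, hreal _ _ ha0s', ?_, ?_,
    mul_mem hq0M hq1M, hqp, ?_, ?_, ?_⟩
  · rw [smul_mul_assoc, ha0e]
  · rw [norm_smul, Complex.norm_real, Real.norm_eq_abs, abs_of_nonneg ht0]
    exact (mul_le_of_le_one_left (norm_nonneg _) ht1).trans ha0n
  · rw [hq01, mul_assoc, hq0e]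
  · intro v hv
    obtain ⟨j, rfl⟩ := hξ v hv
    have h1 : (e - q0 * q1) (ξ j) = (e - q0) (ξ j) + q0 (ξ j - q1 (ξ j)) := by
      simp only [sub_apply, mul_apply', map_sub]
      abel
    have h2 : ‖q0 (ξ j - q1 (ξ j))‖ ≤ δ / 2 := by
      refine (proj_norm_le hq0 _).trans ?_
      have h3 := hq1v (ξ j)
      have h4 := hYn j
      have h5 : κ * ‖ξ j - q1 (ξ j)‖ ≤ κ * (δ / 2) := by
        calc κ * ‖ξ j - q1 (ξ j)‖ ≤ ‖Y (ξ j)‖ := h3
          _ ≤ η := h4
          _ = κ * (δ / 2) := by rw [hη]; ring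
      exact le_of_mul_le_mul_left h5 hκpos
    rw [h1]
    calc _ ≤ ‖(e - q0) (ξ j)‖ + ‖q0 (ξ j - q1 (ξ j))‖ := norm_add_le _ _
      _ < δ0 + δ / 2 := by
          have := hq0F _ hv
          linarith
      _ ≤ δ := by linarith
  · have hq0q0 : q0 * q0 = q0 := hq0.isIdempotentElem
    have h1 : q0 * (pinching p x - (t : ℂ) • a0) * q0 =
        (((r : ℝ)⁻¹ : ℝ) : ℂ) • (q0 * x * q0) + Y := by
      rw [hY]
      have h2 : q0 * ((((r : ℝ)⁻¹ : ℝ) : ℂ) • (e * x * e)) * q0 =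
          (((r : ℝ)⁻¹ : ℝ) : ℂ) • (q0 * x * q0) := by
        rw [mul_smul_comm, smul_mul_assoc]
        congr 1
        rw [← mul_assoc, ← mul_assoc, hq0e, mul_assoc _ e q0, hq0e']
      rw [← h2]
      simp only [mul_sub, sub_mul]
      abel
    have h3 : q0 * q1 * (pinching p x - (t : ℂ) • a0) * (q0 * q1) =
        (((r : ℝ)⁻¹ : ℝ) : ℂ) • ((q0 * q1) * x * (q0 * q1)) + q1 * (Y * q1) := by
      calc q0 * q1 * (pinching p x - (t : ℂ) • a0) * (q0 * q1)
          = q1 * (q0 * (pinching p x - (t : ℂ) • a0) * q0) * q1 := by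
            rw [hq01]
            nth_rewrite 2 [← hq01]
            simp only [mul_assoc]
        _ = _ := by
            have h6 : q1 * (q0 * x * q0) * q1 = (q0 * q1) * x * (q0 * q1) := by
              nth_rewrite 1 [hq01]
              simp only [mul_assoc]
            rw [h1, mul_add, add_mul, mul_smul_comm, smul_mul_assoc, h6, mul_assoc q1 Y q1]
    rw [h3]
    have h4 : ‖(q0 * q1) * x * (q0 * q1)‖ ≤ ‖x‖ := by
      calc ‖(q0 * q1) * x * (q0 * q1)‖ ≤ ‖q0 * q1‖ * ‖x‖ * ‖q0 * q1‖ :=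
            (norm_mul_le _ _).trans (by gcongr; exact norm_mul_le _ _)
        _ ≤ 1 * ‖x‖ * 1 := by
            gcongr <;> exact proj_opNorm_le hqp
        _ = ‖x‖ := by ring
    have h5 : ‖q1 * (Y * q1)‖ ≤ κ := by
      calc ‖q1 * (Y * q1)‖ ≤ ‖q1‖ * ‖Y * q1‖ := norm_mul_le _ _
        _ ≤ 1 * κ := by
            gcongr
            exact proj_opNorm_le hq1
        _ = κ := one_mul _
    calc _ ≤ ‖(((r : ℝ)⁻¹ : ℝ) : ℂ) • ((q0 * q1) * x * (q0 * q1))‖ + ‖q1 * (Y * q1)‖ :=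
          norm_add_le _ _
      _ ≤ (r : ℝ)⁻¹ * ‖x‖ + κ := by
          rw [norm_smul, Complex.norm_real, Real.norm_eq_abs, abs_of_pos (by positivity)]
          gcongr
      _ = ε * ‖x‖ := by rw [hκ]; ring

end Vale.Agent.P078
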