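import Vale.Agent.P078.Main

open scoped InnerProductSpace Topology ComplexOrder

namespace Vale.Agent.P078

universe u

variable {H : Type u} [NormedAddCommGroup H] [InnerProductSpace ℂ H] [CompleteSpace H]
variable {A : StarSubalgebra ℂ (H →L[ℂ] H)} {M : VonNeumannAlgebra H} {e f : H →L[ℂ] H}

theorem IsNormalOn.bounded {ψ : (H →L[ℂ] H) → ℂ} (h : IsNormalOn M ψ) :
    ∃ c : ℝ, 0 ≤ c ∧ ∀ x ∈ M, ‖ψ x‖ ≤ c * ‖x‖ := by
  obtain ⟨n, ξ, η, hN⟩ := h 1 one_pos
  refine ⟨1 + ∑ i, ‖η i‖ * ‖ξ i‖, by positivity, ?_⟩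
  intro x hx
  have h1 := hN x hx
  have h2 : ‖∑ i, ⟪η i, x (ξ i)⟫_ℂ‖ ≤ (∑ i, ‖η i‖ * ‖ξ i‖) * ‖x‖ := by
    rw [Finset.sum_mul]
    refine (norm_sum_le _ _).trans (Finset.sum_le_sum (fun i _ => ?_))
    calc ‖⟪η i, x (ξ i)⟫_ℂ‖ ≤ ‖η i‖ * ‖x (ξ i)‖ := norm_inner_le_norm _ _
      _ ≤ ‖η i‖ * (‖x‖ * ‖ξ i‖) := by
          gcongr
          exact ContinuousLinearMap.le_opNorm _ _
      _ = _ := by ring
  have h3 : ‖ψ x‖ ≤ ‖ψ x - ∑ i, ⟪η i, x (ξ i)⟫_ℂ‖ + ‖∑ i, ⟪η i, x (ξ i)⟫_ℂ‖ := by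
    have := norm_add_le (ψ x - ∑ i, ⟪η i, x (ξ i)⟫_ℂ) (∑ i, ⟪η i, x (ξ i)⟫_ℂ)
    rwa [sub_add_cancel] at this
  linarith

/-- rank one operator `z ↦ ⟪w, z⟫ v` -/
noncomputable def rk (v w : H) : H →L[ℂ] H := InnerProductSpace.rankOne ℂ v w

theorem rk_apply (v w z : H) : rk v w z = ⟪w, z⟫_ℂ • v := rfl

theorem rk_norm (v w : H) : ‖rk v w‖ = ‖v‖ * ‖w‖ := InnerProductSpace.norm_rankOne v w

theorem star_rk (v w : H) : star (rk v w) = rk w v := by
  rw [ContinuousLinearMap.star_eq_adjoint]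
  exact InnerProductSpace.adjoint_rankOne v w

theorem mul_rk (a : H →L[ℂ] H) (v w : H) : a * rk v w = rk (a v) w := by
  ext z
  rw [mul_apply', rk_apply, rk_apply, map_smul]

theorem rk_mul (a : H →L[ℂ] H) (v w : H) : rk v w * a = rk v (star a w) := by
  ext z
  rw [mul_apply', rk_apply, rk_apply, ContinuousLinearMap.star_eq_adjoint,
    ContinuousLinearMap.adjoint_inner_left]

theorem exists_density (hM : ∀ x : H →L[ℂ] H, x ∈ M) {ψ : (H →L[ℂ] H) →ₗ[ℂ] ℂ}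
    (hψ : IsCentralised M A ψ) :
    ∃ S : H →L[ℂ] H, ∀ w v, ⟪S w, v⟫_ℂ = ψ (rk v w) := by
  obtain ⟨c, hc0, hc⟩ := hψ.normal.bounded
  let B : H →ₗ⋆[ℂ] H →ₗ[ℂ] ℂ :=
    LinearMap.mk₂'ₛₗ (starRingEnd ℂ) (RingHom.id ℂ) (fun w v => ψ (rk v w))
      (fun w w' v => by
        rw [← map_add]; congr 1; ext z; simp [rk_apply, inner_add_left, add_smul])
      (fun k w v => by
        rw [smul_eq_mul, ← smul_eq_mul, ← map_smul]; congr 1; ext z
        simp only [rk_apply, smul_apply, inner_smul_left]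
        rw [mul_smul])
      (fun w v v' => by
        rw [← map_add]; congr 1; ext z; simp [rk_apply, smul_add])
      (fun k w v => by
        rw [RingHom.id_apply, ← map_smul]; congr 1; ext z
        simp only [rk_apply, smul_apply]
        rw [smul_comm])
  let B' : H →L⋆[ℂ] H →L[ℂ] ℂ := B.mkContinuous₂ c (fun w v => by
    show ‖ψ (rk v w)‖ ≤ c * ‖w‖ * ‖v‖
    refine (hc _ (hM _)).trans ?_
    rw [rk_norm]
    exact le_of_eq (by ring))
  refine ⟨InnerProductSpace.continuousLinearMapOfBilin B', fun w v => ?_⟩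
  exact InnerProductSpace.continuousLinearMapOfBilin_apply B' w v

theorem density_commute (hM : ∀ x : H →L[ℂ] H, x ∈ M) {ψ : (H →L[ℂ] H) →ₗ[ℂ] ℂ}
    (hψ : IsCentralised M A ψ) {S : H →L[ℂ] H} (hS : ∀ w v, ⟪S w, v⟫_ℂ = ψ (rk v w))
    {a : H →L[ℂ] H} (ha : a ∈ A) : a * S = S * a := by
  ext w
  apply ext_inner_right ℂ
  intro v
  have h1 := hψ.central (star a) (star_mem ha) (rk v w) (hM _)
  rw [mul_rk, rk_mul, star_star, ← hS, ← hS] at h1
  rw [mul_apply', mul_apply', ← h1, ContinuousLinearMap.star_eq_adjoint,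
    ContinuousLinearMap.adjoint_inner_right]

theorem density_pos (hM : ∀ x : H →L[ℂ] H, x ∈ M) {ψ : (H →L[ℂ] H) →ₗ[ℂ] ℂ}
    (hψ : IsCentralised M A ψ) {S : H →L[ℂ] H} (hS : ∀ w v, ⟪S w, v⟫_ℂ = ψ (rk v w)) :
    0 ≤ S := by
  have h1 : ∀ v, 0 ≤ ψ (rk v v) := by
    intro v
    by_cases hv : ‖v‖ = 0
    · have : v = 0 := norm_eq_zero.mp hv
      subst this
      have : rk (0 : H) 0 = 0 := by ext z; simp [rk_apply]
      rw [this, map_zero]
    · set u : H := ((‖v‖⁻¹ : ℝ) : ℂ) • v with hu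
      have hu1 : ⟪u, u⟫_ℂ = 1 := by
        rw [hu, inner_smul_left, inner_smul_right, inner_self_eq_norm_sq_to_K, Complex.conj_ofReal]
        push_cast
        have : (‖v‖ : ℂ) ≠ 0 := by exact_mod_cast hv
        field_simp
        simp
      have h2 : star (rk u v) * rk u v = rk v v := by
        rw [star_rk]
        ext z
        rw [mul_apply', rk_apply, rk_apply, rk_apply, inner_smul_right, hu1, mul_one]
      rw [← h2]
      exact hψ.pos _ (hM _)
  rw [ContinuousLinearMap.nonneg_iff_isPositive, ContinuousLinearMap.isPositive_iff_complex]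
  intro v
  have h2 := h1 v
  rw [← hS, Complex.le_def] at h2
  refine ⟨?_, h2.1⟩
  apply Complex.ext
  · simp
  · simpa using h2.2

theorem density_ne_zero (hM : ∀ x : H →L[ℂ] H, x ∈ M) {ψ : (H →L[ℂ] H) →ₗ[ℂ] ℂ}
    (hψ : IsCentralised M A ψ) (h0 : ∀ w v, ψ (rk v w) = 0) (x : H →L[ℂ] H) : ψ x = 0 := by
  classical
  rw [← norm_le_zero_iff]
  apply le_of_forall_pos_le_add
  intro ε hε
  obtain ⟨n, ξ, η, hN⟩ := hψ.normal (ε / (2 * (‖x‖ + 1))) (by positivity)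
  let V : Submodule ℂ H := Submodule.span ℂ (Set.range ξ)
  have hV : FiniteDimensional ℂ V := FiniteDimensional.span_of_finite ℂ (Set.finite_range ξ)
  let b := stdOrthonormalBasis ℂ V
  let P : H →L[ℂ] H := ∑ i, rk (b i : H) (b i : H)
  have hPV : ∀ v ∈ V, P v = v := by
    intro v hv
    have h1 := b.sum_repr' ⟨v, hv⟩
    have h2 := congrArg (Subtype.val) h1
    show (∑ i, rk (b i : H) (b i : H)) v = v
    rw [sum_apply]
    simp only [rk_apply]
    have h3 : (∑ i, ⟪b i, (⟨v, hv⟩ : V)⟫_ℂ • b i : V).1 = ∑ i, ⟪(b i : H), v⟫_ℂ • (b i : H) := by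
      rw [Submodule.coe_sum]
      rfl
    rw [← h3]
    exact h2
  have hPn : ‖P‖ ≤ 1 := by
    have hPsa : IsSelfAdjoint P := by
      apply isSelfAdjoint_sum
      intro i _
      rw [IsSelfAdjoint, star_rk]
    have hPP : P * P = P := by
      ext v
      rw [mul_apply']
      apply hPV
      show (∑ i, rk (b i : H) (b i : H)) v ∈ V
      rw [sum_apply]
      exact Submodule.sum_mem _ (fun i _ => by
        rw [rk_apply]; exact V.smul_mem _ (b i).2)
    exact proj_opNorm_le ⟨hPP, hPsa⟩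
  have hxP : ψ (x * P) = 0 := by
    show ψ (x * ∑ i, rk (b i : H) (b i : H)) = 0
    rw [Finset.mul_sum, map_sum]
    refine Finset.sum_eq_zero (fun i _ => ?_)
    rw [mul_rk]
    exact h0 _ _
  have h1 := hN x (hM _)
  have h2 := hN (x * P) (hM _)
  have h3 : ∑ i, ⟪η i, (x * P) (ξ i)⟫_ℂ = ∑ i, ⟪η i, x (ξ i)⟫_ℂ := by
    refine Finset.sum_congr rfl (fun i _ => ?_)
    rw [mul_apply', hPV _ (Submodule.subset_span (Set.mem_range_self i))]
  rw [h3, hxP, zero_sub, norm_neg] at h2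
  have h4 : ‖x * P‖ ≤ ‖x‖ := by
    calc ‖x * P‖ ≤ ‖x‖ * ‖P‖ := norm_mul_le _ _
      _ ≤ ‖x‖ * 1 := by gcongr
      _ = ‖x‖ := mul_one _
  have h5 : ‖ψ x‖ ≤ ‖ψ x - ∑ i, ⟪η i, x (ξ i)⟫_ℂ‖ + ‖∑ i, ⟪η i, x (ξ i)⟫_ℂ‖ := by
    have := norm_add_le (ψ x - ∑ i, ⟪η i, x (ξ i)⟫_ℂ) (∑ i, ⟪η i, x (ξ i)⟫_ℂ)
    rwa [sub_add_cancel] at this
  have h6 : ε / (2 * (‖x‖ + 1)) * ‖x‖ ≤ ε / 2 := by
    rw [div_mul_eq_mul_div, div_le_div_iff₀ (by positivity) (by positivity)]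
    nlinarith [norm_nonneg x]
  have h7 : ε / (2 * (‖x‖ + 1)) * ‖x * P‖ ≤ ε / (2 * (‖x‖ + 1)) * ‖x‖ := by gcongr
  linarith

theorem proj_eq_of_range {g g' : H →L[ℂ] H} (hg : IsStarProjection g) (hg' : IsStarProjection g')
    (h : g * g' = g') (hr : ∀ v, ∃ w, g v = g' w) : g' = g := by
  have h' : g' * g = g' := by
    have := congrArg star h
    rwa [star_mul, hg.isSelfAdjoint.star_eq, hg'.isSelfAdjoint.star_eq] at this
  have h2 : g' * g = g := by
    ext v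
    obtain ⟨w, hw⟩ := hr v
    rw [mul_apply', hw]
    exact congrArg (fun S : H →L[ℂ] H => S w) hg'.isIdempotentElem
  rw [← h', h2]

theorem no_centralised_of_diffuse (hM : ∀ x : H →L[ℂ] H, x ∈ M) (hA : IsMASA M A)
    (hdiff : ∀ g ∈ A, IsStarProjection g → g ≠ 0 →
      ∃ g' ∈ A, IsStarProjection g' ∧ g * g' = g' ∧ g' ≠ 0 ∧ g' ≠ g)
    {ψ : (H →L[ℂ] H) →ₗ[ℂ] ℂ} (hψ : IsCentralised M A ψ) (x : H →L[ℂ] H) : ψ x = 0 := by
  classical
  obtain ⟨S, hS⟩ := exists_density hM hψ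
  apply density_ne_zero hM hψ
  by_contra hne
  push Not at hne
  obtain ⟨w0, v0, hwv⟩ := hne
  have hSA : S ∈ A := by
    rw [hA.mem_iff]
    exact ⟨hM _, fun a ha => density_commute hM hψ hS ha⟩
  have hS0 := density_pos hM hψ hS
  have hSne : S ≠ 0 := by
    intro h
    apply hwv
    rw [← hS, h]; simp
  have hSn : 0 < ‖S‖ := norm_pos_iff.mpr hSne
  set κ := ‖S‖ / 2 with hκ
  have hκ0 : 0 < κ := by positivity
  obtain ⟨q, hq, hqc, hqa, hqb⟩ := spectral_cut_pos S hS0 κ hκ0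
  have hqA : q ∈ A := hA.mem_of_commute_imp hSA hqc
  set E := 1 - q with hE
  have hEA : E ∈ A := sub_mem (one_mem A) hqA
  have hEp : IsStarProjection E := hq.one_sub
  have hE0 : E ≠ 0 := by
    intro h
    have hq1 : q = 1 := (sub_eq_zero.mp h).symm
    have h1 : S ≤ κ • (1 : H →L[ℂ] H) := by
      rw [le_iff_re (IsSelfAdjoint.of_nonneg hS0) (isSelfAdjoint_smul_one κ)]
      intro v
      have := hqa v
      rw [hq1] at this
      rw [re_real_smul_inner, one_apply_eq_self, norm_sq_re_inner]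
      exact this
    have h2 : ‖S‖ ≤ κ := by
      have h3 := CStarAlgebra.norm_le_norm_of_nonneg_of_le hS0 h1
      refine h3.trans ?_
      rw [norm_smul, Real.norm_eq_abs, abs_of_pos hκ0]
      calc κ * ‖(1 : H →L[ℂ] H)‖ ≤ κ * 1 := by
            gcongr
            exact ContinuousLinearMap.opNorm_le_bound _ zero_le_one (fun v => by simp)
        _ = κ := mul_one κ
    linarith
  obtain ⟨n, ξ, η, hN⟩ := hψ.normal (κ / 2) (by positivity)
  have hEfin : FiniteDimensional ℂ (LinearMap.range E.toLinearMap) := by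
    let T : LinearMap.range E.toLinearMap →ₗ[ℂ] (Fin n → ℂ) :=
      { toFun := fun v i => ⟪ξ i, (v : H)⟫_ℂ
        map_add' := fun a b => by funext i; simp [inner_add_right]
        map_smul' := fun c a => by funext i; simp [inner_smul_right] }
    apply FiniteDimensional.of_injective T
    rw [← LinearMap.ker_eq_bot, LinearMap.ker_eq_bot']
    rintro ⟨v, hv⟩ hTv
    have hvξ : ∀ i, ⟪ξ i, v⟫_ℂ = 0 := fun i => congrFun hTv i
    have hEv : E v = v := by
      obtain ⟨z, hz⟩ := hv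
      have hz' : E z = v := hz
      rw [← hz']
      exact congrArg (fun S : H →L[ℂ] H => S z) hEp.isIdempotentElem
    have hqv : q v = 0 := by
      have : v - q v = v := hEv
      rwa [sub_eq_self] at this
    have h1 := hqb v
    rw [hqv, sub_zero, hS] at h1
    have h2 := hN (rk v v) (hM _)
    have h3 : ∑ i, ⟪η i, rk v v (ξ i)⟫_ℂ = 0 := by
      refine Finset.sum_eq_zero (fun i _ => ?_)
      rw [rk_apply, ← inner_conj_symm v (ξ i), hvξ i]
      simp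
    rw [h3, sub_zero, rk_norm] at h2
    have h4 : κ * ‖v‖ ^ 2 ≤ κ / 2 * ‖v‖ ^ 2 := by
      calc κ * ‖v‖ ^ 2 ≤ (ψ (rk v v)).re := h1
        _ ≤ ‖ψ (rk v v)‖ := Complex.re_le_norm _
        _ ≤ κ / 2 * (‖v‖ * ‖v‖) := h2
        _ = _ := by ring
    have h5 : ‖v‖ ^ 2 ≤ 0 := by nlinarith [sq_nonneg ‖v‖]
    have h6 : v = 0 := by
      have : ‖v‖ = 0 := by
        have := le_antisymm h5 (sq_nonneg _)
        exact pow_eq_zero_iff (two_ne_zero) |>.mp this
      exact norm_eq_zero.mp this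
    exact Subtype.ext h6
  let P : ℕ → Prop := fun d => ∃ g ∈ A, IsStarProjection g ∧ g ≠ 0 ∧ E * g = g ∧
    Module.finrank ℂ (LinearMap.range g.toLinearMap) = d
  have hP : ∃ d, P d := ⟨_, E, hEA, hEp, hE0, hEp.isIdempotentElem, rfl⟩
  obtain ⟨g, hgA, hgp, hg0, hEg, hgd⟩ := Nat.find_spec hP
  obtain ⟨g', hg'A, hg'p, hgg', hg'0, hg'g⟩ := hdiff g hgA hgp hg0
  have hEg' : E * g' = g' := by rw [← hgg', ← mul_assoc, hEg]
  have hmin := Nat.find_min' hP ⟨g', hg'A, hg'p, hg'0, hEg', rfl⟩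
  rw [← hgd] at hmin
  have hle : LinearMap.range g'.toLinearMap ≤ LinearMap.range g.toLinearMap := by
    rintro _ ⟨v, rfl⟩
    refine ⟨g' v, ?_⟩
    exact congrArg (fun S : H →L[ℂ] H => S v) hgg'
  have hgE : LinearMap.range g.toLinearMap ≤ LinearMap.range E.toLinearMap := by
    rintro _ ⟨v, rfl⟩
    refine ⟨g v, ?_⟩
    exact congrArg (fun S : H →L[ℂ] H => S v) hEg
  have hgfin : FiniteDimensional ℂ (LinearMap.range g.toLinearMap) :=
    Submodule.finiteDimensional_of_le hgE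
  have heq := Submodule.eq_of_le_of_finrank_le hle hmin
  apply hg'g
  apply proj_eq_of_range hgp hg'p hgg'
  intro v
  have : g v ∈ LinearMap.range g'.toLinearMap := by
    rw [heq]; exact ⟨v, rfl⟩
  obtain ⟨w, hw⟩ := this
  exact ⟨w, hw.symm⟩

end Vale.Agent.P078
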