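import Mathlib

open scoped InnerProductSpace

namespace Vale.Agent.P078

theorem greedy_choice {V : Type*} [NormedAddCommGroup V] [InnerProductSpace ℂ V]
    {ι μ : Type*} [Fintype μ] (lam : μ → ℝ) (hlam : ∀ m, 0 ≤ lam m) (hsum : ∑ m, lam m = 1)
    (v : ι → μ → V) (β : ι → ℝ) (hv : ∀ s, ∑ m, (lam m : ℂ) • v s m = 0)
    (hβ : ∀ s m, ‖v s m‖ ^ 2 ≤ β s) (S : Finset ι) :
    ∃ c : ι → μ, ‖∑ s ∈ S, v s (c s)‖ ^ 2 ≤ ∑ s ∈ S, β s := by
  classical
  have hn : Nonempty (μ) := by
    by_contra h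
    rw [not_nonempty_iff] at h
    simp at hsum
  induction S using Finset.induction_on with
  | empty => exact ⟨fun _ => Classical.arbitrary _, by simp⟩
  | insert a S ha ih =>
    obtain ⟨c, hc⟩ := ih
    set w := ∑ s ∈ S, v s (c s) with hw
    have hex : ∃ m, ‖w + v a m‖ ^ 2 ≤ ‖w‖ ^ 2 + β a := by
      by_contra hcon
      push Not at hcon
      have h1 : ∑ m, lam m * (‖w‖ ^ 2 + β a) < ∑ m, lam m * ‖w + v a m‖ ^ 2 := by
        obtain ⟨m0, hm0⟩ : ∃ m0, 0 < lam m0 := by
          by_contra h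
          push Not at h
          have : ∑ m, lam m ≤ 0 := Finset.sum_nonpos (fun m _ => h m)
          linarith
        apply Finset.sum_lt_sum
        · intro m _
          exact mul_le_mul_of_nonneg_left (hcon m).le (hlam m)
        · exact ⟨m0, Finset.mem_univ _, mul_lt_mul_of_pos_left (hcon m0) hm0⟩
      have h2 : ∑ m, lam m * ‖w + v a m‖ ^ 2 =
          ‖w‖ ^ 2 + 2 * (⟪w, ∑ m, (lam m : ℂ) • v a m⟫_ℂ).re + ∑ m, lam m * ‖v a m‖ ^ 2 := by
        have h3 : ∀ m, lam m * ‖w + v a m‖ ^ 2 =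
            lam m * ‖w‖ ^ 2 + 2 * (lam m * (⟪w, v a m⟫_ℂ).re) + lam m * ‖v a m‖ ^ 2 := by
          intro m
          rw [@norm_add_sq ℂ]
          simp only [RCLike.re_to_complex]
          ring
        simp_rw [h3]
        rw [Finset.sum_add_distrib, Finset.sum_add_distrib, ← Finset.sum_mul, hsum, one_mul,
          ← Finset.mul_sum, inner_sum, Complex.re_sum]
        congr 3
        refine Finset.sum_congr rfl (fun m _ => ?_)
        rw [inner_smul_right, Complex.re_ofReal_mul]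
      rw [hv a, inner_zero_right] at h2
      have h4 : ∑ m, lam m * ‖v a m‖ ^ 2 ≤ β a := by
        calc ∑ m, lam m * ‖v a m‖ ^ 2 ≤ ∑ m, lam m * β a :=
              Finset.sum_le_sum (fun m _ => mul_le_mul_of_nonneg_left (hβ a m) (hlam m))
          _ = β a := by rw [← Finset.sum_mul, hsum, one_mul]
      rw [← Finset.sum_mul, hsum, one_mul] at h1
      simp only [Complex.zero_re, mul_zero, add_zero] at h2
      linarith
    obtain ⟨m, hm⟩ := hex
    refine ⟨Function.update c a m, ?_⟩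
    rw [Finset.sum_insert ha, Finset.sum_insert ha, Function.update_self]
    have h5 : ∑ s ∈ S, v s (Function.update c a m s) = w := by
      refine Finset.sum_congr rfl (fun s hs => ?_)
      have : s ≠ a := fun h => ha (h ▸ hs)
      rw [Function.update_of_ne this]
    rw [h5, add_comm (v a m) w]
    linarith

noncomputable def theta {ι G : Type*} [DecidableEq G] (r : ℕ) (κ : ι → G) (s t : ι) : ℝ :=
  (if κ s = κ t then 1 else 0) - 1 / r

theorem theta_comm {ι G : Type*} [DecidableEq G] {r : ℕ} (κ : ι → G) (s t : ι) :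
    theta r κ s t = theta r κ t s := by
  unfold theta
  simp only [eq_comm]

theorem abs_theta_le {ι G : Type*} [DecidableEq G] {r : ℕ} (hr : 0 < r) (κ : ι → G) (s t : ι) :
    |theta r κ s t| ≤ 1 := by
  have h1 : (0 : ℝ) < r := by exact_mod_cast hr
  have h2 : (1 : ℝ) / r ≤ 1 := by
    rw [div_le_one h1]; exact_mod_cast hr
  have h3 : (0 : ℝ) < 1 / r := by positivity
  unfold theta
  split_ifs <;> rw [abs_le] <;> constructor <;> linarith

theorem sum_theta_mul {ι G : Type*} [Fintype ι] [DecidableEq ι] [Fintype G] [DecidableEq G]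
    [AddCommGroup G] {r : ℕ} (hr : Fintype.card G = r)
    (s t s' t' : ι) (hst : s ≠ t) (h1 : t ≠ s') (h2 : t ≠ t') :
    ∑ κ : ι → G, theta r κ s t * theta r κ s' t' = 0 := by
  have hr0 : 0 < r := by rw [← hr]; exact Fintype.card_pos
  have hrr : (r : ℝ) ≠ 0 := by exact_mod_cast hr0.ne'
  have key : ∀ j : G, ∑ κ : ι → G, theta r κ s t * theta r κ s' t' =
      ∑ κ : ι → G, theta r (κ + (Pi.single t j : ι → G)) s t * theta r (κ + (Pi.single t j : ι → G)) s' t' := by
    intro j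
    exact (Equiv.sum_comp (Equiv.addRight (Pi.single t j : ι → G))
      (fun κ => theta r κ s t * theta r κ s' t')).symm
  have e1 : ∀ (κ : ι → G) (j : G), theta r (κ + (Pi.single t j : ι → G)) s' t' = theta r κ s' t' := by
    intro κ j
    unfold theta
    simp [h1.symm, h2.symm]
  have e2 : ∀ (κ : ι → G) (j : G), theta r (κ + (Pi.single t j : ι → G)) s t =
      (if j = κ s - κ t then 1 else 0) - 1 / r := by
    intro κ j
    unfold theta
    have h4 : (κ + (Pi.single t j : ι → G)) s = κ s := by simp [hst]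
    have h5 : (κ + (Pi.single t j : ι → G)) t = κ t + j := by simp
    rw [h4, h5]
    have h6 : (κ s = κ t + j) ↔ (j = κ s - κ t) := by
      constructor
      · intro h; rw [h]; abel
      · intro h; rw [h]; abel
    simp only [h6]
  have h3 : (r : ℝ) * ∑ κ : ι → G, theta r κ s t * theta r κ s' t' = 0 := by
    calc (r : ℝ) * ∑ κ : ι → G, theta r κ s t * theta r κ s' t'
        = ∑ j : G, ∑ κ : ι → G, theta r κ s t * theta r κ s' t' := by
          rw [Finset.sum_const, nsmul_eq_mul, Finset.card_univ, hr]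
      _ = ∑ j : G, ∑ κ : ι → G,
            theta r (κ + (Pi.single t j : ι → G)) s t * theta r (κ + (Pi.single t j : ι → G)) s' t' :=
          Finset.sum_congr rfl (fun j _ => key j)
      _ = ∑ κ : ι → G, ∑ j : G,
            theta r (κ + (Pi.single t j : ι → G)) s t * theta r (κ + (Pi.single t j : ι → G)) s' t' :=
          Finset.sum_comm
      _ = ∑ κ : ι → G, 0 := by
          refine Finset.sum_congr rfl (fun κ _ => ?_)
          simp_rw [e1, e2]
          rw [← Finset.sum_mul, Finset.sum_sub_distrib, Finset.sum_ite_eq', Finset.sum_const,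
            Finset.card_univ, hr]
          simp [hrr]
      _ = 0 := by simp
  exact (mul_eq_zero.mp h3).resolve_left hrr

theorem coloring {V : Type*} [NormedAddCommGroup V] [InnerProductSpace ℂ V]
    {ι G : Type*} [Fintype ι] [DecidableEq ι] [Fintype G] [DecidableEq G]
    [AddCommGroup G] {r : ℕ} (hr : Fintype.card G = r) (v : ι → ι → V) :
    ∃ κ : ι → G,
      ‖∑ x ∈ (Finset.univ : Finset ι).offDiag, ((theta r κ x.1 x.2 : ℝ) : ℂ) • v x.1 x.2‖ ^ 2 ≤
        2 * ∑ s, ∑ t, ‖v s t‖ ^ 2 := by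
  have hr0 : 0 < r := by rw [← hr]; exact Fintype.card_pos
  set E := (Finset.univ : Finset ι).offDiag with hE
  set N : ℝ := ((Fintype.card (ι → G) : ℕ) : ℝ) with hN
  have hNpos : 0 < N := by
    rw [hN]; exact_mod_cast Fintype.card_pos
  set C : ι × ι → ι × ι → ℝ := fun x y =>
    ∑ κ : ι → G, theta r κ x.1 x.2 * theta r κ y.1 y.2 with hC
  have hCN : ∀ x y, |C x y| ≤ N := by
    intro x y
    calc |C x y| ≤ ∑ κ : ι → G, |theta r κ x.1 x.2 * theta r κ y.1 y.2| :=
          Finset.abs_sum_le_sum_abs _ _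
      _ ≤ ∑ κ : ι → G, (1 : ℝ) := by
          refine Finset.sum_le_sum (fun κ _ => ?_)
          rw [abs_mul]
          have h1 := abs_theta_le hr0 κ x.1 x.2
          have h2 := abs_theta_le hr0 κ y.1 y.2
          have h3 := abs_nonneg (theta r κ x.1 x.2)
          have h4 := abs_nonneg (theta r κ y.1 y.2)
          nlinarith
      _ = N := by simp [hN]
  have hCsymm : ∀ x y, C x y = C y x := by
    intro x y
    simp only [hC, mul_comm]
  have hC0 : ∀ x ∈ E, ∀ y ∈ E, y ≠ x → y ≠ x.swap → C x y = 0 := by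
    rintro ⟨s, t⟩ hx ⟨s', t'⟩ hy h1 h2
    simp only [hE, Finset.mem_offDiag, Finset.mem_univ, true_and] at hx hy
    simp only [hC]
    by_cases ht : t ≠ s' ∧ t ≠ t'
    · exact sum_theta_mul hr s t s' t' hx ht.1 ht.2
    · have hs : s ≠ s' ∧ s ≠ t' := by
        by_contra hs
        simp only [ne_eq, not_and_or, not_not] at ht hs
        simp only [ne_eq, Prod.mk.injEq, Prod.swap_prod_mk] at h1 h2
        rcases ht with rfl | rfl <;> rcases hs with rfl | rfl
        · exact hx rfl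
        · exact h2 ⟨rfl, rfl⟩
        · exact h1 ⟨rfl, rfl⟩
        · exact hx rfl
      have := sum_theta_mul hr t s s' t' hx.symm hs.1 hs.2
      rw [← this]
      refine Finset.sum_congr rfl (fun κ _ => ?_)
      rw [theta_comm κ s t]
  have hrow : ∀ x ∈ E, ∑ y ∈ E, |C x y| ≤ 2 * N := by
    intro x hx
    calc ∑ y ∈ E, |C x y| ≤ ∑ y ∈ ({x, x.swap} : Finset (ι × ι)), N := by
          rw [← Finset.sum_filter_add_sum_filter_not E
            (fun y => y ∈ ({x, x.swap} : Finset (ι × ι)))]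
          have h0 : ∑ y ∈ E with ¬ (y ∈ ({x, x.swap} : Finset (ι × ι))), |C x y| = 0 := by
            apply Finset.sum_eq_zero
            intro y hy
            simp only [Finset.mem_filter, Finset.mem_insert, Finset.mem_singleton, not_or] at hy
            rw [hC0 x hx y hy.1 hy.2.1 hy.2.2, abs_zero]
          rw [h0, add_zero]
          calc ∑ y ∈ E with y ∈ ({x, x.swap} : Finset (ι × ι)), |C x y|
              ≤ ∑ y ∈ E with y ∈ ({x, x.swap} : Finset (ι × ι)), N :=
                Finset.sum_le_sum (fun y _ => hCN x y)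
            _ ≤ _ := by
                apply Finset.sum_le_sum_of_subset_of_nonneg
                · intro y hy
                  exact (Finset.mem_filter.mp hy).2
                · intro _ _ _; exact hNpos.le
      _ ≤ 2 * N := by
          rw [Finset.sum_const, nsmul_eq_mul]
          have : (({x, x.swap} : Finset (ι × ι)).card : ℝ) ≤ 2 := by
            exact_mod_cast Finset.card_le_two
          nlinarith
  have htotal : ∑ κ : ι → G, ‖∑ x ∈ E, ((theta r κ x.1 x.2 : ℝ) : ℂ) • v x.1 x.2‖ ^ 2 ≤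
      N * (2 * ∑ s, ∑ t, ‖v s t‖ ^ 2) := by
    have e1 : ∀ κ : ι → G, ‖∑ x ∈ E, ((theta r κ x.1 x.2 : ℝ) : ℂ) • v x.1 x.2‖ ^ 2 =
        ∑ x ∈ E, ∑ y ∈ E, (theta r κ x.1 x.2 * theta r κ y.1 y.2) *
          (⟪v x.1 x.2, v y.1 y.2⟫_ℂ).re := by
      intro κ
      rw [← inner_self_eq_norm_sq (𝕜 := ℂ), sum_inner, RCLike.re_to_complex, Complex.re_sum]
      refine Finset.sum_congr rfl (fun x _ => ?_)
      rw [inner_sum, Complex.re_sum]
      refine Finset.sum_congr rfl (fun y _ => ?_)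
      rw [inner_smul_left, inner_smul_right, Complex.conj_ofReal, ← mul_assoc,
        ← Complex.ofReal_mul, Complex.re_ofReal_mul]
    simp_rw [e1]
    rw [Finset.sum_comm]
    have e2 : ∀ x ∈ E, ∑ κ : ι → G, ∑ y ∈ E, (theta r κ x.1 x.2 * theta r κ y.1 y.2) *
          (⟪v x.1 x.2, v y.1 y.2⟫_ℂ).re =
        ∑ y ∈ E, C x y * (⟪v x.1 x.2, v y.1 y.2⟫_ℂ).re := by
      intro x _
      rw [Finset.sum_comm]
      refine Finset.sum_congr rfl (fun y _ => ?_)
      rw [← Finset.sum_mul]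
    rw [Finset.sum_congr rfl e2]
    have e3 : ∀ x ∈ E, ∀ y ∈ E, C x y * (⟪v x.1 x.2, v y.1 y.2⟫_ℂ).re ≤
        |C x y| * (‖v x.1 x.2‖ ^ 2 / 2) + |C y x| * (‖v y.1 y.2‖ ^ 2 / 2) := by
      intro x _ y _
      have h1 : C x y * (⟪v x.1 x.2, v y.1 y.2⟫_ℂ).re ≤
          |C x y| * |(⟪v x.1 x.2, v y.1 y.2⟫_ℂ).re| := by
        rw [← abs_mul]; exact le_abs_self _
      have h2 : |(⟪v x.1 x.2, v y.1 y.2⟫_ℂ).re| ≤ ‖v x.1 x.2‖ * ‖v y.1 y.2‖ :=
        (Complex.abs_re_le_norm _).trans (norm_inner_le_norm _ _)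
      have h3 : ‖v x.1 x.2‖ * ‖v y.1 y.2‖ ≤ ‖v x.1 x.2‖ ^ 2 / 2 + ‖v y.1 y.2‖ ^ 2 / 2 := by
        nlinarith [sq_nonneg (‖v x.1 x.2‖ - ‖v y.1 y.2‖)]
      rw [← hCsymm x y, ← mul_add]
      refine h1.trans ?_
      exact mul_le_mul_of_nonneg_left (h2.trans h3) (abs_nonneg _)
    calc ∑ x ∈ E, ∑ y ∈ E, C x y * (⟪v x.1 x.2, v y.1 y.2⟫_ℂ).re
        ≤ ∑ x ∈ E, ∑ y ∈ E, (|C x y| * (‖v x.1 x.2‖ ^ 2 / 2) + |C y x| * (‖v y.1 y.2‖ ^ 2 / 2)) :=
          Finset.sum_le_sum (fun x hx => Finset.sum_le_sum (fun y hy => e3 x hx y hy))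
      _ = 2 * ∑ x ∈ E, ∑ y ∈ E, |C x y| * (‖v x.1 x.2‖ ^ 2 / 2) := by
          simp_rw [Finset.sum_add_distrib]
          rw [two_mul]
          congr 1
          rw [Finset.sum_comm]
      _ = ∑ x ∈ E, (∑ y ∈ E, |C x y|) * ‖v x.1 x.2‖ ^ 2 := by
          rw [Finset.mul_sum]
          refine Finset.sum_congr rfl (fun x _ => ?_)
          rw [← Finset.sum_mul]; ring
      _ ≤ ∑ x ∈ E, (2 * N) * ‖v x.1 x.2‖ ^ 2 :=
          Finset.sum_le_sum (fun x hx => mul_le_mul_of_nonneg_right (hrow x hx) (by positivity))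
      _ ≤ ∑ x : ι × ι, (2 * N) * ‖v x.1 x.2‖ ^ 2 := by
          apply Finset.sum_le_sum_of_subset_of_nonneg (Finset.subset_univ _)
          intro _ _ _; positivity
      _ = N * (2 * ∑ s, ∑ t, ‖v s t‖ ^ 2) := by
          rw [Fintype.sum_prod_type, Finset.mul_sum, Finset.mul_sum]
          refine Finset.sum_congr rfl (fun s _ => ?_)
          rw [Finset.mul_sum, Finset.mul_sum]
          refine Finset.sum_congr rfl (fun t _ => ?_)
          ring
  by_contra hcon
  push Not at hcon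
  have : N * (2 * ∑ s, ∑ t, ‖v s t‖ ^ 2) <
      ∑ κ : ι → G, ‖∑ x ∈ E, ((theta r κ x.1 x.2 : ℝ) : ℂ) • v x.1 x.2‖ ^ 2 := by
    calc N * (2 * ∑ s, ∑ t, ‖v s t‖ ^ 2) = ∑ κ : ι → G, (2 * ∑ s, ∑ t, ‖v s t‖ ^ 2) := by
          rw [Finset.sum_const, nsmul_eq_mul, hN]; rfl
      _ < _ := by
          apply Finset.sum_lt_sum_of_nonempty Finset.univ_nonempty
          intro κ _
          exact hcon κ
  linarith

end Vale.Agent.P078
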