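import Vale.Agent.P078.Lower3

open scoped InnerProductSpace Topology ComplexOrder
open Filter

namespace Vale.Agent.P078

universe u

variable {H : Type u} [NormedAddCommGroup H] [InnerProductSpace ℂ H] [CompleteSpace H]
variable {A : StarSubalgebra ℂ (H →L[ℂ] H)} {M : VonNeumannAlgebra H} {e f : H →L[ℂ] H}

theorem SoPavableOn.corner (hA : IsMASA M A) (heA : e ∈ A) (he : IsStarProjection e)
    (hf : IsStarProjection f) (hef : e * f = e) {x : H →L[ℂ] H}
    (hexe : e * x * e = x) {ε ε' : ℝ} (hεε : ε < ε') {r : ℕ}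
    (h : SoPavableOn M A f x ε r) : SoPavableOn M A e x ε' r := by
  classical
  have hee : e * e = e := he.isIdempotentElem
  have hfe : f * e = e := by
    have := congrArg star hef
    rwa [star_mul, hf.isSelfAdjoint.star_eq, he.isSelfAdjoint.star_eq] at this
  have heM := hA.subset e heA
  set η : ℝ := (ε' - ε) / 4 with hη
  have hη0 : 0 < η := by rw [hη]; linarith
  intro F δ hδ
  obtain ⟨p, a, q, hp, haA, has, haf, han, hqM, hq, hqf, hqF, hn⟩ :=
    h (F.image (fun ξ => e ξ)) (η * δ) (by positivity)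
  have hfq : f * q = q := by
    have := congrArg star hqf
    rwa [star_mul, hf.isSelfAdjoint.star_eq, hq.isSelfAdjoint.star_eq] at this
  have hfq' : IsStarProjection (f - q) := hq.sub_of_mul_eq_left hf hqf
  set L := e * (f - q) * e with hL
  have hLs : IsSelfAdjoint L := conj_sa he.isSelfAdjoint hfq'.isSelfAdjoint
  have hLv : ∀ v, (⟪L v, v⟫_ℂ).re = ‖(f - q) (e v)‖ ^ 2 := by
    intro v
    rw [proj_norm_sq hfq', hL, mul_apply', mul_apply', sa_inner he.isSelfAdjoint]
  have hL0 : 0 ≤ L := by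
    rw [pos_iff_re hLs]
    intro v
    rw [hLv]; positivity
  have hLM : L ∈ M := by
    have h1 : f * (e * e) = e := by rw [hee, hfe]
    have h2 : L = e - e * q * e := by
      rw [hL, mul_sub, sub_mul, hef, hee]
    rw [h2]
    exact sub_mem heM (mul_mem (mul_mem heM hqM) heM)
  obtain ⟨q1, hq1, hq1c, hq1a, hq1b⟩ := spectral_cut_pos L hL0 (η ^ 2) (by positivity)
  have hq1M : q1 ∈ M := mem_of_commute_imp hLM hq1c
  have heL : Commute e L := by
    show e * L = L * e
    rw [hL, ← mul_assoc, ← mul_assoc, hee, mul_assoc _ e e, hee]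
  have heq : e * q1 = q1 * e := (hq1c e heL).eq
  have hqp : IsStarProjection (q1 * e) := hq1.mul he heq.symm
  have heq' : e * (q1 * e) = q1 * e := by rw [← mul_assoc, heq, mul_assoc, hee]
  have hsmall : ‖(f - q) * (q1 * e)‖ ≤ η := by
    apply ContinuousLinearMap.opNorm_le_bound _ hη0.le
    intro v
    apply le_of_sq_le_sq _ (by positivity)
    have h1 : ((f - q) * (q1 * e)) v = (f - q) (e (q1 (e v))) := by
      have : (f - q) * (q1 * e) = (f - q) * (e * (q1 * e)) := by rw [heq']
      rw [this]; rfl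
    rw [h1, ← hLv]
    calc (⟪L (q1 (e v)), q1 (e v)⟫_ℂ).re ≤ η ^ 2 * ‖q1 (e v)‖ ^ 2 := hq1a _
      _ ≤ η ^ 2 * ‖v‖ ^ 2 := by
          gcongr
          exact (proj_norm_le hq1 _).trans (proj_norm_le he _)
      _ = (η * ‖v‖) ^ 2 := by ring
  have hcp : ∀ i, e * p i = p i * e := fun i => hA.comm e heA _ (hp.mem i)
  have hpe : IsPartition A e (fun i => e * p i) := by
    constructor
    · intro i; exact mul_mem heA (hp.mem i)
    · intro i; exact he.mul (hp.proj i) (hcp i)
    · intro i j hij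
      show e * p i * (e * p j) = 0
      rw [hcp j, mul_assoc, ← mul_assoc (p i), hp.orth i j hij]; simp
    · rw [← Finset.mul_sum, hp.sum, hef]
  have hpin : pinching (fun i => e * p i) x = pinching p x := by
    rw [pinching, pinching]
    refine Finset.sum_congr rfl (fun i _ => ?_)
    calc e * p i * x * (e * p i) = p i * (e * x * e) * p i := by
          rw [hcp i]; simp only [mul_assoc]
          rw [← hcp i]
      _ = _ := by rw [hexe]
  have hae : e * a = a * e := hA.comm e heA a haA
  refine ⟨fun i => e * p i, a * e, q1 * e, hpe, mul_mem haA heA, ?_, ?_, ?_, mul_mem hq1M heM,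
    hqp, by rw [mul_assoc, hee], ?_, ?_⟩
  · rw [IsSelfAdjoint, star_mul, has.star_eq, he.isSelfAdjoint.star_eq, hae]
  · rw [mul_assoc, hee]
  · calc ‖a * e‖ ≤ ‖a‖ * ‖e‖ := norm_mul_le _ _
      _ ≤ ‖x‖ * 1 := by
          gcongr
          exact proj_opNorm_le he
      _ = ‖x‖ := mul_one _
  · intro ξ hξ
    have h1 : (e - q1 * e) ξ = e ξ - q1 (e ξ) := rfl
    rw [h1]
    have h2 := hq1b (e ξ)
    have h3 : e (e ξ) = e ξ := congrArg (fun S : H →L[ℂ] H => S ξ) hee
    rw [hLv, h3] at h2
    have h4 := hqF (e ξ) (Finset.mem_image_of_mem _ hξ)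
    have h5 : η ^ 2 * ‖e ξ - q1 (e ξ)‖ ^ 2 < η ^ 2 * δ ^ 2 := by
      calc _ ≤ ‖(f - q) (e ξ)‖ ^ 2 := h2
        _ < (η * δ) ^ 2 := by gcongr
        _ = _ := by ring
    have h6 : ‖e ξ - q1 (e ξ)‖ ^ 2 < δ ^ 2 := lt_of_mul_lt_mul_left h5 (by positivity)
    exact lt_of_pow_lt_pow_left₀ 2 hδ.le h6
  · rw [hpin]
    set y := pinching p x - a with hy
    set t := q1 * e with ht
    have hte : t * e = t := by rw [ht, mul_assoc, hee]
    have het : e * t = t := heq'
    have hft : f * t = t := by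
      rw [← het, ← mul_assoc, hfe]
    have htf : t * f = t := by
      rw [← hte, mul_assoc, hef]
    have h1 : t * (pinching p x - a * e) * t = t * y * t := by
      have : t * (a * e) * t = t * a * t := by
        rw [mul_assoc, mul_assoc a e t, het, ← mul_assoc]
      rw [hy, mul_sub, sub_mul, this, mul_sub, sub_mul]
    have hyn : ‖y‖ ≤ 2 * ‖x‖ := by
      have := hp.pinching_norm_le hf x
      calc ‖y‖ ≤ ‖pinching p x‖ + ‖a‖ := norm_sub_le _ _
        _ ≤ 2 * ‖x‖ := by linarith
    have htn : ‖t‖ ≤ 1 := proj_opNorm_le hqp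
    have hqn : ‖q‖ ≤ 1 := proj_opNorm_le hq
    have hsmall' : ‖t * (f - q)‖ ≤ η := by
      rw [← norm_star, star_mul, hfq'.isSelfAdjoint.star_eq, hqp.isSelfAdjoint.star_eq]
      exact hsmall
    have h2 : t * y * t = t * (q * y * q) * t + t * (f - q) * y * (q * t) + t * y * ((f - q) * t) := by
      have e1 : t * y * t = t * y * (q * t) + t * y * ((f - q) * t) := by
        rw [← mul_add, ← add_mul]
        have : q + (f - q) = f := by abel
        rw [this, hft]
      have e2 : t * y * (q * t) = t * (q * y * q) * t + t * (f - q) * y * (q * t) := by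
        have : t * y = t * q * y + t * (f - q) * y := by
          rw [← add_mul, ← mul_add]
          have : q + (f - q) = f := by abel
          rw [this, htf]
        rw [this, add_mul]
        simp only [mul_assoc]
      rw [e1, e2]
    rw [h1, h2]
    calc ‖t * (q * y * q) * t + t * (f - q) * y * (q * t) + t * y * ((f - q) * t)‖
        ≤ ‖t * (q * y * q) * t‖ + ‖t * (f - q) * y * (q * t)‖ + ‖t * y * ((f - q) * t)‖ :=
          norm_add₃_le
      _ ≤ ‖q * y * q‖ + η * (2 * ‖x‖) * (1 * 1) + 1 * (2 * ‖x‖) * η := by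
          gcongr
          · exact conj_norm_le hqp _
          · refine (norm_mul_le _ _).trans ?_
            gcongr
            · refine (norm_mul_le _ _).trans ?_
              gcongr
            · refine (norm_mul_le _ _).trans ?_
              gcongr
          · refine (norm_mul_le _ _).trans ?_
            gcongr
            refine (norm_mul_le _ _).trans ?_
            gcongr
      _ ≤ ε * ‖x‖ + η * (2 * ‖x‖) * (1 * 1) + 1 * (2 * ‖x‖) * η := by gcongr
      _ = ε' * ‖x‖ := by rw [hη]; ring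

theorem cornerPavingNumber_mono (hA : IsMASA M A) (heA : e ∈ A) (he : IsStarProjection e)
    (hf : IsStarProjection f) (hef : e * f = e) {ε ε' : ℝ} (hεε : ε < ε') :
    cornerPavingNumber M A e ε' ≤ cornerPavingNumber M A f ε := by
  refine le_iInf₂ (fun r hr => ?_)
  refine iInf₂_le r ⟨hr.1, fun x hx hxs hexe => ?_⟩
  have hfe : f * e = e := by
    have := congrArg star hef
    rwa [star_mul, hf.isSelfAdjoint.star_eq, he.isSelfAdjoint.star_eq] at this
  have hfx : f * x * f = x := by
    rw [← hexe, ← mul_assoc, ← mul_assoc, hfe, mul_assoc _ e f, hef]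
  exact (hr.2 x hx hxs hfx).corner hA heA he hf hef hexe hεε

theorem ceil_le_corner (hA : IsMASA M A) (heA : e ∈ A) (he : IsStarProjection e) (he0 : e ≠ 0)
    (hinf : Infinitesimal M A e) {ε : ℝ} (hε : 0 < ε) :
    (⌈1 / ε⌉₊ : ℕ∞) ≤ cornerPavingNumber M A e ε := by
  refine le_iInf₂ (fun r hr => ?_)
  rw [Nat.cast_le, Nat.ceil_le]
  by_contra h
  push Not at h
  rw [lt_div_iff₀ hε] at h
  obtain ⟨x, hx, hxs, hexe, hnot⟩ := not_soPavableOn hA heA he he0 hinf r hr.1 ε hε h
  exact hnot (hr.2 x hx hxs hexe)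

theorem corner_le_floor (hA : IsMASA M A) (heA : e ∈ A) (he : IsStarProjection e)
    (hinf : Infinitesimal M A e) {ε : ℝ} (hε : 0 < ε) :
    cornerPavingNumber M A e ε ≤ ⌊1 / ε⌋₊ + 1 := by
  have h : cornerPavingNumber M A e ε ≤ ((⌊1 / ε⌋₊ + 1 : ℕ) : ℕ∞) :=
    iInf₂_le (⌊1 / ε⌋₊ + 1) ⟨by omega, fun x hx hxs _ =>
      soPavableOn_of_infinitesimal hA heA he hinf x hx hxs ε _ (floor_mul hε)⟩
  simpa using h

end Vale.Agent.P078
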