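import Mathlib

open scoped InnerProductSpace ComplexOrder

namespace Vale.Agent.P078

variable {H : Type*} [NormedAddCommGroup H] [InnerProductSpace ℂ H] [CompleteSpace H]

/-- `A` is a maximal abelian self-adjoint subalgebra of the von Neumann algebra `M`. -/
structure IsMASA (M : VonNeumannAlgebra H) (A : StarSubalgebra ℂ (H →L[ℂ] H)) : Prop where
  subset : ∀ a ∈ A, a ∈ M
  comm : ∀ a ∈ A, ∀ b ∈ A, a * b = b * a
  maximal : ∀ B : StarSubalgebra ℂ (H →L[ℂ] H),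
    (∀ b ∈ B, b ∈ M) → (∀ a ∈ B, ∀ b ∈ B, a * b = b * a) → A ≤ B → B ≤ A

/-- `p` is a partition in `A` of the projection `e`. -/
structure IsPartition (A : StarSubalgebra ℂ (H →L[ℂ] H)) (e : H →L[ℂ] H) {ι : Type} [Fintype ι]
    (p : ι → H →L[ℂ] H) : Prop where
  mem : ∀ i, p i ∈ A
  proj : ∀ i, IsStarProjection (p i)
  orth : ∀ i j, i ≠ j → p i * p j = 0
  sum : ∑ i, p i = e

/-- the pinching of `x` by the family `p` -/
noncomputable def pinching {ι : Type} [Fintype ι] (p : ι → H →L[ℂ] H) (x : H →L[ℂ] H) :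
    H →L[ℂ] H :=
  ∑ i, p i * x * p i

/-- `x` is `(ε, r)` so-pavable over `A ⊆ M`. -/
def SoPavable (M : VonNeumannAlgebra H) (A : StarSubalgebra ℂ (H →L[ℂ] H)) (x : H →L[ℂ] H)
    (ε : ℝ) (r : ℕ) : Prop :=
  ∀ (F : Finset H) (δ : ℝ), 0 < δ →
    ∃ (p : Fin r → H →L[ℂ] H) (a q : H →L[ℂ] H), IsPartition A 1 p ∧
      a ∈ A ∧ IsSelfAdjoint a ∧ ‖a‖ ≤ ‖x‖ ∧
      q ∈ M ∧ IsStarProjection q ∧ (∀ ξ ∈ F, ‖(1 - q) ξ‖ < δ) ∧
      ‖q * (pinching p x - a) * q‖ ≤ ε * ‖x‖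

/-- the least `r ≥ 1` such that every self-adjoint `x ∈ M` is `(ε, r)` so-pavable, or `∞` -/
noncomputable def pavingNumber (M : VonNeumannAlgebra H) (A : StarSubalgebra ℂ (H →L[ℂ] H))
    (ε : ℝ) : ℕ∞ :=
  ⨅ (r : ℕ) (_ : 1 ≤ r ∧ ∀ x ∈ M, IsSelfAdjoint x → SoPavable M A x ε r), (r : ℕ∞)

/-- the restriction of `ψ` to `M` is normal: a norm limit of finite sums of vector functionals -/
def IsNormalOn (M : VonNeumannAlgebra H) (ψ : (H →L[ℂ] H) → ℂ) : Prop :=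
  ∀ ε : ℝ, 0 < ε → ∃ (n : ℕ) (ξ η : Fin n → H),
    ∀ x ∈ M, ‖ψ x - ∑ i, ⟪η i, x (ξ i)⟫_ℂ‖ ≤ ε * ‖x‖

/-- the restriction of `ψ` to `M` is a normal positive functional on `M` centralised by `A` -/
structure IsCentralised (M : VonNeumannAlgebra H) (A : StarSubalgebra ℂ (H →L[ℂ] H))
    (ψ : (H →L[ℂ] H) →ₗ[ℂ] ℂ) : Prop where
  normal : IsNormalOn M ψ
  pos : ∀ x ∈ M, 0 ≤ ψ (star x * x)
  central : ∀ a ∈ A, ∀ x ∈ M, ψ (a * x) = ψ (x * a)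

end Vale.Agent.P078
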