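import Vale.Agent.P078.Defs

namespace Vale.Agent.P078

variable {H : Type*} [NormedAddCommGroup H] [InnerProductSpace ℂ H] [CompleteSpace H]

/-- `g` is a projection of `A` and some normal positive `A`-centralised functional on `M` is
nonzero on every nonzero projection of `A` below `g` -/
def IsStateCorner (M : VonNeumannAlgebra H) (A : StarSubalgebra ℂ (H →L[ℂ] H))
    (g : H →L[ℂ] H) : Prop :=
  g ∈ A ∧ IsStarProjection g ∧ ∃ ψ, IsCentralised M A ψ ∧
    ∀ h ∈ A, IsStarProjection h → g * h = h → h ≠ 0 → ψ h ≠ 0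

end Vale.Agent.P078
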