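import Vale.Agent.P078.Normal

open scoped InnerProductSpace Topology ComplexOrder
open Filter

namespace Vale.Agent.P078

universe u

variable {H : Type u} [NormedAddCommGroup H] [InnerProductSpace ℂ H] [CompleteSpace H]
variable {A : StarSubalgebra ℂ (H →L[ℂ] H)} {e : H →L[ℂ] H}

/-- real part -/
noncomputable def reP : (H →L[ℂ] H) →ₗ[ℝ] (H →L[ℂ] H) where
  toFun x := (2⁻¹ : ℝ) • (x + star x)
  map_add' x y := by rw [star_add, ← smul_add]; congr 1; abel
  map_smul' c x := by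
    have : star (c • x) = c • star x := by
      rw [← Complex.coe_smul, ← Complex.coe_smul, star_smul]; simp
    rw [this, ← smul_add, smul_comm]; rfl

theorem reP_apply (x : H →L[ℂ] H) : reP x = (2⁻¹ : ℝ) • (x + star x) := rfl

theorem reP_isSelfAdjoint (x : H →L[ℂ] H) : IsSelfAdjoint (reP x) := by
  rw [reP_apply]
  apply isSelfAdjoint_real_smul
  rw [IsSelfAdjoint, star_add, star_star, add_comm]

theorem reP_mem {M : VonNeumannAlgebra H} {x : H →L[ℂ] H} (hx : x ∈ M) : reP x ∈ M := by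
  rw [reP_apply]
  exact real_smul_mem _ (add_mem hx (star_mem hx))

theorem reP_of_sa {x : H →L[ℂ] H} (hx : IsSelfAdjoint x) : reP x = x := by
  rw [reP_apply, hx.star_eq, ← two_smul ℝ x, smul_smul]
  norm_num

theorem reP_norm_le (x : H →L[ℂ] H) : ‖reP x‖ ≤ ‖x‖ := by
  rw [reP_apply, norm_smul]
  have h1 : ‖x + star x‖ ≤ 2 * ‖x‖ := by
    refine (norm_add_le _ _).trans ?_
    rw [norm_star]; linarith
  have h2 : ‖(2⁻¹ : ℝ)‖ = 2⁻¹ := by norm_num
  rw [h2]
  linarith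

theorem reP_I_of_sa {x : H →L[ℂ] H} (hx : IsSelfAdjoint x) : reP (Complex.I • x) = 0 := by
  rw [reP_apply, star_smul, hx.star_eq]
  simp

theorem reP_decomp (x : H →L[ℂ] H) :
    x = reP x - Complex.I • reP (Complex.I • x) := by
  rw [reP_apply, reP_apply, star_smul]
  simp only [RCLike.star_def, Complex.conj_I, neg_smul]
  rw [← Complex.coe_smul, ← Complex.coe_smul, smul_comm Complex.I, smul_add Complex.I, smul_neg,
    smul_smul, smul_smul, Complex.I_mul_I, neg_one_smul, neg_one_smul, neg_neg, ← smul_sub]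
  have : x + star x - (-x + star x) = (2 : ℂ) • x := by rw [two_smul]; abel
  rw [this, smul_smul]
  norm_num

/-- compression by germs -/
noncomputable def JJ (A : StarSubalgebra ℂ (H →L[ℂ] H)) (e : H →L[ℂ] H) :
    (H →L[ℂ] H) →ₗ[ℝ] (Germ A e → H →L[ℂ] H) where
  toFun x := fun g => g.1 * x * g.1
  map_add' x y := by
    ext1 g
    show g.1 * (x + y) * g.1 = g.1 * x * g.1 + g.1 * y * g.1
    rw [mul_add, add_mul]
  map_smul' c x := by
    ext1 g
    show g.1 * (c • x) * g.1 = c • (g.1 * x * g.1)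
    rw [mul_smul_comm, smul_mul_assoc]

open Classical in
/-- indicator of germs below `c` -/
noncomputable def Ind (A : StarSubalgebra ℂ (H →L[ℂ] H)) (e c : H →L[ℂ] H) :
    (H →L[ℂ] H) →ₗ[ℝ] (Germ A e → H →L[ℂ] H) where
  toFun x := fun g => if g.1 * c = g.1 then x else 0
  map_add' x y := by
    ext1 g
    show (if g.1 * c = g.1 then x + y else 0) =
      (if g.1 * c = g.1 then x else 0) + (if g.1 * c = g.1 then y else 0)
    split_ifs <;> simp
  map_smul' d x := by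
    ext1 g
    show (if g.1 * c = g.1 then d • x else 0) = d • (if g.1 * c = g.1 then x else 0)
    split_ifs <;> simp

/-- pinching by the atom above the germ -/
noncomputable def XC (C : FinPart A e) (x : H →L[ℂ] H) : Germ A e → H →L[ℂ] H :=
  ∑ s, Ind A e (C.p s) (C.p s * x * C.p s)

theorem XC_apply (C : FinPart A e) (x : H →L[ℂ] H) (g : Germ A e) (s : C.ι)
    (hs : g.1 * C.p s = g.1) : XC C x g = C.p s * x * C.p s := by
  classical
  rw [XC, Finset.sum_apply, Finset.sum_eq_single s]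
  · show ite _ _ _ = _
    rw [if_pos hs]
  · intro t _ ht
    show ite _ _ _ = _
    rw [if_neg]
    intro h
    apply g.2.2.2.2
    rw [← hs, ← h, mul_assoc, C.isPart.orth t s ht, mul_zero]
  · simp

theorem const_mem {M : VonNeumannAlgebra H} {x : H →L[ℂ] H} (hx : x ∈ M)
    (hxs : IsSelfAdjoint x) : (fun _ : Germ A e => x) ∈ BddFun M A e :=
  ⟨fun _ => ⟨hx, hxs⟩, ‖x‖, fun _ => le_rfl⟩

theorem conj_sa {p x : H →L[ℂ] H} (hp : IsSelfAdjoint p) (hx : IsSelfAdjoint x) :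
    IsSelfAdjoint (p * x * p) := by
  rw [IsSelfAdjoint, star_mul, star_mul, hp.star_eq, hx.star_eq, mul_assoc]

theorem conj_norm_le {p : H →L[ℂ] H} (hp : IsStarProjection p) (x : H →L[ℂ] H) :
    ‖p * x * p‖ ≤ ‖x‖ := by
  have h := proj_opNorm_le hp
  calc ‖p * x * p‖ ≤ ‖p‖ * ‖x‖ * ‖p‖ := (norm_mul_le _ _).trans (by gcongr; exact norm_mul_le _ _)
    _ ≤ 1 * ‖x‖ * 1 := by gcongr
    _ = ‖x‖ := by ring

theorem JJ_mem {M : VonNeumannAlgebra H} (hAM : ∀ a ∈ A, a ∈ M) {x : H →L[ℂ] H} (hx : x ∈ M)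
    (hxs : IsSelfAdjoint x) : JJ A e x ∈ BddFun M A e := by
  refine ⟨fun g => ⟨?_, ?_⟩, ‖x‖, fun g => ?_⟩
  · show g.1 * x * g.1 ∈ M
    exact mul_mem (mul_mem (hAM _ g.2.1) hx) (hAM _ g.2.1)
  · show IsSelfAdjoint (g.1 * x * g.1)
    exact conj_sa g.2.2.1.isSelfAdjoint hxs
  · exact conj_norm_le g.2.2.1 x

theorem Ind_mem {M : VonNeumannAlgebra H} {c x : H →L[ℂ] H} (hx : x ∈ M)
    (hxs : IsSelfAdjoint x) : Ind A e c x ∈ BddFun M A e := by
  classical
  refine ⟨fun g => ⟨?_, ?_⟩, ‖x‖, fun g => ?_⟩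
  · show ite _ _ _ ∈ M
    split_ifs
    · exact hx
    · exact zero_mem M
  · show IsSelfAdjoint (ite _ _ _)
    split_ifs
    · exact hxs
    · exact IsSelfAdjoint.zero _
  · show ‖(ite _ _ _ : H →L[ℂ] H)‖ ≤ _
    split_ifs
    · exact le_rfl
    · simp

theorem XC_mem {M : VonNeumannAlgebra H} (hAM : ∀ a ∈ A, a ∈ M) (C : FinPart A e)
    {x : H →L[ℂ] H} (hx : x ∈ M) (hxs : IsSelfAdjoint x) : XC C x ∈ BddFun M A e := by
  rw [XC]
  refine Submodule.sum_mem _ (fun s _ => Ind_mem ?_ ?_)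
  · exact mul_mem (mul_mem (hAM _ (C.isPart.mem s)) hx) (hAM _ (C.isPart.mem s))
  · exact conj_sa (C.isPart.proj s).isSelfAdjoint hxs

/-- the sum of vector states -/
noncomputable def phi {k : ℕ} (ζ : Fin k → H) : (H →L[ℂ] H) →ₗ[ℝ] ℝ where
  toFun L := ∑ j, (⟪L (ζ j), ζ j⟫_ℂ).re
  map_add' x y := by
    rw [← Finset.sum_add_distrib]
    refine Finset.sum_congr rfl (fun j _ => ?_)
    rw [add_apply, inner_add_left, Complex.add_re]
  map_smul' c x := by
    rw [RingHom.id_apply, smul_eq_mul, Finset.mul_sum]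
    refine Finset.sum_congr rfl (fun j _ => ?_)
    rw [re_real_smul_inner]

theorem phi_apply {k : ℕ} (ζ : Fin k → H) (L : H →L[ℂ] H) :
    phi ζ L = ∑ j, (⟪L (ζ j), ζ j⟫_ℂ).re := rfl

theorem phi_nonneg {k : ℕ} (ζ : Fin k → H) {L : H →L[ℂ] H} (hL : 0 ≤ L) : 0 ≤ phi ζ L := by
  rw [phi_apply]
  exact Finset.sum_nonneg (fun j _ => (pos_iff_re (IsSelfAdjoint.of_nonneg hL)).mp hL _)

theorem conj_mono {p x y : H →L[ℂ] H} (hp : IsStarProjection p) (hx : IsSelfAdjoint x)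
    (hy : IsSelfAdjoint y) (h : x ≤ y) : p * x * p ≤ p * y * p := by
  rw [le_iff_re (conj_sa hp.isSelfAdjoint hx) (conj_sa hp.isSelfAdjoint hy)]
  intro v
  have h1 := (le_iff_re hx hy).mp h (p v)
  rw [mul_apply', mul_apply', sa_inner hp.isSelfAdjoint, mul_apply', mul_apply',
    sa_inner hp.isSelfAdjoint]
  exact h1

theorem infinitesimal_case {M : VonNeumannAlgebra H} (hA : IsMASA M A) (heA : e ∈ A)
    (he : IsStarProjection e) (he0 : e ≠ 0) {k : ℕ} (ξ : Fin k → H) (δ : ℝ) (hδ : 0 < δ)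
    (L : H →L[ℂ] H) (hL : Dom M A e (fun g => g.1) L)
    (hφ : phi (fun j => e (ξ j)) L < δ * (δ / 2) ^ 2) :
    ∃ q ∈ M, IsStarProjection q ∧ q * e = q ∧
      (∀ j, ‖(e - q) (ξ j)‖ < δ) ∧ ∃ C : FinPart A e, ∀ s, ‖q * C.p s * q‖ ≤ δ := by
  obtain ⟨hLM, hLs, C, hC⟩ := hL
  have hee : e * e = e := he.isIdempotentElem
  have hCL0 : 0 ≤ L := by
    obtain ⟨g, s, hgs⟩ := exists_below he0 C
    have h3 : g.1 * C.p s = g.1 := by
      rw [hgs, (C.isPart.proj s).isIdempotentElem]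
    exact g.2.2.1.nonneg.trans (hC g s h3)
  have hCL : ∀ s, C.p s ≤ L := by
    intro s
    by_cases h : C.p s = 0
    · rw [h]; exact hCL0
    · exact hC ⟨C.p s, C.isPart.mem s, C.isPart.proj s, (C.isPart.mul_eq s).2, h⟩ s
        (C.isPart.proj s).isIdempotentElem
  set L' := e * L * e with hL'
  have hL's : IsSelfAdjoint L' := conj_sa he.isSelfAdjoint hLs
  have hL'0 : 0 ≤ L' := by
    have := conj_mono he (IsSelfAdjoint.zero _) hLs hCL0
    simpa using this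
  have hCL' : ∀ s, C.p s ≤ L' := by
    intro s
    have h1 := conj_mono he (C.isPart.proj s).isSelfAdjoint hLs (hCL s)
    rwa [(C.isPart.mul_eq s).1, (C.isPart.mul_eq s).2] at h1
  have heM := hA.subset e heA
  have hL'M : L' ∈ M := mul_mem (mul_mem heM hLM) heM
  obtain ⟨q1, hq1, hq1c, hq1a, hq1b⟩ := spectral_cut_pos L' hL'0 δ hδ
  have hq1M : q1 ∈ M := mem_of_commute_imp hL'M hq1c
  have heL' : Commute e L' := by
    show e * L' = L' * e
    rw [hL', ← mul_assoc, ← mul_assoc, hee, mul_assoc _ e e, hee]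
  have heq : e * q1 = q1 * e := (hq1c e heL').eq
  have hqp : IsStarProjection (q1 * e) := hq1.mul he heq.symm
  refine ⟨q1 * e, mul_mem hq1M heM, hqp, by rw [mul_assoc, hee], ?_, C, ?_⟩
  · intro j
    have h1 : (e - q1 * e) (ξ j) = e (ξ j) - q1 (e (ξ j)) := rfl
    rw [h1]
    have h2 := hq1b (e (ξ j))
    have h3 : (⟪L' (e (ξ j)), e (ξ j)⟫_ℂ).re = (⟪L (e (ξ j)), e (ξ j)⟫_ℂ).re := by
      have h4 : e (e (ξ j)) = e (ξ j) := congrArg (fun S : H →L[ℂ] H => S (ξ j)) hee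
      rw [hL', mul_apply', mul_apply', sa_inner he.isSelfAdjoint, h4]
    have h5 : (⟪L (e (ξ j)), e (ξ j)⟫_ℂ).re ≤ phi (fun j => e (ξ j)) L := by
      rw [phi_apply]
      exact Finset.single_le_sum (f := fun j => (⟪L (e (ξ j)), e (ξ j)⟫_ℂ).re)
        (fun j _ => (pos_iff_re hLs).mp hCL0 _) (Finset.mem_univ j)
    have h6 : δ * ‖e (ξ j) - q1 (e (ξ j))‖ ^ 2 < δ * (δ / 2) ^ 2 := by
      rw [h3] at h2; linarith
    have h7 : ‖e (ξ j) - q1 (e (ξ j))‖ ^ 2 < (δ / 2) ^ 2 := lt_of_mul_lt_mul_left h6 hδ.le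
    have h8 : ‖e (ξ j) - q1 (e (ξ j))‖ < δ / 2 := lt_of_pow_lt_pow_left₀ 2 (by positivity) h7
    linarith
  · intro s
    rw [← norm_mul_proj_sq hqp (C.isPart.proj s)]
    have h1 : ‖q1 * e * C.p s‖ = ‖C.p s * (q1 * e)‖ := by
      rw [← norm_star (q1 * e * C.p s), star_mul, (C.isPart.proj s).isSelfAdjoint.star_eq,
        hqp.isSelfAdjoint.star_eq]
    rw [h1]
    have h2 : ‖C.p s * (q1 * e)‖ ≤ Real.sqrt δ := by
      apply ContinuousLinearMap.opNorm_le_bound _ (Real.sqrt_nonneg _)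
      intro v
      apply le_of_sq_le_sq _ (by positivity)
      have h3 : (C.p s * (q1 * e)) v = C.p s (q1 (e v)) := rfl
      rw [h3, proj_norm_sq (C.isPart.proj s)]
      have h4 := (le_iff_re (C.isPart.proj s).isSelfAdjoint hL's).mp (hCL' s) (q1 (e v))
      have h5 := hq1a (e v)
      calc (⟪C.p s (q1 (e v)), q1 (e v)⟫_ℂ).re ≤ δ * ‖q1 (e v)‖ ^ 2 := h4.trans h5
        _ ≤ δ * ‖v‖ ^ 2 := by
            gcongr
            exact (proj_norm_le hq1 _).trans (proj_norm_le he _)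
        _ = (Real.sqrt δ * ‖v‖) ^ 2 := by rw [mul_pow, Real.sq_sqrt hδ.le]
    calc ‖C.p s * (q1 * e)‖ ^ 2 ≤ (Real.sqrt δ) ^ 2 := by gcongr
      _ = δ := Real.sq_sqrt hδ.le

end Vale.Agent.P078
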