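import Vale.Agent.P078.Final

open scoped InnerProductSpace Topology ComplexOrder
open Filter

namespace Vale.Agent.P078

universe u

variable {H : Type u} [NormedAddCommGroup H] [InnerProductSpace ℂ H] [CompleteSpace H]
variable {A : StarSubalgebra ℂ (H →L[ℂ] H)} {e : H →L[ℂ] H}

theorem normal_of_fintype {M : VonNeumannAlgebra H} {ψ : (H →L[ℂ] H) → ℂ}
    (h : ∀ ε : ℝ, 0 < ε → ∃ (I : Type) (_ : Fintype I) (ξ η : I → H),
      ∀ x ∈ M, ‖ψ x - ∑ i, ⟪η i, x (ξ i)⟫_ℂ‖ ≤ ε * ‖x‖) :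
    IsNormalOn M ψ := by
  intro ε hε
  obtain ⟨I, hI, ξ, η, hx⟩ := h ε hε
  refine ⟨Fintype.card I, ξ ∘ (Fintype.equivFin I).symm, η ∘ (Fintype.equivFin I).symm, ?_⟩
  intro x hxM
  have : ∑ i, ⟪(η ∘ (Fintype.equivFin I).symm) i,
      x ((ξ ∘ (Fintype.equivFin I).symm) i)⟫_ℂ = ∑ i, ⟪η i, x (ξ i)⟫_ℂ :=
    Equiv.sum_comp (Fintype.equivFin I).symm (fun i => ⟪η i, x (ξ i)⟫_ℂ)
  rw [this]
  exact hx x hxM

theorem sq_ineq {y : H →L[ℂ] H} (hy : IsSelfAdjoint y) {t : ℝ} (ht : 0 < t) :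
    y ≤ (t / 2) • (1 : H →L[ℂ] H) + (2 * t)⁻¹ • (y * y) := by
  have hyy : IsSelfAdjoint (y * y) := by
    rw [IsSelfAdjoint, star_mul, hy.star_eq]
  have hR : IsSelfAdjoint ((t / 2) • (1 : H →L[ℂ] H) + (2 * t)⁻¹ • (y * y)) :=
    (isSelfAdjoint_smul_one _).add (isSelfAdjoint_real_smul _ hyy)
  rw [le_iff_re hy hR]
  intro v
  rw [add_apply, inner_add_left, Complex.add_re, re_real_smul_inner, re_real_smul_inner,
    inner_self_sq hy, one_apply_eq_self, norm_sq_re_inner]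
  have h1 : (⟪y v, v⟫_ℂ).re ≤ ‖y v‖ * ‖v‖ :=
    (Complex.re_le_norm _).trans (norm_inner_le_norm _ _)
  have h2 : ‖y v‖ * ‖v‖ ≤ t / 2 * ‖v‖ ^ 2 + (2 * t)⁻¹ * ‖y v‖ ^ 2 := by
    have h3 : 0 ≤ (2 * t)⁻¹ * (‖y v‖ - t * ‖v‖) ^ 2 := by positivity
    have h4 : (2 * t)⁻¹ * (‖y v‖ - t * ‖v‖) ^ 2 =
        t / 2 * ‖v‖ ^ 2 + (2 * t)⁻¹ * ‖y v‖ ^ 2 - ‖y v‖ * ‖v‖ := by
      field_simp
      ring
    linarith
  linarith

theorem phi_sq {k : ℕ} (ζ : Fin k → H) {y : H →L[ℂ] H} (hy : IsSelfAdjoint y) :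
    phi ζ (y * y) = ∑ j, ‖y (ζ j)‖ ^ 2 := by
  rw [phi_apply]
  exact Finset.sum_congr rfl (fun j _ => inner_self_sq hy _)

section CaseB

variable {M : VonNeumannAlgebra H} {k : ℕ} {ζ : Fin k → H}
  {f : (Germ A e → H →L[ℂ] H) →ₗ[ℝ] ℝ}

theorem f_mono
    (hf1 : ∀ h ∈ BddFun M A e, ∀ L, Dom M A e h L → f h ≤ phi ζ L)
    {h1 h2 : Germ A e → H →L[ℂ] H} (hh1 : h1 ∈ BddFun M A e) (hh2 : h2 ∈ BddFun M A e)
    (h : ∃ C : FinPart A e, ∀ (g : Germ A e) (s : C.ι), g.1 * C.p s = g.1 → h1 g ≤ h2 g) :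
    f h1 ≤ f h2 := by
  obtain ⟨C, hC⟩ := h
  have := hf1 (h1 - h2) (Submodule.sub_mem _ hh1 hh2) 0
    ⟨zero_mem M, IsSelfAdjoint.zero _, C, fun g s hgs => by
      show h1 g - h2 g ≤ 0
      exact sub_nonpos.mpr (hC g s hgs)⟩
  rw [map_sub, map_zero] at this
  linarith

theorem f_mono' (heA : e ∈ A) (he : IsStarProjection e)
    (hf1 : ∀ h ∈ BddFun M A e, ∀ L, Dom M A e h L → f h ≤ phi ζ L)
    {h1 h2 : Germ A e → H →L[ℂ] H} (hh1 : h1 ∈ BddFun M A e) (hh2 : h2 ∈ BddFun M A e)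
    (h : ∀ g, h1 g ≤ h2 g) : f h1 ≤ f h2 :=
  f_mono hf1 hh1 hh2 ⟨⟨Unit, inferInstance, fun _ => e, ⟨fun _ => heA, fun _ => he,
    fun i j h => absurd (Subsingleton.elim i j) h, by simp⟩⟩, fun g _ _ => h g⟩

theorem f_const (heA : e ∈ A) (he : IsStarProjection e)
    (hf1 : ∀ h ∈ BddFun M A e, ∀ L, Dom M A e h L → f h ≤ phi ζ L)
    {x : H →L[ℂ] H} (hx : x ∈ M) (hxs : IsSelfAdjoint x) :
    f (fun _ => x) = phi ζ x := by
  let C00 : FinPart A e := ⟨Unit, inferInstance, fun _ => e, ⟨fun _ => heA, fun _ => he,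
    fun i j h => absurd (Subsingleton.elim i j) h, by simp⟩⟩
  apply le_antisymm
  · exact hf1 _ (const_mem hx hxs) x ⟨hx, hxs, C00, fun _ _ _ => le_rfl⟩
  · have h1 := hf1 _ (const_mem (A := A) (e := e) (neg_mem hx) hxs.neg) (-x)
      ⟨neg_mem hx, hxs.neg, C00, fun _ _ _ => le_rfl⟩
    have h2 : (fun _ : Germ A e => -x) = -(fun _ : Germ A e => x) := rfl
    rw [h2, map_neg, map_neg] at h1
    linarith

theorem f_JJ_le (hAM : ∀ a ∈ A, a ∈ M) (heA : e ∈ A) (he : IsStarProjection e)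
    (hf1 : ∀ h ∈ BddFun M A e, ∀ L, Dom M A e h L → f h ≤ phi ζ L)
    {x : H →L[ℂ] H} (hx : x ∈ M) (hxs : IsSelfAdjoint x) :
    |f (JJ A e x)| ≤ ‖x‖ * phi ζ 1 := by
  have h0 : ∀ y, y ∈ M → IsSelfAdjoint y → f (JJ A e y) ≤ ‖y‖ * phi ζ 1 := by
    intro y hy hys
    have h1 := f_mono' heA he hf1 (JJ_mem (e := e) hAM hy hys)
      (const_mem (real_smul_mem ‖y‖ (one_mem M)) (isSelfAdjoint_smul_one ‖y‖))
      (fun g => le_norm_smul_one (conj_sa g.2.2.1.isSelfAdjoint hys) (conj_norm_le g.2.2.1 y))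
    rw [f_const heA he hf1 (real_smul_mem ‖y‖ (one_mem M)) (isSelfAdjoint_smul_one ‖y‖),
      map_smul, smul_eq_mul] at h1
    exact h1
  rw [abs_le]
  constructor
  · have := h0 (-x) (neg_mem hx) hxs.neg
    rw [map_neg, map_neg, norm_neg] at this
    linarith
  · exact h0 x hx hxs

theorem f_diff_le (hAM : ∀ a ∈ A, a ∈ M) (heA : e ∈ A) (he : IsStarProjection e)
    (hf1 : ∀ h ∈ BddFun M A e, ∀ L, Dom M A e h L → f h ≤ phi ζ L)
    (C : FinPart A e) {t : ℝ} (ht : 0 < t)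
    {x : H →L[ℂ] H} (hx : x ∈ M) (hxs : IsSelfAdjoint x) :
    |f (XC C x) - f (JJ A e x)| ≤
      ‖x‖ * ((1 + t⁻¹) * (f (XC C 1) - f (fun g => g.1)) + t * phi ζ 1) := by
  have hTh : (fun g : Germ A e => g.1) ∈ BddFun M A e :=
    ⟨fun g => ⟨hAM _ g.2.1, g.2.2.1.isSelfAdjoint⟩, 1, fun g => proj_opNorm_le g.2.2.1⟩
  have h1M : (1 : H →L[ℂ] H) ∈ M := one_mem M
  have h0 : ∀ y, y ∈ M → IsSelfAdjoint y → f (XC C y) - f (JJ A e y) ≤
      ‖y‖ * ((1 + t⁻¹) * (f (XC C 1) - f (fun g => g.1)) + t * phi ζ 1) := by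
    intro y hy hys
    have hR : ‖y‖ • ((1 + t⁻¹) • (XC C 1 - (fun g : Germ A e => g.1)) +
        t • (fun _ : Germ A e => (1 : H →L[ℂ] H))) ∈ BddFun M A e := by
      apply Submodule.smul_mem
      apply Submodule.add_mem
      · apply Submodule.smul_mem
        exact Submodule.sub_mem _ (XC_mem hAM C h1M (IsSelfAdjoint.one _)) hTh
      · apply Submodule.smul_mem
        exact const_mem h1M (IsSelfAdjoint.one _)
    have h2 := f_mono hf1 (Submodule.sub_mem _ (XC_mem hAM C hy hys) (JJ_mem hAM hy hys)) hR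
      ⟨C, fun g s hgs => by
        show XC C y g - JJ A e y g ≤
          ‖y‖ • ((1 + t⁻¹) • (XC C 1 g - g.1) + t • (1 : H →L[ℂ] H))
        rw [XC_apply C y g s hgs, XC_apply C 1 g s hgs, mul_one,
          (C.isPart.proj s).isIdempotentElem]
        exact key_ineq g.2.2.1 (C.isPart.proj s) hgs hys ht⟩
    rw [map_sub, map_smul, map_add, map_smul, map_smul, map_sub,
      f_const heA he hf1 h1M (IsSelfAdjoint.one _)] at h2
    simpa using h2
  rw [abs_le]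
  constructor
  · have h3 := h0 (-x) (neg_mem hx) hxs.neg
    have h4 : XC C (-x) = -XC C x := by
      simp only [XC, mul_neg, neg_mul, map_neg, Finset.sum_neg_distrib]
    rw [h4, map_neg, map_neg, map_neg, norm_neg] at h3
    linarith
  · exact h0 x hx hxs

theorem f_XC_repr (hAM : ∀ a ∈ A, a ∈ M) (heA : e ∈ A) (he : IsStarProjection e)
    (hf1 : ∀ h ∈ BddFun M A e, ∀ L, Dom M A e h L → f h ≤ phi ζ L)
    (C : FinPart A e) :
    ∃ w : C.ι → Fin k → H, ∀ x, x ∈ M → IsSelfAdjoint x →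
      f (XC C x) = ∑ s, ∑ j, (⟪C.p s (w s j), x (C.p s (ζ j))⟫_ℂ).re := by
  classical
  have h1M : (1 : H →L[ℂ] H) ∈ M := one_mem M
  have hP0 : 0 ≤ phi ζ (1 : H →L[ℂ] H) := phi_nonneg ζ zero_le_one
  have hs : ∀ s, ∃ w : Fin k → H, ∀ y, y ∈ M → IsSelfAdjoint y →
      (f.comp (Ind A e (C.p s))) y = ∑ j, (⟪w j, y (ζ j)⟫_ℂ).re := by
    intro s
    apply exists_vectors ζ _ ((phi ζ 1 + k) / 2)
    have h0 : ∀ y, y ∈ M → IsSelfAdjoint y → ∀ t : ℝ, 0 < t →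
        f (Ind A e (C.p s) y) ≤ t / 2 * phi ζ 1 + (2 * t)⁻¹ * ∑ j, ‖y (ζ j)‖ ^ 2 := by
      intro y hy hys t ht
      have hyy : IsSelfAdjoint (y * y) := by
        rw [IsSelfAdjoint, star_mul, hys.star_eq]
      have hz0 : 0 ≤ (t / 2) • (1 : H →L[ℂ] H) + (2 * t)⁻¹ • (y * y) := by
        apply add_nonneg
        · exact smul_nonneg (by positivity) zero_le_one
        · apply smul_nonneg (by positivity)
          rw [pos_iff_re hyy]
          intro v
          rw [inner_self_sq hys]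
          positivity
      have hzM : (t / 2) • (1 : H →L[ℂ] H) + (2 * t)⁻¹ • (y * y) ∈ M :=
        add_mem (real_smul_mem _ h1M) (real_smul_mem _ (mul_mem hy hy))
      have hzs : IsSelfAdjoint ((t / 2) • (1 : H →L[ℂ] H) + (2 * t)⁻¹ • (y * y)) :=
        IsSelfAdjoint.of_nonneg hz0
      have h2 := f_mono' heA he hf1 (Ind_mem (c := C.p s) (A := A) (e := e) hy hys)
        (const_mem hzM hzs) (fun g => by
          show (if g.1 * C.p s = g.1 then y else 0) ≤ _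
          split_ifs
          · exact sq_ineq hys ht
          · exact hz0)
      rw [f_const heA he hf1 hzM hzs, map_add, map_smul, map_smul, phi_sq ζ hys, smul_eq_mul,
        smul_eq_mul] at h2
      exact h2
    have h1 : ∀ y, y ∈ M → IsSelfAdjoint y →
        f (Ind A e (C.p s) y) ≤ (phi ζ 1 + k) / 2 * ‖fun j => y (ζ j)‖ := by
      intro y hy hys
      set D := ‖fun j => y (ζ j)‖ with hD
      have hD0 : 0 ≤ D := norm_nonneg _
      have hsum : ∑ j, ‖y (ζ j)‖ ^ 2 ≤ k * D ^ 2 := by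
        calc ∑ j, ‖y (ζ j)‖ ^ 2 ≤ ∑ _j : Fin k, D ^ 2 := by
              refine Finset.sum_le_sum (fun j _ => ?_)
              gcongr
              exact norm_le_pi_norm (fun j => y (ζ j)) j
          _ = k * D ^ 2 := by rw [Finset.sum_const, nsmul_eq_mul]; simp
      rcases hD0.eq_or_lt with h | h
      · have hz : ∑ j, ‖y (ζ j)‖ ^ 2 = 0 := by
          apply le_antisymm
          · rw [← h] at hsum; simpa using hsum
          · positivity
        rw [← h, mul_zero]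
        apply le_of_forall_pos_le_add
        intro ε hε
        have h3 := h0 y hy hys (ε / (phi ζ 1 + 1)) (by positivity)
        rw [hz, mul_zero, add_zero] at h3
        refine h3.trans ?_
        rw [zero_add, div_div, div_mul_eq_mul_div, div_le_iff₀ (by positivity)]
        nlinarith
      · have h3 := h0 y hy hys D h
        refine h3.trans ?_
        have h4 : (2 * D)⁻¹ * ∑ j, ‖y (ζ j)‖ ^ 2 ≤ (2 * D)⁻¹ * (k * D ^ 2) := by
          gcongr
        have h5 : (2 * D)⁻¹ * (k * D ^ 2) = k / 2 * D := by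
          field_simp
        rw [h5] at h4
        linarith
    intro y hy hys
    rw [abs_le]
    constructor
    · have h2 := h1 (-y) (neg_mem hy) hys.neg
      have h3 : (fun j => (-y) (ζ j)) = -(fun j => y (ζ j)) := by
        ext j; simp
      rw [h3, norm_neg, map_neg, map_neg] at h2
      show _ ≤ f (Ind A e (C.p s) y)
      linarith
    · exact h1 y hy hys
  choose w hw using hs
  refine ⟨w, ?_⟩
  intro x hx hxs
  rw [XC, map_sum]
  refine Finset.sum_congr rfl (fun s _ => ?_)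
  have h2 := hw s (C.p s * x * C.p s)
    (mul_mem (mul_mem (hAM _ (C.isPart.mem s)) hx) (hAM _ (C.isPart.mem s)))
    (conj_sa (C.isPart.proj s).isSelfAdjoint hxs)
  have h3 : f (Ind A e (C.p s) (C.p s * x * C.p s)) =
      (f.comp (Ind A e (C.p s))) (C.p s * x * C.p s) := rfl
  rw [h3, h2]
  refine Finset.sum_congr rfl (fun j _ => ?_)
  rw [mul_apply', mul_apply', sa_inner (C.isPart.proj s).isSelfAdjoint]

end CaseB

end Vale.Agent.P078
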