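import Vale.Agent.P078.Final2

open scoped InnerProductSpace Topology ComplexOrder
open Filter

namespace Vale.Agent.P078

universe u

variable {H : Type u} [NormedAddCommGroup H] [InnerProductSpace ℂ H] [CompleteSpace H]
variable {A : StarSubalgebra ℂ (H →L[ℂ] H)} {e : H →L[ℂ] H}
variable {M : VonNeumannAlgebra H} {k : ℕ} {ζ : Fin k → H}
  {f : (Germ A e → H →L[ℂ] H) →ₗ[ℝ] ℝ}

/-- real functional -/
noncomputable def psiR (f : (Germ A e → H →L[ℂ] H) →ₗ[ℝ] ℝ) : (H →L[ℂ] H) →ₗ[ℝ] ℝ :=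
  f.comp ((JJ A e).comp reP)

/-- complex functional -/
noncomputable def psiC (f : (Germ A e → H →L[ℂ] H) →ₗ[ℝ] ℝ) : (H →L[ℂ] H) →ₗ[ℂ] ℂ :=
  Module.Dual.extendRCLike (𝕜 := ℂ) (psiR f)

theorem psiC_apply (x : H →L[ℂ] H) :
    psiC f x = (psiR f x : ℂ) - Complex.I * (psiR f (Complex.I • x) : ℂ) := by
  rw [psiC, Module.Dual.extendRCLike_apply]
  rfl

theorem psiR_sa {x : H →L[ℂ] H} (hx : IsSelfAdjoint x) : psiR f x = f (JJ A e x) := by
  show f (JJ A e (reP x)) = _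
  rw [reP_of_sa hx]

theorem psiC_sa {x : H →L[ℂ] H} (hx : IsSelfAdjoint x) : psiC f x = (f (JJ A e x) : ℂ) := by
  rw [psiC_apply, psiR_sa hx]
  have : psiR f (Complex.I • x) = 0 := by
    show f (JJ A e (reP (Complex.I • x))) = _
    rw [reP_I_of_sa hx, map_zero, map_zero]
  rw [this]
  simp

theorem psiR_le (hAM : ∀ a ∈ A, a ∈ M) (heA : e ∈ A) (he : IsStarProjection e)
    (hf1 : ∀ h ∈ BddFun M A e, ∀ L, Dom M A e h L → f h ≤ phi ζ L)
    {x : H →L[ℂ] H} (hx : x ∈ M) : |psiR f x| ≤ ‖x‖ * phi ζ 1 := by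
  have h1 := f_JJ_le hAM heA he hf1 (reP_mem hx) (reP_isSelfAdjoint x)
  have hK : 0 ≤ phi ζ (1 : H →L[ℂ] H) := phi_nonneg ζ zero_le_one
  exact h1.trans (mul_le_mul_of_nonneg_right (reP_norm_le x) hK)

theorem psiC_le (hAM : ∀ a ∈ A, a ∈ M) (heA : e ∈ A) (he : IsStarProjection e)
    (hf1 : ∀ h ∈ BddFun M A e, ∀ L, Dom M A e h L → f h ≤ phi ζ L)
    {x : H →L[ℂ] H} (hx : x ∈ M) : ‖psiC f x‖ ≤ 2 * phi ζ 1 * ‖x‖ := by
  rw [psiC_apply]
  have h1 := psiR_le hAM heA he hf1 hx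
  have h2 := psiR_le hAM heA he hf1 (x := Complex.I • x) (M.toStarSubalgebra.smul_mem hx _)
  have h3 : ‖Complex.I • x‖ = ‖x‖ := by rw [norm_smul]; simp
  rw [h3] at h2
  calc ‖(psiR f x : ℂ) - Complex.I * (psiR f (Complex.I • x) : ℂ)‖
      ≤ ‖(psiR f x : ℂ)‖ + ‖Complex.I * (psiR f (Complex.I • x) : ℂ)‖ := norm_sub_le _ _
    _ = |psiR f x| + |psiR f (Complex.I • x)| := by
        rw [norm_mul, Complex.norm_I, one_mul, Complex.norm_real, Complex.norm_real]; rfl
    _ ≤ _ := by linarith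

theorem psiR_comm_proj (hA : IsMASA M A) (heA : e ∈ A) (he : IsStarProjection e)
    (hf1 : ∀ h ∈ BddFun M A e, ∀ L, Dom M A e h L → f h ≤ phi ζ L)
    {a x : H →L[ℂ] H} (haA : a ∈ A) (hap : IsStarProjection a) (hx : x ∈ M) :
    psiR f (a * x - x * a) = 0 := by
  classical
  have haM := hA.subset a haA
  obtain ⟨B, hB⟩ := exists_resolving hA.comm heA he {⟨a, haA, hap⟩}
  have hB' := hB ⟨a, haA, hap⟩ (Finset.mem_singleton_self _)
  have hyM : a * x - x * a ∈ M := sub_mem (mul_mem haM hx) (mul_mem hx haM)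
  have hmem := JJ_mem (e := e) hA.subset (reP_mem hyM) (reP_isSelfAdjoint (a * x - x * a))
  have hz : ∀ (g : Germ A e) (s : B.ι), g.1 * B.p s = g.1 →
      JJ A e (reP (a * x - x * a)) g = 0 := by
    intro g s hgs
    have hga : g.1 * a = g.1 ∨ g.1 * a = 0 := by
      rcases hB' s with h | h
      · left
        calc g.1 * a = g.1 * (B.p s * a) := by rw [← mul_assoc, hgs]
          _ = g.1 := by
            have h' : B.p s * a = B.p s := h
            rw [h', hgs]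
      · right
        calc g.1 * a = g.1 * (B.p s * a) := by rw [← mul_assoc, hgs]
          _ = 0 := by
            have h' : B.p s * a = 0 := h
            rw [h', mul_zero]
    have hag : a * g.1 = g.1 * a := hA.comm _ haA _ g.2.1
    have hstar : star a = a := hap.isSelfAdjoint.star_eq
    have h1 : ∀ z : H →L[ℂ] H, g.1 * (a * z) * g.1 = g.1 * (z * a) * g.1 := by
      intro z
      rw [← mul_assoc g.1 a z, ← mul_assoc g.1 z a, mul_assoc (g.1 * z) a g.1, hag]
      rcases hga with h | h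
      · rw [h]
      · rw [h]; simp
    show g.1 * (reP (a * x - x * a)) * g.1 = 0
    rw [reP_apply, star_sub, star_mul, star_mul, hstar, mul_smul_comm, smul_mul_assoc, mul_add,
      add_mul, mul_sub, mul_sub, sub_mul, sub_mul, h1 x, h1 (star x)]
    simp
  have h0 : (0 : Germ A e → H →L[ℂ] H) ∈ BddFun M A e := Submodule.zero_mem _
  apply le_antisymm
  · have := f_mono hf1 hmem h0 ⟨B, fun g s hgs => by rw [hz g s hgs]; exact le_rfl⟩
    rw [map_zero] at this
    exact this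
  · have := f_mono hf1 h0 hmem ⟨B, fun g s hgs => by rw [hz g s hgs]; exact le_rfl⟩
    rw [map_zero] at this
    exact this

theorem psiC_comm_proj (hA : IsMASA M A) (heA : e ∈ A) (he : IsStarProjection e)
    (hf1 : ∀ h ∈ BddFun M A e, ∀ L, Dom M A e h L → f h ≤ phi ζ L)
    {a x : H →L[ℂ] H} (haA : a ∈ A) (hap : IsStarProjection a) (hx : x ∈ M) :
    psiC f (a * x) = psiC f (x * a) := by
  rw [← sub_eq_zero, ← map_sub, psiC_apply]
  have h1 := psiR_comm_proj hA heA he hf1 haA hap hx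
  have h2 := psiR_comm_proj hA heA he hf1 haA hap (x := Complex.I • x)
    (M.toStarSubalgebra.smul_mem hx _)
  have h3 : Complex.I • (a * x - x * a) = a * (Complex.I • x) - (Complex.I • x) * a := by
    rw [smul_sub, mul_smul_comm, smul_mul_assoc]
  rw [h1, h3, h2]
  simp

theorem psiC_comm (hA : IsMASA M A) (heA : e ∈ A) (he : IsStarProjection e)
    (hf1 : ∀ h ∈ BddFun M A e, ∀ L, Dom M A e h L → f h ≤ phi ζ L)
    {a x : H →L[ℂ] H} (haA : a ∈ A) (hx : x ∈ M) :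
    psiC f (a * x) = psiC f (x * a) := by
  let P : Set (H →L[ℂ] H) := {g | g ∈ A ∧ IsStarProjection g}
  let S := (Submodule.span ℂ P).topologicalClosure
  have haS : a ∈ S := hA.subset_of_proj S (Submodule.isClosed_topologicalClosure _)
    (fun g hgA hg => Submodule.le_topologicalClosure _ (Submodule.subset_span ⟨hgA, hg⟩)) a haA
  have haS' : a ∈ closure ((Submodule.span ℂ P : Submodule ℂ (H →L[ℂ] H)) : Set (H →L[ℂ] H)) := haS
  have hspan : ∀ b ∈ Submodule.span ℂ P, b ∈ M ∧ psiC f (b * x) = psiC f (x * b) := by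
    intro b hb
    induction hb using Submodule.span_induction with
    | mem b hb => exact ⟨hA.subset b hb.1, psiC_comm_proj hA heA he hf1 hb.1 hb.2 hx⟩
    | zero => exact ⟨zero_mem M, by simp⟩
    | add b c _ _ h1 h2 =>
      exact ⟨add_mem h1.1 h2.1, by rw [add_mul, mul_add, map_add, map_add, h1.2, h2.2]⟩
    | smul c b _ h1 =>
      exact ⟨M.toStarSubalgebra.smul_mem h1.1 _, by
        rw [smul_mul_assoc, mul_smul_comm, map_smul, map_smul, h1.2]⟩
  have haM := hA.subset a haA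
  set K := 2 * phi ζ (1 : H →L[ℂ] H) with hK
  have hK0 : 0 ≤ K := by
    have := phi_nonneg ζ (zero_le_one (α := H →L[ℂ] H))
    positivity
  rw [← sub_eq_zero, ← norm_le_zero_iff]
  apply le_of_forall_pos_le_add
  intro ε hε
  rw [Metric.mem_closure_iff] at haS'
  obtain ⟨b, hb, hab⟩ := haS' (ε / (2 * K * ‖x‖ + 1)) (by positivity)
  rw [dist_eq_norm] at hab
  obtain ⟨hbM, hbc⟩ := hspan b hb
  have h1 : psiC f (a * x) - psiC f (x * a) = psiC f ((a - b) * x) - psiC f (x * (a - b)) := by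
    rw [sub_mul, mul_sub, map_sub, map_sub, hbc]
    ring
  have habM : a - b ∈ M := sub_mem haM hbM
  have h2 := psiC_le hA.subset heA he hf1 (mul_mem habM hx)
  have h3 := psiC_le hA.subset heA he hf1 (mul_mem hx habM)
  rw [h1, zero_add]
  calc ‖psiC f ((a - b) * x) - psiC f (x * (a - b))‖
      ≤ ‖psiC f ((a - b) * x)‖ + ‖psiC f (x * (a - b))‖ := norm_sub_le _ _
    _ ≤ K * ‖(a - b) * x‖ + K * ‖x * (a - b)‖ := add_le_add h2 h3
    _ ≤ K * (‖a - b‖ * ‖x‖) + K * (‖x‖ * ‖a - b‖) := by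
        gcongr
        · exact norm_mul_le _ _
        · exact norm_mul_le _ _
    _ = (2 * K * ‖x‖) * ‖a - b‖ := by ring
    _ ≤ (2 * K * ‖x‖ + 1) * (ε / (2 * K * ‖x‖ + 1)) := by
        gcongr
        linarith
    _ = ε := by field_simp

theorem psiC_pos (hAM : ∀ a ∈ A, a ∈ M) (heA : e ∈ A) (he : IsStarProjection e)
    (hf1 : ∀ h ∈ BddFun M A e, ∀ L, Dom M A e h L → f h ≤ phi ζ L)
    {x : H →L[ℂ] H} (hx : x ∈ M) : 0 ≤ psiC f (star x * x) := by
  have hs : IsSelfAdjoint (star x * x) := IsSelfAdjoint.star_mul_self _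
  have hp : 0 ≤ star x * x := star_mul_self_nonneg _
  have hM : star x * x ∈ M := mul_mem (star_mem hx) hx
  rw [psiC_sa hs]
  have h2 := f_mono' heA he hf1 (Submodule.zero_mem (BddFun M A e)) (JJ_mem hAM hM hs)
    (fun g => by
      show (0 : H →L[ℂ] H) ≤ g.1 * (star x * x) * g.1
      have := conj_mono g.2.2.1 (IsSelfAdjoint.zero _) hs hp
      simpa using this)
  rw [map_zero] at h2
  exact_mod_cast h2

/-- the approximating normal functional -/
noncomputable def NN {ι : Type} [Fintype ι] (u v : ι → H) : (H →L[ℂ] H) →ₗ[ℂ] ℂ where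
  toFun x := ∑ i, (2⁻¹ : ℂ) * (⟪u i, x (v i)⟫_ℂ + ⟪v i, x (u i)⟫_ℂ)
  map_add' x y := by
    rw [← Finset.sum_add_distrib]
    refine Finset.sum_congr rfl (fun i _ => ?_)
    rw [add_apply, add_apply, inner_add_right, inner_add_right]
    ring
  map_smul' c x := by
    rw [RingHom.id_apply, smul_eq_mul, Finset.mul_sum]
    refine Finset.sum_congr rfl (fun i _ => ?_)
    rw [smul_apply, smul_apply, inner_smul_right, inner_smul_right]
    ring

theorem NN_apply {ι : Type} [Fintype ι] (u v : ι → H) (x : H →L[ℂ] H) :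
    NN u v x = ∑ i, (2⁻¹ : ℂ) * (⟪u i, x (v i)⟫_ℂ + ⟪v i, x (u i)⟫_ℂ) := rfl

theorem NN_sa {ι : Type} [Fintype ι] (u v : ι → H) {x : H →L[ℂ] H} (hx : IsSelfAdjoint x) :
    NN u v x = ((∑ i, (⟪u i, x (v i)⟫_ℂ).re : ℝ) : ℂ) := by
  rw [NN_apply, Complex.ofReal_sum]
  refine Finset.sum_congr rfl (fun i _ => ?_)
  have h1 : ⟪v i, x (u i)⟫_ℂ = (starRingEnd ℂ) ⟪u i, x (v i)⟫_ℂ := by
    rw [inner_conj_symm, sa_inner hx]
  rw [h1, Complex.add_conj]
  push_cast
  ring

theorem NN_repr {ι : Type} [Fintype ι] (u v : ι → H) (x : H →L[ℂ] H) :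
    NN u v x = ∑ i : Bool × ι, ⟪(if i.1 then (2⁻¹ : ℂ) • u i.2 else (2⁻¹ : ℂ) • v i.2),
      x (if i.1 then v i.2 else u i.2)⟫_ℂ := by
  rw [Fintype.sum_prod_type, NN_apply]
  rw [Fintype.sum_bool]
  simp only [if_true, Bool.false_eq_true, if_false]
  rw [← Finset.sum_add_distrib]
  refine Finset.sum_congr rfl (fun i _ => ?_)
  have h2 : (starRingEnd ℂ) (2⁻¹ : ℂ) = 2⁻¹ := by
    rw [map_inv₀, Complex.conj_ofNat]
  rw [inner_smul_left, inner_smul_left, h2]
  ring

theorem psiC_normal (hAM : ∀ a ∈ A, a ∈ M) (heA : e ∈ A) (he : IsStarProjection e)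
    (hf1 : ∀ h ∈ BddFun M A e, ∀ L, Dom M A e h L → f h ≤ phi ζ L)
    (hf2 : ∀ ε : ℝ, 0 < ε → ∃ L, Dom M A e (fun g => g.1) L ∧
      phi ζ L < f (fun g => g.1) + ε) : IsNormalOn M (psiC f) := by
  apply normal_of_fintype
  intro ε hε
  have h1M : (1 : H →L[ℂ] H) ∈ M := one_mem M
  set K := phi ζ (1 : H →L[ℂ] H) with hK
  have hK0 : 0 ≤ K := phi_nonneg ζ (zero_le_one (α := H →L[ℂ] H))
  set t := ε / (4 * (K + 1)) with ht
  have ht0 : 0 < t := by positivity
  have htK : t * K ≤ ε / 4 := by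
    rw [ht, div_mul_eq_mul_div, div_le_iff₀ (by positivity)]
    nlinarith
  set ε' := ε / (4 * (1 + t⁻¹)) with hε'
  have hε'0 : 0 < ε' := by positivity
  have hε'1 : (1 + t⁻¹) * ε' = ε / 4 := by
    rw [hε']; field_simp
  obtain ⟨L, hL, hLf⟩ := hf2 ε' hε'0
  obtain ⟨hLM, hLs, C, hC⟩ := hL
  have hDom : Dom M A e (XC C 1) L := by
    refine ⟨hLM, hLs, C, ?_⟩
    intro g s hgs
    rw [XC_apply C 1 g s hgs, mul_one, (C.isPart.proj s).isIdempotentElem]
    have hne : C.p s ≠ 0 := by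
      intro h
      rw [h, mul_zero] at hgs
      exact g.2.2.2.2 hgs.symm
    exact hC ⟨C.p s, C.isPart.mem s, C.isPart.proj s, (C.isPart.mul_eq s).2, hne⟩ s
        (C.isPart.proj s).isIdempotentElem
  have hXC1 := hf1 _ (XC_mem hAM C h1M (IsSelfAdjoint.one _)) L hDom
  have hdiff : f (XC C 1) - f (fun g => g.1) ≤ ε' := by linarith
  have hmain : ∀ x, x ∈ M → IsSelfAdjoint x → |f (XC C x) - f (JJ A e x)| ≤ ‖x‖ * (ε / 2) := by
    intro x hx hxs
    refine (f_diff_le hAM heA he hf1 C ht0 hx hxs).trans ?_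
    apply mul_le_mul_of_nonneg_left _ (norm_nonneg _)
    have : (1 + t⁻¹) * (f (XC C 1) - f (fun g => g.1)) ≤ (1 + t⁻¹) * ε' := by
      apply mul_le_mul_of_nonneg_left hdiff
      positivity
    linarith
  obtain ⟨w, hw⟩ := f_XC_repr hAM heA he hf1 C
  let u : C.ι × Fin k → H := fun i => C.p i.1 (w i.1 i.2)
  let v : C.ι × Fin k → H := fun i => C.p i.1 (ζ i.2)
  have hNsa : ∀ x, x ∈ M → IsSelfAdjoint x → NN u v x = (f (XC C x) : ℂ) := by
    intro x hx hxs
    rw [NN_sa u v hxs, hw x hx hxs, Fintype.sum_prod_type]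
  refine ⟨Bool × (C.ι × Fin k), inferInstance, fun i => if i.1 then v i.2 else u i.2,
    fun i => if i.1 then (2⁻¹ : ℂ) • u i.2 else (2⁻¹ : ℂ) • v i.2, ?_⟩
  intro y hyM
  rw [← NN_repr u v y]
  have hIyM : Complex.I • y ∈ M := M.toStarSubalgebra.smul_mem hyM _
  have e1 : psiC f y = (f (JJ A e (reP y)) : ℂ) -
      Complex.I * (f (JJ A e (reP (Complex.I • y))) : ℂ) := psiC_apply y
  have e2 : NN u v y = (f (XC C (reP y)) : ℂ) -
      Complex.I * (f (XC C (reP (Complex.I • y))) : ℂ) := by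
    conv_lhs => rw [reP_decomp y]
    rw [map_sub, map_smul, smul_eq_mul, hNsa _ (reP_mem hyM) (reP_isSelfAdjoint _),
      hNsa _ (reP_mem hIyM) (reP_isSelfAdjoint _)]
  have h1 := hmain _ (reP_mem hyM) (reP_isSelfAdjoint y)
  have h2 := hmain _ (reP_mem hIyM) (reP_isSelfAdjoint (Complex.I • y))
  have h3 : ‖reP (Complex.I • y)‖ ≤ ‖y‖ := by
    refine (reP_norm_le _).trans ?_
    rw [norm_smul]; simp
  have e3 : psiC f y - NN u v y = -(((f (XC C (reP y)) - f (JJ A e (reP y)) : ℝ) : ℂ)) +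
      Complex.I * ((f (XC C (reP (Complex.I • y))) - f (JJ A e (reP (Complex.I • y))) : ℝ) : ℂ) := by
    rw [e1, e2]
    push_cast
    ring
  rw [e3]
  calc _ ≤ ‖-(((f (XC C (reP y)) - f (JJ A e (reP y)) : ℝ) : ℂ))‖ + ‖Complex.I *
        ((f (XC C (reP (Complex.I • y))) - f (JJ A e (reP (Complex.I • y))) : ℝ) : ℂ)‖ :=
        norm_add_le _ _
    _ = |f (XC C (reP y)) - f (JJ A e (reP y))| +
        |f (XC C (reP (Complex.I • y))) - f (JJ A e (reP (Complex.I • y)))| := by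
        rw [norm_neg, norm_mul, Complex.norm_I, one_mul, Complex.norm_real, Complex.norm_real]
        rfl
    _ ≤ ‖reP y‖ * (ε / 2) + ‖reP (Complex.I • y)‖ * (ε / 2) := add_le_add h1 h2
    _ ≤ ‖y‖ * (ε / 2) + ‖y‖ * (ε / 2) := by
        have := reP_norm_le y
        gcongr
    _ = ε * ‖y‖ := by ring

theorem psiC_centralised (hA : IsMASA M A) (heA : e ∈ A) (he : IsStarProjection e)
    (hf1 : ∀ h ∈ BddFun M A e, ∀ L, Dom M A e h L → f h ≤ phi ζ L)
    (hf2 : ∀ ε : ℝ, 0 < ε → ∃ L, Dom M A e (fun g => g.1) L ∧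
      phi ζ L < f (fun g => g.1) + ε) : IsCentralised M A (psiC f) where
  normal := psiC_normal hA.subset heA he hf1 hf2
  pos := fun _ hx => psiC_pos hA.subset heA he hf1 hx
  central := fun _ ha _ hx => psiC_comm hA heA he hf1 ha hx

theorem psiC_e (he : IsStarProjection e) :
    psiC f e = (f (fun g => g.1) : ℂ) := by
  rw [psiC_sa he.isSelfAdjoint]
  congr 2
  funext g
  show g.1 * e * g.1 = g.1
  rw [g.2.2.2.1, g.2.2.1.isIdempotentElem]

theorem infinitesimal_of_noCentralised (hA : IsMASA M A) (heA : e ∈ A)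
    (he : IsStarProjection e)
    (hN : ∀ ψ, IsCentralised M A ψ → ψ e = 0) : Infinitesimal M A e := by
  classical
  by_cases he0 : e = 0
  · subst he0
    intro F δ hδ
    refine ⟨0, zero_mem M, he, by simp, by simpa using fun _ _ => hδ, ?_⟩
    refine ⟨⟨Unit, inferInstance, fun _ => 0, ⟨fun _ => heA, fun _ => he,
      fun i j h => absurd (Subsingleton.elim i j) h, by simp⟩⟩, fun s => by simpa using hδ.le⟩
  intro F δ hδ
  let ξ : Fin F.card → H := fun j => (F.equivFin.symm j : H)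
  set ζ' : Fin F.card → H := fun j => e (ξ j) with hζ
  obtain ⟨f, hf1, hf2⟩ := exists_functional (M := M) hA.comm hA.subset heA he he0 (phi ζ')
    (fun L hL => phi_nonneg ζ' hL)
  have hfz : f (fun g => g.1) = 0 := by
    have h1 := hN _ (psiC_centralised hA heA he hf1 hf2)
    rw [psiC_e he] at h1
    exact_mod_cast h1
  obtain ⟨L, hL, hLf⟩ := hf2 (δ * (δ / 2) ^ 2) (by positivity)
  rw [hfz, zero_add] at hLf
  obtain ⟨q, hqM, hq, hqe, hqξ, C, hC⟩ := infinitesimal_case hA heA he he0 ξ δ hδ L hL hLf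
  refine ⟨q, hqM, hq, hqe, ?_, C, hC⟩
  intro η hη
  have := hqξ (F.equivFin ⟨η, hη⟩)
  simpa [ξ] using this

end Vale.Agent.P078
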