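import Vale.Agent.P078.Partition

open scoped InnerProductSpace

namespace Vale.Agent.P078

variable {H : Type*} [NormedAddCommGroup H] [InnerProductSpace ℂ H] [CompleteSpace H]

theorem exists_sqrt (L : H →L[ℂ] H) (hL : 0 ≤ L) :
    ∃ b : H →L[ℂ] H, IsSelfAdjoint b ∧ b * b = L ∧ ∀ T, Commute T L → Commute T b := by
  have hLs : IsSelfAdjoint L := IsSelfAdjoint.of_nonneg hL
  refine ⟨cfc Real.sqrt L, cfc_predicate _ _, ?_, ?_⟩
  · rw [← cfc_mul Real.sqrt Real.sqrt L]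
    conv_rhs => rw [← cfc_id ℝ L]
    apply cfc_congr
    intro t ht
    have : 0 ≤ t := spectrum_nonneg_of_nonneg hL ht
    simp [Real.mul_self_sqrt this]
  · intro T hT
    exact (hLs.commute_cfc hT.symm Real.sqrt).symm

theorem inner_self_sq {b : H →L[ℂ] H} (hb : IsSelfAdjoint b) (v : H) :
    (⟪(b * b) v, v⟫_ℂ).re = ‖b v‖ ^ 2 := by
  have h2 : ContinuousLinearMap.adjoint b = b := hb.star_eq
  have : ⟪(b * b) v, v⟫_ℂ = ⟪b v, b v⟫_ℂ := by
    calc ⟪(b * b) v, v⟫_ℂ = ⟪b (b v), v⟫_ℂ := rfl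
      _ = ⟪b v, (ContinuousLinearMap.adjoint b) v⟫_ℂ :=
        (ContinuousLinearMap.adjoint_inner_right b (b v) v).symm
      _ = _ := by rw [h2]
  rw [this, ← inner_self_eq_norm_sq (𝕜 := ℂ)]; rfl

theorem spectral_cut_pos (L : H →L[ℂ] H) (hL : 0 ≤ L) (κ : ℝ) (hκ : 0 < κ) :
    ∃ q : H →L[ℂ] H, IsStarProjection q ∧ (∀ T, Commute T L → Commute T q) ∧
      (∀ v, (⟪L (q v), q v⟫_ℂ).re ≤ κ * ‖q v‖ ^ 2) ∧
      (∀ v, κ * ‖v - q v‖ ^ 2 ≤ (⟪L v, v⟫_ℂ).re) := by
  obtain ⟨b, hb, hbb, hbc⟩ := exists_sqrt L hL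
  obtain ⟨q, hq, hqc, hq1, hq2⟩ := spectral_cut b hb (Real.sqrt κ) (Real.sqrt_pos.mpr hκ)
  refine ⟨q, hq, fun T hT => hqc T (hbc T hT), ?_, ?_⟩
  · intro v
    rw [← hbb, inner_self_sq hb]
    have h1 : q (q v) = q v := congrArg (fun S : H →L[ℂ] H => S v) hq.isIdempotentElem
    have h2 : ‖b (q v)‖ ≤ Real.sqrt κ * ‖q v‖ := by
      calc ‖b (q v)‖ = ‖(b * q) (q v)‖ := by rw [mul_apply', h1]
        _ ≤ ‖b * q‖ * ‖q v‖ := ContinuousLinearMap.le_opNorm _ _
        _ ≤ _ := by gcongr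
    calc ‖b (q v)‖ ^ 2 ≤ (Real.sqrt κ * ‖q v‖) ^ 2 := by gcongr
      _ = κ * ‖q v‖ ^ 2 := by rw [mul_pow, Real.sq_sqrt hκ.le]
  · intro v
    rw [← hbb, inner_self_sq hb]
    calc κ * ‖v - q v‖ ^ 2 = (Real.sqrt κ * ‖v - q v‖) ^ 2 := by
          rw [mul_pow, Real.sq_sqrt hκ.le]
      _ ≤ _ := by
          gcongr
          exact hq2 v

theorem mem_of_commute_commutant {M : VonNeumannAlgebra H} {T : H →L[ℂ] H}
    (h : ∀ g ∈ M.commutant, Commute g T) : T ∈ M := by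
  rw [← M.commutant_commutant, VonNeumannAlgebra.mem_commutant_iff]
  intro g hg
  exact h g hg

theorem mem_of_commute_imp {M : VonNeumannAlgebra H} {y T : H →L[ℂ] H} (hy : y ∈ M)
    (h : ∀ g, Commute g y → Commute g T) : T ∈ M := by
  apply mem_of_commute_commutant
  intro g hg
  apply h
  rw [VonNeumannAlgebra.mem_commutant_iff] at hg
  exact (hg y hy).symm

theorem IsMASA.mem_of_commute_imp {M : VonNeumannAlgebra H} {A : StarSubalgebra ℂ (H →L[ℂ] H)}
    (hA : IsMASA M A) {y T : H →L[ℂ] H} (hy : y ∈ A)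
    (h : ∀ g, Commute g y → Commute g T) : T ∈ A := by
  rw [hA.mem_iff]
  refine ⟨Vale.Agent.P078.mem_of_commute_imp (hA.subset y hy) h, ?_⟩
  intro a ha
  exact h a (hA.comm a ha y hy)

theorem pos_iff_re {T : H →L[ℂ] H} (hT : IsSelfAdjoint T) :
    0 ≤ T ↔ ∀ v, 0 ≤ (⟪T v, v⟫_ℂ).re := by
  rw [ContinuousLinearMap.nonneg_iff_isPositive, ContinuousLinearMap.isPositive_def]
  constructor
  · intro h v; exact h.2 v
  · intro h; exact ⟨hT.isSymmetric, h⟩

theorem le_iff_re {S T : H →L[ℂ] H} (hS : IsSelfAdjoint S) (hT : IsSelfAdjoint T) :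
    S ≤ T ↔ ∀ v, (⟪S v, v⟫_ℂ).re ≤ (⟪T v, v⟫_ℂ).re := by
  rw [← sub_nonneg, pos_iff_re (hT.sub hS)]
  apply forall_congr'
  intro v
  simp [inner_sub_left]

theorem binary_step {M : VonNeumannAlgebra H} {A : StarSubalgebra ℂ (H →L[ℂ] H)}
    (hA : IsMASA M A) (a : H →L[ℂ] H) (ha : a ∈ A) (h0 : 0 ≤ a) (h1 : a ≤ 1) :
    ∃ g ∈ A, IsStarProjection g ∧ ∃ a' ∈ A, 0 ≤ a' ∧ a' ≤ 1 ∧ (2 : ℂ) • a = g + a' := by
  obtain ⟨q, hq, hqc, hq1, hq2⟩ := spectral_cut_pos a h0 (1 / 2) (by norm_num)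
  have hqA : q ∈ A := hA.mem_of_commute_imp ha hqc
  have has : IsSelfAdjoint a := IsSelfAdjoint.of_nonneg h0
  have hone : IsSelfAdjoint (1 : H →L[ℂ] H) := IsSelfAdjoint.one _
  have hqs := hq.isSelfAdjoint
  have h2as : IsSelfAdjoint ((2 : ℂ) • a) := by
    rw [IsSelfAdjoint, star_smul, has.star_eq]; simp
  refine ⟨1 - q, sub_mem (one_mem A) hqA, hq.one_sub, (2 : ℂ) • a - (1 - q),
    sub_mem (A.smul_mem ha 2) (sub_mem (one_mem A) hqA), ?_, ?_, by abel⟩
  all_goals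
    have hcomm : a * q = q * a := (hqc a (Commute.refl a)).eq
    have hqq : q * q = q := hq.isIdempotentElem
    have hsa : IsSelfAdjoint ((2 : ℂ) • a - (1 - q)) := h2as.sub (hone.sub hqs)
    have hkey : ∀ v, (⟪((2 : ℂ) • a - (1 - q)) v, v⟫_ℂ).re =
        2 * (⟪a (q v), q v⟫_ℂ).re + (2 * (⟪a (v - q v), v - q v⟫_ℂ).re - ‖v - q v‖ ^ 2) := by
      intro v
      have e1 : ⟪a (q v), v - q v⟫_ℂ = 0 := by
        have : a (q v) = q (a v) := congrArg (fun S : H →L[ℂ] H => S v) hcomm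
        rw [this, inner_sub_right, proj_apply_inner hq, sub_eq_zero]
      have e2 : ⟪a (v - q v), q v⟫_ℂ = 0 := by
        have h3 : ⟪a (v - q v), q v⟫_ℂ = ⟪v - q v, a (q v)⟫_ℂ := by
          calc ⟪a (v - q v), q v⟫_ℂ = ⟪v - q v, (ContinuousLinearMap.adjoint a) (q v)⟫_ℂ :=
              (ContinuousLinearMap.adjoint_inner_right a _ _).symm
            _ = _ := by rw [← ContinuousLinearMap.star_eq_adjoint, has.star_eq]
        rw [h3, ← inner_conj_symm, e1, map_zero]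
      have e3 : ⟪a v, v⟫_ℂ = ⟪a (q v), q v⟫_ℂ + ⟪a (v - q v), v - q v⟫_ℂ := by
        have hv : v = q v + (v - q v) := by abel
        have h4 : ⟪a v, v⟫_ℂ = ⟪a (q v + (v - q v)), q v + (v - q v)⟫_ℂ := by rw [← hv]
        rw [h4, map_add, inner_add_left, inner_add_right, inner_add_right, e1, e2]
        ring
      have e4 : (⟪(1 - q) v, v⟫_ℂ).re = ‖v - q v‖ ^ 2 := by
        have := proj_norm_sq hq.one_sub v
        rw [← this]; rfl
      have e5 : ⟪((2 : ℂ) • a - (1 - q)) v, v⟫_ℂ = 2 * ⟪a v, v⟫_ℂ - ⟪(1 - q) v, v⟫_ℂ := by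
        rw [sub_apply, inner_sub_left, smul_apply, inner_smul_left, Complex.conj_ofNat]
      rw [e5, Complex.sub_re, e4, e3, Complex.mul_re, Complex.add_re]
      simp
      ring
  · rw [pos_iff_re hsa]
    intro v
    rw [hkey]
    have h3 : 0 ≤ (⟪a (q v), q v⟫_ℂ).re := (pos_iff_re has).mp h0 _
    have h4 := hq2 (v - q v)
    have h5 : v - q v - q (v - q v) = v - q v := by
      have : q (q v) = q v := congrArg (fun S : H →L[ℂ] H => S v) hqq
      rw [map_sub, this]; simp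
    rw [h5] at h4
    linarith
  · rw [le_iff_re hsa hone]
    intro v
    rw [hkey]
    have h3 := hq1 v
    have h4 := (le_iff_re has hone).mp h1 (v - q v)
    have h5 : (⟪(1 : H →L[ℂ] H) (v - q v), v - q v⟫_ℂ).re = ‖v - q v‖ ^ 2 := by
      rw [one_apply_eq_self, ← inner_self_eq_norm_sq (𝕜 := ℂ)]; rfl
    have h6 : (⟪(1 : H →L[ℂ] H) v, v⟫_ℂ).re = ‖q v‖ ^ 2 + ‖v - q v‖ ^ 2 := by
      have hv := proj_norm_sq hq v
      have hv' := proj_norm_sq hq.one_sub v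
      have e6 : ‖(1 - q) v‖ = ‖v - q v‖ := rfl
      rw [e6] at hv'
      rw [hv, hv', one_apply_eq_self, ← Complex.add_re, ← inner_add_left]
      congr 2
      simp
    rw [h5] at h4
    rw [h6]
    linarith

end Vale.Agent.P078

namespace Vale.Agent.P078

variable {H : Type*} [NormedAddCommGroup H] [InnerProductSpace ℂ H] [CompleteSpace H]

theorem norm_le_of_le_one {a : H →L[ℂ] H} (h0 : 0 ≤ a) (h1 : a ≤ 1) : ‖a‖ ≤ 1 := by
  have := CStarAlgebra.norm_le_one_iff_of_nonneg a h0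
  exact this.mpr h1

theorem binary_approx {M : VonNeumannAlgebra H} {A : StarSubalgebra ℂ (H →L[ℂ] H)}
    (hA : IsMASA M A) (S : Submodule ℂ (H →L[ℂ] H))
    (hS : ∀ g ∈ A, IsStarProjection g → g ∈ S) (n : ℕ) :
    ∀ a ∈ A, 0 ≤ a → a ≤ 1 → ∃ s ∈ S, ‖a - s‖ ≤ (1 / 2) ^ n := by
  induction n with
  | zero =>
    intro a _ h0 h1
    exact ⟨0, S.zero_mem, by simpa using norm_le_of_le_one h0 h1⟩
  | succ n ih =>
    intro a ha h0 h1
    obtain ⟨g, hgA, hg, a', ha', h0', h1', heq⟩ := binary_step hA a ha h0 h1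
    obtain ⟨s, hs, hsn⟩ := ih a' ha' h0' h1'
    refine ⟨(2⁻¹ : ℂ) • (g + s), S.smul_mem _ (S.add_mem (hS g hgA hg) hs), ?_⟩
    have : a - (2⁻¹ : ℂ) • (g + s) = (2⁻¹ : ℂ) • (a' - s) := by
      have e1 : a = (2⁻¹ : ℂ) • ((2 : ℂ) • a) := by rw [smul_smul]; norm_num
      rw [e1, heq, ← smul_sub]
      congr 1
      abel
    rw [this, norm_smul, pow_succ]
    have h2 : ‖(2⁻¹ : ℂ)‖ = 1 / 2 := by norm_num
    rw [h2]
    linarith

theorem IsMASA.subset_of_proj {M : VonNeumannAlgebra H} {A : StarSubalgebra ℂ (H →L[ℂ] H)}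
    (hA : IsMASA M A) (S : Submodule ℂ (H →L[ℂ] H)) (hSc : IsClosed (S : Set (H →L[ℂ] H)))
    (hS : ∀ g ∈ A, IsStarProjection g → g ∈ S) : ∀ a ∈ A, a ∈ S := by
  have h01 : ∀ a ∈ A, 0 ≤ a → a ≤ 1 → a ∈ S := by
    intro a ha h0 h1
    have : a ∈ closure (S : Set (H →L[ℂ] H)) := by
      rw [Metric.mem_closure_iff]
      intro ε hε
      obtain ⟨n, hn⟩ := exists_pow_lt_of_lt_one hε (by norm_num : (1 / 2 : ℝ) < 1)
      obtain ⟨s, hs, hsn⟩ := binary_approx hA S hS n a ha h0 h1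
      exact ⟨s, hs, by rw [dist_eq_norm]; linarith⟩
    rwa [hSc.closure_eq] at this
  have h1S : (1 : H →L[ℂ] H) ∈ S := hS 1 (one_mem A) (by
    exact ⟨by simp [IsIdempotentElem], IsSelfAdjoint.one _⟩)
  have hsa : ∀ a ∈ A, IsSelfAdjoint a → a ∈ S := by
    intro a ha has
    set c : ℝ := ‖a‖ + 1 with hc
    have hcpos : 0 < c := by positivity
    set b : H →L[ℂ] H := ((2 * c)⁻¹ : ℝ) • (a + c • (1 : H →L[ℂ] H)) with hb
    have hle1 : a ≤ c • (1 : H →L[ℂ] H) := by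
      have h3 : a ≤ algebraMap ℝ (H →L[ℂ] H) ‖a‖ := has.le_algebraMap_norm_self
      refine h3.trans ?_
      rw [Algebra.algebraMap_eq_smul_one]
      have : (0:H →L[ℂ] H) ≤ 1 := zero_le_one
      have h4 : ‖a‖ ≤ c := by rw [hc]; linarith
      exact smul_le_smul_of_nonneg_right h4 this
    have hle2 : -(c • (1 : H →L[ℂ] H)) ≤ a := by
      have h3 : -(algebraMap ℝ (H →L[ℂ] H) ‖a‖) ≤ a := has.neg_algebraMap_norm_le_self
      refine le_trans ?_ h3
      rw [Algebra.algebraMap_eq_smul_one, neg_le_neg_iff]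
      have : (0:H →L[ℂ] H) ≤ 1 := zero_le_one
      have h4 : ‖a‖ ≤ c := by rw [hc]; linarith
      exact smul_le_smul_of_nonneg_right h4 this
    have hb0 : 0 ≤ b := by
      apply smul_nonneg (by positivity)
      have := add_le_add_left hle2 (c • (1 : H →L[ℂ] H))
      simpa using this
    have hb1 : b ≤ 1 := by
      have : a + c • (1 : H →L[ℂ] H) ≤ (2 * c) • (1 : H →L[ℂ] H) := by
        have h6 : (2 * c) • (1 : H →L[ℂ] H) = c • (1 : H →L[ℂ] H) + c • (1 : H →L[ℂ] H) := by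
          rw [two_mul, add_smul]
        rw [h6]
        exact add_le_add_left hle1 _
      calc b ≤ ((2 * c)⁻¹ : ℝ) • ((2 * c) • (1 : H →L[ℂ] H)) := by
            exact smul_le_smul_of_nonneg_left this (by positivity)
        _ = 1 := by rw [smul_smul, inv_mul_cancel₀ (by positivity), one_smul]
    have hbA : b ∈ A := by
      rw [hb]
      have h5 : a + c • (1 : H →L[ℂ] H) ∈ A := by
        apply add_mem ha
        have : c • (1 : H →L[ℂ] H) = (c : ℂ) • (1 : H →L[ℂ] H) := (Complex.coe_smul c _).symm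
        rw [this]
        exact A.smul_mem (one_mem A) _
      rw [← Complex.coe_smul]
      exact A.smul_mem h5 _
    have hbS := h01 b hbA hb0 hb1
    have : a = ((2 * c : ℝ) : ℂ) • b - ((c : ℝ) : ℂ) • (1 : H →L[ℂ] H) := by
      rw [hb, Complex.coe_smul, Complex.coe_smul, smul_smul, mul_inv_cancel₀ (by positivity),
        one_smul]
      abel
    rw [this]
    exact S.sub_mem (S.smul_mem _ hbS) (S.smul_mem _ h1S)
  intro a ha
  have h1 : a + star a ∈ S := by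
    apply hsa _ (add_mem ha (star_mem ha))
    rw [IsSelfAdjoint, star_add, star_star, add_comm]
  have h2 : Complex.I • (a - star a) ∈ S := by
    apply hsa _ (A.smul_mem (sub_mem ha (star_mem ha)) _)
    rw [IsSelfAdjoint, star_smul, star_sub, star_star]
    simp only [RCLike.star_def, Complex.conj_I, neg_smul]
    rw [← smul_neg, neg_sub]
  have h3 : a = (2⁻¹ : ℂ) • (a + star a) - ((2⁻¹ : ℂ) * Complex.I) • (Complex.I • (a - star a)) := by
    rw [smul_smul, mul_assoc, Complex.I_mul_I, smul_add, smul_sub]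
    have : (2⁻¹ : ℂ) • a + (2⁻¹ : ℂ) • a = a := by
      rw [← add_smul]; norm_num
    simp only [mul_neg, mul_one, neg_smul]
    nth_rewrite 1 [← this]
    abel
  rw [h3]
  exact S.sub_mem (S.smul_mem _ h1) (S.smul_mem _ h2)

theorem IsMASA.commute_of_proj {M : VonNeumannAlgebra H} {A : StarSubalgebra ℂ (H →L[ℂ] H)}
    (hA : IsMASA M A) (T : H →L[ℂ] H) (hT : ∀ g ∈ A, IsStarProjection g → g * T = T * g) :
    ∀ a ∈ A, a * T = T * a := by
  let S : Submodule ℂ (H →L[ℂ] H) :=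
    { carrier := {a | a * T = T * a}
      add_mem' := fun {a b} ha hb => by
        show (a + b) * T = T * (a + b)
        rw [add_mul, mul_add, ha, hb]
      zero_mem' := by show 0 * T = T * 0; simp
      smul_mem' := fun c a ha => by
        show (c • a) * T = T * (c • a)
        rw [smul_mul_assoc, mul_smul_comm, ha] }
  have hSc : IsClosed (S : Set (H →L[ℂ] H)) := by
    show IsClosed {a : H →L[ℂ] H | a * T = T * a}
    exact isClosed_eq (by fun_prop) (by fun_prop)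
  exact hA.subset_of_proj S hSc hT

end Vale.Agent.P078
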