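import Vale.Agent.P078.Assemble

open scoped InnerProductSpace Topology
open Filter

namespace Vale.Agent.P078

universe u

variable {H : Type u} [NormedAddCommGroup H] [InnerProductSpace ℂ H] [CompleteSpace H]

/-- nonzero projections of `A` below `e` -/
def Germ (A : StarSubalgebra ℂ (H →L[ℂ] H)) (e : H →L[ℂ] H) : Type u :=
  {g : H →L[ℂ] H // g ∈ A ∧ IsStarProjection g ∧ g * e = g ∧ g ≠ 0}

variable {A : StarSubalgebra ℂ (H →L[ℂ] H)} {e : H →L[ℂ] H}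

theorem exists_common (hcomm : ∀ a ∈ A, ∀ b ∈ A, a * b = b * a) (C1 C2 : FinPart A e) :
    ∃ C : FinPart A e, ∀ (g : Germ A e) (x : C.ι), g.1 * C.p x = g.1 →
      (∃ s, g.1 * C1.p s = g.1) ∧ (∃ t, g.1 * C2.p t = g.1) := by
  refine ⟨⟨Σ _ : C1.ι, C2.ι, inferInstance, fun x => C1.p x.1 * C2.p x.2,
    C1.isPart.sigma hcomm (fun _ => C2.isPart)⟩, ?_⟩
  rintro g ⟨s, t⟩ h
  have h' : g.1 * (C1.p s * C2.p t) = g.1 := h
  refine ⟨⟨s, ?_⟩, ⟨t, ?_⟩⟩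
  · rw [← h', mul_assoc, mul_assoc, hcomm _ (C2.isPart.mem t) _ (C1.isPart.mem s),
      ← mul_assoc (C1.p s) (C1.p s), (C1.isPart.proj s).isIdempotentElem]
  · rw [← h', mul_assoc, mul_assoc, (C2.isPart.proj t).isIdempotentElem]

theorem exists_below (he0 : e ≠ 0) (C : FinPart A e) : ∃ (g : Germ A e) (s : C.ι), g.1 = C.p s := by
  have : ∃ s, C.p s ≠ 0 := by
    by_contra h
    push Not at h
    apply he0
    rw [← C.isPart.sum]
    exact Finset.sum_eq_zero (fun s _ => h s)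
  obtain ⟨s, hs⟩ := this
  exact ⟨⟨C.p s, C.isPart.mem s, C.isPart.proj s, (C.isPart.mul_eq s).2, hs⟩, s, rfl⟩

/-- `L` dominates `h` on germs -/
def Dom (M : VonNeumannAlgebra H) (A : StarSubalgebra ℂ (H →L[ℂ] H)) (e : H →L[ℂ] H)
    (h : Germ A e → H →L[ℂ] H) (L : H →L[ℂ] H) : Prop :=
  L ∈ M ∧ IsSelfAdjoint L ∧ ∃ C : FinPart A e, ∀ (g : Germ A e) (s : C.ι),
    g.1 * C.p s = g.1 → h g ≤ L

theorem Dom.add (hcomm : ∀ a ∈ A, ∀ b ∈ A, a * b = b * a) {M : VonNeumannAlgebra H}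
    {h1 h2 : Germ A e → H →L[ℂ] H} {L1 L2 : H →L[ℂ] H}
    (H1 : Dom M A e h1 L1) (H2 : Dom M A e h2 L2) : Dom M A e (h1 + h2) (L1 + L2) := by
  obtain ⟨a1, b1, C1, c1⟩ := H1
  obtain ⟨a2, b2, C2, c2⟩ := H2
  obtain ⟨C, hC⟩ := exists_common hcomm C1 C2
  refine ⟨add_mem a1 a2, b1.add b2, C, ?_⟩
  intro g x hx
  obtain ⟨⟨s, hs⟩, ⟨t, ht⟩⟩ := hC g x hx
  exact add_le_add (c1 g s hs) (c2 g t ht)

theorem real_smul_mem {M : VonNeumannAlgebra H} (c : ℝ) {z : H →L[ℂ] H} (hz : z ∈ M) :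
    c • z ∈ M := by
  rw [← Complex.coe_smul]
  exact M.toStarSubalgebra.smul_mem hz _

theorem isSelfAdjoint_real_smul (c : ℝ) {z : H →L[ℂ] H} (hz : IsSelfAdjoint z) :
    IsSelfAdjoint (c • z) := by
  rw [← Complex.coe_smul, IsSelfAdjoint, star_smul, hz.star_eq]
  simp

theorem real_smul_le_real_smul {c : ℝ} (hc : 0 ≤ c) {y z : H →L[ℂ] H} (h : y ≤ z) :
    c • y ≤ c • z := smul_le_smul_of_nonneg_left h hc

theorem Dom.smul {M : VonNeumannAlgebra H}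
    {h : Germ A e → H →L[ℂ] H} {L : H →L[ℂ] H}
    (H1 : Dom M A e h L) {c : ℝ} (hc : 0 ≤ c) : Dom M A e (c • h) (c • L) := by
  obtain ⟨a1, b1, C1, c1⟩ := H1
  refine ⟨real_smul_mem c a1, isSelfAdjoint_real_smul c b1, C1, ?_⟩
  intro g x hx
  show c • h g ≤ c • L
  exact real_smul_le_real_smul hc (c1 g x hx)

def BddProp (M : VonNeumannAlgebra H) (A : StarSubalgebra ℂ (H →L[ℂ] H)) (e : H →L[ℂ] H)
    (h : Germ A e → H →L[ℂ] H) : Prop :=
  (∀ g, h g ∈ M ∧ IsSelfAdjoint (h g)) ∧ ∃ c : ℝ, ∀ g, ‖h g‖ ≤ c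

theorem BddProp.add {M : VonNeumannAlgebra H} {a b : Germ A e → H →L[ℂ] H}
    (ha : BddProp M A e a) (hb : BddProp M A e b) : BddProp M A e (a + b) := by
  obtain ⟨h1, c1, h2⟩ := ha
  obtain ⟨h3, c2, h4⟩ := hb
  refine ⟨fun g => ⟨?_, ?_⟩, c1 + c2, fun g => ?_⟩
  · show a g + b g ∈ M
    exact add_mem (h1 g).1 (h3 g).1
  · show IsSelfAdjoint (a g + b g)
    exact (h1 g).2.add (h3 g).2
  · show ‖a g + b g‖ ≤ c1 + c2
    exact (norm_add_le _ _).trans (add_le_add (h2 g) (h4 g))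

theorem BddProp.zero {M : VonNeumannAlgebra H} : BddProp M A e 0 :=
  ⟨fun g => ⟨zero_mem M, IsSelfAdjoint.zero _⟩, 0, fun g => by simp⟩

theorem BddProp.smul {M : VonNeumannAlgebra H} (c : ℝ) {a : Germ A e → H →L[ℂ] H}
    (ha : BddProp M A e a) : BddProp M A e (c • a) := by
  obtain ⟨h1, c1, h2⟩ := ha
  refine ⟨fun g => ⟨?_, ?_⟩, |c| * c1, fun g => ?_⟩
  · show c • a g ∈ M
    exact real_smul_mem c (h1 g).1
  · show IsSelfAdjoint (c • a g)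
    exact isSelfAdjoint_real_smul c (h1 g).2
  · show ‖c • a g‖ ≤ |c| * c1
    rw [norm_smul, Real.norm_eq_abs]
    exact mul_le_mul_of_nonneg_left (h2 g) (abs_nonneg _)

/-- bounded self-adjoint `M`-valued functions on germs -/
def BddFun (M : VonNeumannAlgebra H) (A : StarSubalgebra ℂ (H →L[ℂ] H)) (e : H →L[ℂ] H) :
    Submodule ℝ (Germ A e → H →L[ℂ] H) where
  carrier := {h | BddProp M A e h}
  add_mem' := fun ha hb => BddProp.add ha hb
  zero_mem' := BddProp.zero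
  smul_mem' := fun c _ ha => BddProp.smul c ha

theorem le_norm_smul_one {a : H →L[ℂ] H} (ha : IsSelfAdjoint a) {c : ℝ} (hc : ‖a‖ ≤ c) :
    a ≤ c • (1 : H →L[ℂ] H) := by
  have h3 : a ≤ algebraMap ℝ (H →L[ℂ] H) ‖a‖ := ha.le_algebraMap_norm_self
  refine h3.trans ?_
  rw [Algebra.algebraMap_eq_smul_one]
  exact smul_le_smul_of_nonneg_right hc zero_le_one

theorem neg_norm_smul_one_le {a : H →L[ℂ] H} (ha : IsSelfAdjoint a) {c : ℝ} (hc : ‖a‖ ≤ c) :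
    -(c • (1 : H →L[ℂ] H)) ≤ a := by
  have := le_norm_smul_one ha.neg (by simpa using hc : ‖-a‖ ≤ c)
  exact neg_le.mp this

theorem isSelfAdjoint_smul_one (c : ℝ) : IsSelfAdjoint (c • (1 : H →L[ℂ] H)) :=
  isSelfAdjoint_real_smul c (IsSelfAdjoint.one _)

theorem exists_functional {M : VonNeumannAlgebra H}
    (hcomm : ∀ a ∈ A, ∀ b ∈ A, a * b = b * a) (hAM : ∀ a ∈ A, a ∈ M) (heA : e ∈ A)
    (he : IsStarProjection e) (he0 : e ≠ 0)
    (φ : (H →L[ℂ] H) →ₗ[ℝ] ℝ) (hφ : ∀ L, 0 ≤ L → 0 ≤ φ L) :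
    ∃ f : (Germ A e → H →L[ℂ] H) →ₗ[ℝ] ℝ,
      (∀ h ∈ BddFun M A e, ∀ L, Dom M A e h L → f h ≤ φ L) ∧
      (∀ ε : ℝ, 0 < ε → ∃ L, Dom M A e (fun g => g.1) L ∧ φ L < f (fun g => g.1) + ε) := by
  classical
  have hmono : ∀ L1 L2, L1 ≤ L2 → φ L1 ≤ φ L2 := by
    intro L1 L2 h
    have := hφ (L2 - L1) (sub_nonneg.mpr h)
    rw [map_sub] at this
    linarith
  let S : (Germ A e → H →L[ℂ] H) → Set ℝ := fun h => φ '' {L | Dom M A e h L}
  let C00 : FinPart A e := ⟨Unit, inferInstance, fun _ => e, ⟨fun _ => heA, fun _ => he,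
    fun i j h => absurd (Subsingleton.elim i j) h, by simp⟩⟩
  have hne : ∀ h ∈ BddFun M A e, (S h).Nonempty := by
    rintro h ⟨h1, c, h2⟩
    refine ⟨φ (c • (1 : H →L[ℂ] H)), c • (1 : H →L[ℂ] H),
      ⟨real_smul_mem c (one_mem M), isSelfAdjoint_smul_one c, C00, fun g _ _ => ?_⟩, rfl⟩
    exact le_norm_smul_one (h1 g).2 (h2 g)
  have hbdd : ∀ h ∈ BddFun M A e, BddBelow (S h) := by
    rintro h ⟨h1, c, h2⟩
    refine ⟨φ (-(c • (1 : H →L[ℂ] H))), ?_⟩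
    rintro _ ⟨L, ⟨hLM, hLs, C, hC⟩, rfl⟩
    obtain ⟨g, s, hgs⟩ := exists_below he0 C
    have h3 : g.1 * C.p s = g.1 := by
      rw [hgs, (C.isPart.proj s).isIdempotentElem]
    exact hmono _ _ ((neg_norm_smul_one_le (h1 g).2 (h2 g)).trans (hC g s h3))
  let E := BddFun M A e
  let p : E → ℝ := fun h => sInf (S h.1)
  have hple : ∀ (h : E) L, Dom M A e h.1 L → p h ≤ φ L := fun h L hL =>
    csInf_le (hbdd h.1 h.2) ⟨L, hL, rfl⟩
  have hplt : ∀ (h : E) (ε : ℝ), 0 < ε → ∃ L, Dom M A e h.1 L ∧ φ L < p h + ε := by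
    intro h ε hε
    obtain ⟨_, ⟨L, hL, rfl⟩, h2⟩ := exists_lt_of_csInf_lt (hne h.1 h.2)
      (lt_add_of_pos_right (p h) hε)
    exact ⟨L, hL, h2⟩
  have hpadd : ∀ h1 h2 : E, p (h1 + h2) ≤ p h1 + p h2 := by
    intro h1 h2
    apply le_of_forall_pos_le_add
    intro ε hε
    obtain ⟨L1, hL1, hl1⟩ := hplt h1 (ε / 2) (by positivity)
    obtain ⟨L2, hL2, hl2⟩ := hplt h2 (ε / 2) (by positivity)
    have := hple (h1 + h2) (L1 + L2) (hL1.add hcomm hL2)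
    rw [map_add] at this
    linarith
  have hpsmul' : ∀ (c : ℝ), 0 < c → ∀ h : E, p (c • h) ≤ c * p h := by
    intro c hc h
    apply le_of_forall_pos_le_add
    intro ε hε
    obtain ⟨L, hL, hl⟩ := hplt h (ε / c) (by positivity)
    have := hple (c • h) (c • L) (hL.smul hc.le)
    rw [map_smul, smul_eq_mul] at this
    have h3 : c * φ L < c * (p h + ε / c) := mul_lt_mul_of_pos_left hl hc
    have h4 : c * (p h + ε / c) = c * p h + ε := by field_simp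
    linarith
  have hpsmul : ∀ (c : ℝ), 0 < c → ∀ h : E, p (c • h) = c * p h := by
    intro c hc h
    apply le_antisymm (hpsmul' c hc h)
    have h1 := hpsmul' c⁻¹ (by positivity) (c • h)
    rw [smul_smul, inv_mul_cancel₀ hc.ne', one_smul] at h1
    calc c * p h ≤ c * (c⁻¹ * p (c • h)) := mul_le_mul_of_nonneg_left h1 hc.le
      _ = p (c • h) := by rw [← mul_assoc, mul_inv_cancel₀ hc.ne', one_mul]
  have hΘ : (fun g : Germ A e => g.1) ∈ E :=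
    ⟨fun g => ⟨hAM _ g.2.1, g.2.2.1.isSelfAdjoint⟩, 1, fun g => proj_opNorm_le g.2.2.1⟩
  let Θ : E := ⟨fun g => g.1, hΘ⟩
  have hΘ0 : Θ ≠ 0 := by
    intro h
    obtain ⟨g, s, hgs⟩ := exists_below he0 C00
    have h1 : (fun g : Germ A e => g.1) = 0 := congrArg Subtype.val h
    have h2 : g.1 = 0 := congrFun h1 g
    exact g.2.2.2.2 h2
  have hp0 : 0 ≤ p 0 := by
    have := hpadd 0 0
    rw [add_zero] at this
    linarith
  have hneg : -(p Θ) ≤ p (-Θ) := by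
    have := hpadd Θ (-Θ)
    rw [add_neg_cancel] at this
    linarith
  let f0 : E →ₗ.[ℝ] ℝ := LinearPMap.mkSpanSingleton Θ (p Θ) hΘ0
  have hf0 : ∀ x : f0.domain, f0 x ≤ p x := by
    rintro ⟨x, hx⟩
    have hx' : x ∈ Submodule.span ℝ {Θ} := hx
    obtain ⟨c, rfl⟩ := Submodule.mem_span_singleton.mp hx'
    have h1 : f0 ⟨c • Θ, hx⟩ = c • p Θ := LinearPMap.mkSpanSingleton'_apply Θ (p Θ) _ c hx
    rw [h1, smul_eq_mul]
    show c * p Θ ≤ p (c • Θ)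
    rcases lt_trichotomy c 0 with h | h | h
    · have h2 : p (c • Θ) = (-c) * p (-Θ) := by
        rw [← hpsmul (-c) (by linarith) (-Θ)]
        congr 1
        rw [smul_neg, neg_smul, neg_neg]
      rw [h2]
      nlinarith
    · subst h; simpa using hp0
    · rw [hpsmul c h]
  obtain ⟨f1, hf1, hf2⟩ := exists_extension_of_le_sublinear f0 p hpsmul hpadd hf0
  obtain ⟨f, hf⟩ := LinearMap.exists_extend f1
  have hff : ∀ h : E, f h.1 = f1 h := fun h => by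
    have := congrArg (fun g : E →ₗ[ℝ] ℝ => g h) hf
    exact this
  have hfΘ : f (fun g => g.1) = p Θ := by
    have h1 := hff Θ
    rw [show f (fun g => g.1) = f Θ.1 from rfl, h1]
    have hmem : Θ ∈ f0.domain := Submodule.mem_span_singleton_self Θ
    have h2 := hf1 ⟨Θ, hmem⟩
    rw [show f1 Θ = f1 (⟨Θ, hmem⟩ : f0.domain) from rfl, h2]
    have h4 := LinearPMap.mkSpanSingleton'_apply_self Θ (p Θ) (fun c hc => by
      rcases smul_eq_zero.mp hc with h | h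
      · rw [h, map_zero, zero_smul]
      · exact absurd h hΘ0) hmem
    exact h4
  refine ⟨f, ?_, ?_⟩
  · intro h hh L hL
    have := hple ⟨h, hh⟩ L hL
    calc f h = f1 ⟨h, hh⟩ := hff ⟨h, hh⟩
      _ ≤ p ⟨h, hh⟩ := hf2 _
      _ ≤ φ L := this
  · intro ε hε
    rw [hfΘ]
    exact hplt Θ ε hε

end Vale.Agent.P078
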