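import Vale.Agent.P078.Reduction

open scoped InnerProductSpace Topology ComplexOrder symmDiff
open Filter

namespace Vale.Agent.P078

universe u

variable {H : Type u} [NormedAddCommGroup H] [InnerProductSpace ℂ H] [CompleteSpace H]
variable {A : StarSubalgebra ℂ (H →L[ℂ] H)} {M : VonNeumannAlgebra H} {e : H →L[ℂ] H}

theorem sign_choice {τ S : Type} [Fintype S] [DecidableEq S] (𝒯 : Finset τ) (v : τ → S → H) :
    ∃ b : S → ℝ, (∀ s, b s = 1 ∨ b s = -1) ∧
      ∑ t ∈ 𝒯, ‖∑ s, (b s : ℂ) • v t s‖ ^ 2 ≤ ∑ t ∈ 𝒯, ∑ s, ‖v t s‖ ^ 2 := by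
  have key : ∀ F : Finset S, ∃ b : S → ℝ, (∀ s, b s = 1 ∨ b s = -1) ∧
      ∑ t ∈ 𝒯, ‖∑ s ∈ F, (b s : ℂ) • v t s‖ ^ 2 ≤ ∑ t ∈ 𝒯, ∑ s ∈ F, ‖v t s‖ ^ 2 := by
    intro F
    induction F using Finset.induction_on with
    | empty => exact ⟨fun _ => 1, fun _ => Or.inl rfl, by simp⟩
    | insert s0 F hs0 ih =>
      obtain ⟨b, hb, hle⟩ := ih
      set R : τ → H := fun t => ∑ s ∈ F, (b s : ℂ) • v t s with hR
      obtain ⟨σ, hσ, hσc⟩ : ∃ σ : ℝ, (σ = 1 ∨ σ = -1) ∧
          σ * ∑ t ∈ 𝒯, (⟪R t, v t s0⟫_ℂ).re ≤ 0 := by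
        rcases le_total (∑ t ∈ 𝒯, (⟪R t, v t s0⟫_ℂ).re) 0 with h | h
        · exact ⟨1, Or.inl rfl, by linarith⟩
        · exact ⟨-1, Or.inr rfl, by linarith⟩
      refine ⟨Function.update b s0 σ, ?_, ?_⟩
      · intro s
        by_cases h : s = s0
        · subst h; rw [Function.update_self]; exact hσ
        · rw [Function.update_of_ne h]; exact hb s
      · have e1 : ∀ t, ∑ s ∈ insert s0 F, ((Function.update b s0 σ s : ℝ) : ℂ) • v t s =
            R t + (σ : ℂ) • v t s0 := by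
          intro t
          rw [Finset.sum_insert hs0, Function.update_self, add_comm]
          congr 1
          refine Finset.sum_congr rfl (fun s hs => ?_)
          rw [Function.update_of_ne (by rintro rfl; exact hs0 hs)]
        have hσ2 : σ ^ 2 = 1 := by rcases hσ with h | h <;> rw [h] <;> norm_num
        have e2 : ∀ t, ‖R t + (σ : ℂ) • v t s0‖ ^ 2 =
            ‖R t‖ ^ 2 + 2 * (σ * (⟪R t, v t s0⟫_ℂ).re) + ‖v t s0‖ ^ 2 := by
          intro t
          rw [@norm_add_sq ℂ, inner_smul_right, norm_smul, mul_pow, Complex.norm_real,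
            Real.norm_eq_abs, sq_abs, hσ2, one_mul]
          congr 3
          show ((σ : ℂ) * _).re = _
          rw [Complex.re_ofReal_mul]
        simp_rw [e1, e2, Finset.sum_insert hs0]
        rw [Finset.sum_add_distrib, Finset.sum_add_distrib, Finset.sum_add_distrib,
          ← Finset.mul_sum, ← Finset.mul_sum]
        linarith
  exact key Finset.univ

theorem exists_signs {S : Type} [Fintype S] [DecidableEq S] (N : ℕ) (v : S → H) :
    ∃ a : ℕ → S → ℝ, (∀ j s, a j s = 1 ∨ a j s = -1) ∧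
      ∀ T ⊆ Finset.range N, T.Nonempty →
        ‖∑ s, ((∏ j ∈ T, a j s : ℝ) : ℂ) • v s‖ ^ 2 ≤ 2 ^ N * ∑ s, ‖v s‖ ^ 2 := by
  induction N with
  | zero =>
    refine ⟨fun _ _ => 1, fun _ _ => Or.inl rfl, ?_⟩
    intro T hT hne
    simp only [Finset.range_zero, Finset.subset_empty] at hT
    subst hT
    simp at hne
  | succ N ih =>
    obtain ⟨a, ha, hle⟩ := ih
    obtain ⟨b, hb, hbl⟩ := sign_choice (Finset.range N).powerset
      (fun T s => ((∏ j ∈ T, a j s : ℝ) : ℂ) • v s)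
    have hnorm : ∀ (T : Finset ℕ) s, ‖((∏ j ∈ T, a j s : ℝ) : ℂ) • v s‖ ^ 2 = ‖v s‖ ^ 2 := by
      intro T s
      rw [norm_smul, Complex.norm_real]
      have : ‖∏ j ∈ T, a j s‖ = 1 := by
        rw [Real.norm_eq_abs, Finset.abs_prod]
        apply Finset.prod_eq_one
        intro j _
        rcases ha j s with h | h <;> rw [h] <;> simp
      rw [this, one_mul]
    have hcard : ∑ t ∈ (Finset.range N).powerset, ∑ s, ‖((∏ j ∈ t, a j s : ℝ) : ℂ) • v s‖ ^ 2 =
        2 ^ N * ∑ s, ‖v s‖ ^ 2 := by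
      simp_rw [hnorm]
      rw [Finset.sum_const, Finset.card_powerset, Finset.card_range, nsmul_eq_mul]
      push_cast
      rfl
    rw [hcard] at hbl
    have hV : 0 ≤ ∑ s, ‖v s‖ ^ 2 := by positivity
    have h2 : (2 : ℝ) ^ N * ∑ s, ‖v s‖ ^ 2 ≤ 2 ^ (N + 1) * ∑ s, ‖v s‖ ^ 2 := by
      gcongr
      · norm_num
      · omega
    refine ⟨Function.update a N b, ?_, ?_⟩
    · intro j s
      by_cases h : j = N
      · subst h; rw [Function.update_self]; exact hb s
      · rw [Function.update_of_ne h]; exact ha j s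
    · intro T hT hne
      by_cases hN : N ∈ T
      · have hT' : T.erase N ∈ (Finset.range N).powerset := by
          rw [Finset.mem_powerset]
          intro j hj
          rw [Finset.mem_erase] at hj
          have := hT hj.2
          rw [Finset.mem_range] at this ⊢
          omega
        have h3 := Finset.single_le_sum (f := fun t => ‖∑ s, (b s : ℂ) •
          (((∏ j ∈ t, a j s : ℝ) : ℂ) • v s)‖ ^ 2) (fun t _ => by positivity) hT'
        have h4 : ∑ s, ((∏ j ∈ T, Function.update a N b j s : ℝ) : ℂ) • v s =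
            ∑ s, (b s : ℂ) • (((∏ j ∈ T.erase N, a j s : ℝ) : ℂ) • v s) := by
          refine Finset.sum_congr rfl (fun s _ => ?_)
          rw [smul_smul, ← Complex.ofReal_mul]
          congr 2
          rw [← Finset.mul_prod_erase T _ hN, Function.update_self]
          congr 1
          refine Finset.prod_congr rfl (fun j hj => ?_)
          rw [Function.update_of_ne (Finset.ne_of_mem_erase hj)]
        rw [h4]
        exact (h3.trans hbl).trans h2
      · have hT' : T ⊆ Finset.range N := by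
          intro j hj
          have := hT hj
          rw [Finset.mem_range] at this ⊢
          have : j ≠ N := fun h => hN (h ▸ hj)
          omega
        have h4 : ∑ s, ((∏ j ∈ T, Function.update a N b j s : ℝ) : ℂ) • v s =
            ∑ s, ((∏ j ∈ T, a j s : ℝ) : ℂ) • v s := by
          refine Finset.sum_congr rfl (fun s _ => ?_)
          congr 2
          refine Finset.prod_congr rfl (fun j hj => ?_)
          rw [Function.update_of_ne (by rintro rfl; exact hN hj)]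
        rw [h4]
        exact (hle T hT' hne).trans h2

/-- diagonal combinations of the atoms of `C` -/
noncomputable def wC (C : FinPart A e) (f : C.ι → ℝ) : H →L[ℂ] H := ∑ s, (f s : ℂ) • C.p s

theorem wC_mul (C : FinPart A e) (f g : C.ι → ℝ) : wC C f * wC C g = wC C (f * g) := by
  classical
  rw [wC, wC, wC, Finset.sum_mul]
  refine Finset.sum_congr rfl (fun s _ => ?_)
  rw [Finset.mul_sum, Finset.sum_eq_single s]
  · rw [smul_mul_smul_comm, (C.isPart.proj s).isIdempotentElem]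
    simp
  · intro t _ hts
    rw [smul_mul_smul_comm, C.isPart.orth s t hts.symm, smul_zero]
  · simp

theorem wC_one (C : FinPart A e) : wC C 1 = e := by
  rw [wC]
  simp [C.isPart.sum]

theorem wC_mem (C : FinPart A e) (f : C.ι → ℝ) : wC C f ∈ A :=
  sum_mem (fun s _ => A.smul_mem (C.isPart.mem s) _)

theorem wC_sa (C : FinPart A e) (f : C.ι → ℝ) : IsSelfAdjoint (wC C f) := by
  rw [wC]
  apply isSelfAdjoint_sum
  intro s _
  rw [IsSelfAdjoint, star_smul, (C.isPart.proj s).isSelfAdjoint.star_eq]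
  simp

theorem prod_symmDiff {S : Type} (a : ℕ → S → ℝ) (ha : ∀ j s, a j s = 1 ∨ a j s = -1)
    (T T' : Finset ℕ) (s : S) :
    (∏ j ∈ T, a j s) * (∏ j ∈ T', a j s) = ∏ j ∈ T ∆ T', a j s := by
  classical
  have h1 : ∏ j ∈ T, a j s = (∏ j ∈ T \ T', a j s) * ∏ j ∈ T ∩ T', a j s := by
    rw [← Finset.prod_union (Finset.disjoint_sdiff_inter T T'), Finset.sdiff_union_inter]
  have h2 : ∏ j ∈ T', a j s = (∏ j ∈ T' \ T, a j s) * ∏ j ∈ T ∩ T', a j s := by
    rw [Finset.inter_comm, ← Finset.prod_union (Finset.disjoint_sdiff_inter T' T),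
      Finset.sdiff_union_inter]
  have h3 : ∏ j ∈ T ∆ T', a j s = (∏ j ∈ T \ T', a j s) * ∏ j ∈ T' \ T, a j s := by
    rw [symmDiff_def, Finset.sup_eq_union, Finset.prod_union]
    exact disjoint_sdiff_sdiff
  have h4 : (∏ j ∈ T ∩ T', a j s) * ∏ j ∈ T ∩ T', a j s = 1 := by
    rw [← Finset.prod_mul_distrib]
    apply Finset.prod_eq_one
    intro j _
    rcases ha j s with h | h <;> rw [h] <;> norm_num
  rw [h1, h2, h3]
  calc _ = ((∏ j ∈ T \ T', a j s) * ∏ j ∈ T' \ T, a j s) *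
        ((∏ j ∈ T ∩ T', a j s) * ∏ j ∈ T ∩ T', a j s) := by ring
    _ = _ := by rw [h4, mul_one]

theorem almost_orth {τ : Type} [DecidableEq τ] (𝒯 : Finset τ) (Q : τ → H →L[ℂ] H)
    (hQ : ∀ t, IsStarProjection (Q t)) {κ : ℝ} (hκ0 : 0 ≤ κ)
    (hκ : ∀ s ∈ 𝒯, ∀ t ∈ 𝒯, s ≠ t → ‖Q s * Q t‖ ≤ κ) (v : H) :
    ∑ t ∈ 𝒯, ‖Q t v‖ ^ 2 ≤ (1 + (𝒯.card : ℝ) ^ 2 * κ) * ‖v‖ ^ 2 := by
  set s := ∑ t ∈ 𝒯, ‖Q t v‖ ^ 2 with hs
  set G := ∑ t ∈ 𝒯, Q t v with hG
  set K := (𝒯.card : ℝ) ^ 2 * κ with hK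
  have hK0 : 0 ≤ K := by positivity
  have hs0 : 0 ≤ s := by positivity
  have h1 : s ≤ ‖G‖ * ‖v‖ := by
    have : s = (⟪G, v⟫_ℂ).re := by
      rw [hG, sum_inner, Complex.re_sum]
      exact Finset.sum_congr rfl (fun t _ => proj_norm_sq (hQ t) v)
    rw [this]
    exact (Complex.re_le_norm _).trans (norm_inner_le_norm _ _)
  have h2 : ‖G‖ ^ 2 ≤ s + K * ‖v‖ ^ 2 := by
    have e1 : ‖G‖ ^ 2 = ∑ t ∈ 𝒯, ∑ t' ∈ 𝒯, (⟪Q t v, Q t' v⟫_ℂ).re := by
      rw [← norm_sq_re_inner, hG, sum_inner, Complex.re_sum]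
      refine Finset.sum_congr rfl (fun t _ => ?_)
      rw [inner_sum, Complex.re_sum]
    have e2 : ∀ t ∈ 𝒯, ∑ t' ∈ 𝒯, (⟪Q t v, Q t' v⟫_ℂ).re ≤
        ‖Q t v‖ ^ 2 + (𝒯.card : ℝ) * (κ * ‖v‖ ^ 2) := by
      intro t ht
      rw [← Finset.add_sum_erase 𝒯 _ ht, norm_sq_re_inner]
      have e3 : ∑ t' ∈ 𝒯.erase t, (⟪Q t v, Q t' v⟫_ℂ).re ≤
          ∑ _t' ∈ 𝒯.erase t, κ * ‖v‖ ^ 2 := by
        refine Finset.sum_le_sum (fun t' ht' => ?_)
        rw [Finset.mem_erase] at ht'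
        have e4 : ⟪Q t v, Q t' v⟫_ℂ = ⟪(Q t' * Q t) v, v⟫_ℂ := by
          rw [mul_apply', sa_inner (hQ t').isSelfAdjoint]
        rw [e4]
        calc (⟪(Q t' * Q t) v, v⟫_ℂ).re ≤ ‖(Q t' * Q t) v‖ * ‖v‖ :=
              (Complex.re_le_norm _).trans (norm_inner_le_norm _ _)
          _ ≤ (κ * ‖v‖) * ‖v‖ := by
              gcongr
              exact ContinuousLinearMap.le_of_opNorm_le _ (hκ t' ht'.2 t ht ht'.1) v
          _ = κ * ‖v‖ ^ 2 := by ring
      have e5 : ∑ _t' ∈ 𝒯.erase t, κ * ‖v‖ ^ 2 ≤ (𝒯.card : ℝ) * (κ * ‖v‖ ^ 2) := by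
        rw [Finset.sum_const, nsmul_eq_mul]
        gcongr
        exact Finset.erase_subset _ _
      linarith
    rw [e1]
    calc _ ≤ ∑ t ∈ 𝒯, (‖Q t v‖ ^ 2 + (𝒯.card : ℝ) * (κ * ‖v‖ ^ 2)) := Finset.sum_le_sum e2
      _ = s + K * ‖v‖ ^ 2 := by
          rw [Finset.sum_add_distrib, Finset.sum_const, nsmul_eq_mul, hK]
          ring
  by_contra hc
  push Not at hc
  have hV : 0 ≤ ‖v‖ := norm_nonneg v
  have h3 : s ^ 2 ≤ (s + K * ‖v‖ ^ 2) * ‖v‖ ^ 2 := by
    calc s ^ 2 ≤ (‖G‖ * ‖v‖) ^ 2 := by gcongr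
      _ = ‖G‖ ^ 2 * ‖v‖ ^ 2 := by ring
      _ ≤ _ := by gcongr
  have hsV : ‖v‖ ^ 2 ≤ s := by nlinarith [sq_nonneg ‖v‖]
  have hspos : 0 < s := by
    rcases hs0.eq_or_lt with h | h
    · rw [← h] at hc
      have : 0 ≤ (1 + K) * ‖v‖ ^ 2 := by positivity
      linarith
    · exact h
  have h4 : s * ((1 + K) * ‖v‖ ^ 2) < s * s := mul_lt_mul_of_pos_left hc hspos
  have h5 : K * ‖v‖ ^ 2 * ‖v‖ ^ 2 ≤ K * ‖v‖ ^ 2 * s := by gcongr
  nlinarith

theorem comb_ineq (N : ℕ) (g : Finset ℕ → ℝ) (hg : ∀ T, 0 ≤ g T) (σ : ℕ → ℝ)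
    (hσ : ∀ j, σ j = 1 ∨ σ j = -1) :
    N * g ∅ - 2 * ∑ T ∈ (Finset.range N).powerset, g T ≤
      ∑ j ∈ Finset.range N, ∑ k ∈ Finset.range N, σ j * σ k * g ({k} ∆ {j}) := by
  classical
  have h1 : ∀ j k, (if j = k then g ∅ else 0) - (if j < k then g ({k} ∆ {j}) else 0) -
      (if k < j then g ({k} ∆ {j}) else 0) ≤ σ j * σ k * g ({k} ∆ {j}) := by
    intro j k
    rcases lt_trichotomy j k with h | h | h
    · rw [if_neg h.ne, if_pos h, if_neg h.le.not_gt]
      have := hg ({k} ∆ {j})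
      rcases hσ j with h1 | h1 <;> rcases hσ k with h2 | h2 <;> rw [h1, h2] <;> linarith
    · subst h
      simp only [lt_irrefl, if_false, if_true, sub_zero, symmDiff_self, Finset.bot_eq_empty]
      rcases hσ j with h1 | h1 <;> rw [h1] <;> linarith [hg ∅]
    · rw [if_neg h.ne', if_neg h.le.not_gt, if_pos h]
      have := hg ({k} ∆ {j})
      rcases hσ j with h1 | h1 <;> rcases hσ k with h2 | h2 <;> rw [h1, h2] <;> linarith
  have hsub : ∀ j ∈ Finset.range N, ∀ k ∈ Finset.range N,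
      ({k} ∆ {j} : Finset ℕ) ∈ (Finset.range N).powerset := by
    intro j hj k hk
    rw [Finset.mem_powerset]
    intro n hn
    rw [Finset.mem_symmDiff, Finset.mem_singleton, Finset.mem_singleton] at hn
    rcases hn with ⟨h, -⟩ | ⟨h, -⟩ <;> rw [h] <;> assumption
  have h2 : ∑ j ∈ Finset.range N, ∑ k ∈ Finset.range N, (if j < k then g ({k} ∆ {j}) else 0) ≤
      ∑ T ∈ (Finset.range N).powerset, g T := by
    rw [← Finset.sum_product', ← Finset.sum_filter]
    rw [← Finset.sum_image (f := g) (g := fun x : ℕ × ℕ => ({x.2} ∆ {x.1} : Finset ℕ))]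
    · apply Finset.sum_le_sum_of_subset_of_nonneg
      · intro T hT
        rw [Finset.mem_image] at hT
        obtain ⟨x, hx, rfl⟩ := hT
        rw [Finset.mem_filter, Finset.mem_product] at hx
        exact hsub _ hx.1.1 _ hx.1.2
      · intro T _ _; exact hg T
    · rintro ⟨j, k⟩ hx ⟨j', k'⟩ hy hxy
      simp only [Finset.coe_filter, Set.mem_ofPred_eq] at hx hy
      have h3 : ∀ n, n ∈ ({k} ∆ {j} : Finset ℕ) ↔ n ∈ ({k'} ∆ {j'} : Finset ℕ) := by
        intro n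
        have : ({k} ∆ {j} : Finset ℕ) = {k'} ∆ {j'} := hxy
        rw [this]
      simp only [Finset.mem_symmDiff, Finset.mem_singleton] at h3
      have a1 := h3 j
      have a2 := h3 k
      have a3 := h3 j'
      have a4 := h3 k'
      rw [Prod.mk.injEq]
      omega
  have h2' : ∑ j ∈ Finset.range N, ∑ k ∈ Finset.range N, (if k < j then g ({k} ∆ {j}) else 0) ≤
      ∑ T ∈ (Finset.range N).powerset, g T := by
    rw [Finset.sum_comm]
    refine le_trans (le_of_eq ?_) h2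
    refine Finset.sum_congr rfl (fun j _ => Finset.sum_congr rfl (fun k _ => ?_))
    rw [symmDiff_comm]
  have h3 : ∑ j ∈ Finset.range N, ∑ k ∈ Finset.range N, (if j = k then g ∅ else 0) =
      N * g ∅ := by
    have : ∀ j ∈ Finset.range N, ∑ k ∈ Finset.range N, (if j = k then g ∅ else 0) = g ∅ := by
      intro j hj
      rw [Finset.sum_ite_eq, if_pos hj]
    rw [Finset.sum_congr rfl this, Finset.sum_const, Finset.card_range, nsmul_eq_mul]
  calc _ ≤ ∑ j ∈ Finset.range N, ∑ k ∈ Finset.range N, ((if j = k then g ∅ else 0) -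
        (if j < k then g ({k} ∆ {j}) else 0) - (if k < j then g ({k} ∆ {j}) else 0)) := by
        simp only [Finset.sum_sub_distrib]
        rw [h3]
        linarith
    _ ≤ _ := Finset.sum_le_sum (fun j _ => Finset.sum_le_sum (fun k _ => h1 j k))

end Vale.Agent.P078
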