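import Vale.Agent.P078.Lower

open scoped InnerProductSpace Topology ComplexOrder symmDiff
open Filter

namespace Vale.Agent.P078

universe u

variable {H : Type u} [NormedAddCommGroup H] [InnerProductSpace ℂ H] [CompleteSpace H]
variable {A : StarSubalgebra ℂ (H →L[ℂ] H)} {M : VonNeumannAlgebra H} {e : H →L[ℂ] H}

theorem exists_family (hA : IsMASA M A) (he : IsStarProjection e) (he0 : e ≠ 0)
    (hinf : Infinitesimal M A e) (N : ℕ) (κ : ℝ) (hκ : 0 < κ) :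
    ∃ (q : H →L[ℂ] H) (w : Finset ℕ → H →L[ℂ] H), q ∈ M ∧ IsStarProjection q ∧ q * e = q ∧
      q ≠ 0 ∧ (∀ T, w T ∈ A) ∧ (∀ T, IsSelfAdjoint (w T)) ∧ w ∅ = e ∧
      (∀ T T', w T * w T' = w (T ∆ T')) ∧
      (∀ T ⊆ Finset.range N, T ≠ ∅ → ‖q * w T * q‖ ≤ κ) := by
  classical
  obtain ⟨v0, hv0⟩ : ∃ v, e v ≠ 0 := by
    by_contra h
    push Not at h
    exact he0 (by ext v; simpa using h v)
  set ξ : H := ((‖e v0‖⁻¹ : ℝ) : ℂ) • e v0 with hξ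
  have hee : e * e = e := he.isIdempotentElem
  have hev0 : 0 < ‖e v0‖ := norm_pos_iff.mpr hv0
  have hξ1 : ‖ξ‖ = 1 := by
    rw [hξ, norm_smul, Complex.norm_real, Real.norm_eq_abs, abs_of_pos (by positivity)]
    exact inv_mul_cancel₀ hev0.ne'
  have heξ : e ξ = ξ := by
    rw [hξ, map_smul]
    congr 1
    exact congrArg (fun S : H →L[ℂ] H => S v0) hee
  set K : ℝ := 2 ^ N * 2 ^ N with hK
  have hK1 : 1 ≤ K := by
    have : (1 : ℝ) ≤ 2 ^ N := one_le_pow₀ (by norm_num)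
    nlinarith
  obtain ⟨δ, hδ0, hδ1, hδ2⟩ : ∃ δ : ℝ, 0 < δ ∧ δ < 1 / 2 ∧ K * δ < κ ^ 2 * (1 / 2) ^ 2 := by
    refine ⟨min (1 / 4) (κ ^ 2 * (1 / 2) ^ 2 / (2 * K)), by positivity, ?_, ?_⟩
    · exact (min_le_left _ _).trans_lt (by norm_num)
    · calc K * min (1 / 4) (κ ^ 2 * (1 / 2) ^ 2 / (2 * K))
          ≤ K * (κ ^ 2 * (1 / 2) ^ 2 / (2 * K)) := by
            gcongr
            exact min_le_right _ _
        _ = κ ^ 2 * (1 / 2) ^ 2 / 2 := by field_simp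
        _ < _ := by
            have : 0 < κ ^ 2 * (1 / 2) ^ 2 := by positivity
            linarith
  obtain ⟨q0, hq0M, hq0, hq0e, hq0F, C, hC⟩ := hinf {ξ} δ hδ0
  have hq0ξ := hq0F ξ (Finset.mem_singleton_self _)
  obtain ⟨a, ha, hle⟩ := exists_signs N (fun s => q0 (C.p s (q0 ξ)))
  set w : Finset ℕ → H →L[ℂ] H := fun T => wC C (fun s => ∏ j ∈ T, a j s) with hw
  have hwsa : ∀ T, IsSelfAdjoint (w T) := fun T => wC_sa C _
  have hwA : ∀ T, w T ∈ A := fun T => wC_mem C _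
  have hsum : ∑ s, ‖q0 (C.p s (q0 ξ))‖ ^ 2 ≤ δ := by
    have h1 : ∀ s, ‖q0 (C.p s (q0 ξ))‖ ^ 2 ≤ δ * ‖C.p s (q0 ξ)‖ ^ 2 := by
      intro s
      have h2 : ‖q0 * C.p s‖ ^ 2 ≤ δ := by
        rw [norm_mul_proj_sq hq0 (C.isPart.proj s)]
        exact hC s
      have h3 : C.p s (C.p s (q0 ξ)) = C.p s (q0 ξ) :=
        congrArg (fun S : H →L[ℂ] H => S (q0 ξ)) (C.isPart.proj s).isIdempotentElem
      calc ‖q0 (C.p s (q0 ξ))‖ ^ 2 = ‖(q0 * C.p s) (C.p s (q0 ξ))‖ ^ 2 := by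
            rw [mul_apply', h3]
        _ ≤ (‖q0 * C.p s‖ * ‖C.p s (q0 ξ)‖) ^ 2 := by
            gcongr
            exact ContinuousLinearMap.le_opNorm _ _
        _ = ‖q0 * C.p s‖ ^ 2 * ‖C.p s (q0 ξ)‖ ^ 2 := by ring
        _ ≤ _ := by gcongr
    calc ∑ s, ‖q0 (C.p s (q0 ξ))‖ ^ 2 ≤ ∑ s, δ * ‖C.p s (q0 ξ)‖ ^ 2 :=
          Finset.sum_le_sum (fun s _ => h1 s)
      _ = δ * ‖e (q0 ξ)‖ ^ 2 := by rw [← Finset.mul_sum, C.isPart.norm_sq he]
      _ ≤ δ * 1 ^ 2 := by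
          gcongr
          calc ‖e (q0 ξ)‖ ≤ ‖q0 ξ‖ := proj_norm_le he _
            _ ≤ ‖ξ‖ := proj_norm_le hq0 _
            _ = 1 := hξ1
      _ = δ := by ring
  set 𝒯 := ((Finset.range N).powerset).erase ∅ with h𝒯
  have hwq : ∀ T ∈ 𝒯, ‖q0 (w T (q0 ξ))‖ ^ 2 ≤ 2 ^ N * δ := by
    intro T hT
    rw [h𝒯, Finset.mem_erase, Finset.mem_powerset] at hT
    have h1 := hle T hT.2 (Finset.nonempty_iff_ne_empty.mpr hT.1)
    have h2 : q0 (w T (q0 ξ)) = ∑ s, ((∏ j ∈ T, a j s : ℝ) : ℂ) • q0 (C.p s (q0 ξ)) := by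
      show q0 (wC C _ (q0 ξ)) = _
      rw [wC, sum_apply, map_sum]
      refine Finset.sum_congr rfl (fun s _ => ?_)
      rw [smul_apply, map_smul]
    rw [h2]
    refine h1.trans ?_
    gcongr
  set b : Finset ℕ → H →L[ℂ] H := fun T => q0 * w T * q0 with hb
  have hbsa : ∀ T, IsSelfAdjoint (b T) := fun T => conj_sa hq0.isSelfAdjoint (hwsa T)
  set Y := ∑ T ∈ 𝒯, b T * b T with hY
  have hYsa : IsSelfAdjoint Y := by
    rw [hY]
    apply isSelfAdjoint_sum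
    intro T _
    rw [IsSelfAdjoint, star_mul, (hbsa T).star_eq]
  have hYv : ∀ v, (⟪Y v, v⟫_ℂ).re = ∑ T ∈ 𝒯, ‖b T v‖ ^ 2 := by
    intro v
    rw [hY, sum_apply, sum_inner, Complex.re_sum]
    exact Finset.sum_congr rfl (fun T _ => inner_self_sq (hbsa T) v)
  have hY0 : 0 ≤ Y := by
    rw [pos_iff_re hYsa]
    intro v
    rw [hYv]
    positivity
  obtain ⟨q1, hq1, hq1c, hq1a, hq1b⟩ := spectral_cut_pos Y hY0 (κ ^ 2) (by positivity)
  have hbM : ∀ T, b T ∈ M := fun T => mul_mem (mul_mem hq0M (hA.subset _ (hwA T))) hq0M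
  have hYM : Y ∈ M := sum_mem (fun T _ => mul_mem (hbM T) (hbM T))
  have hq1M : q1 ∈ M := mem_of_commute_imp hYM hq1c
  have hq0q0 : q0 * q0 = q0 := hq0.isIdempotentElem
  have hq0b : ∀ T, q0 * b T = b T := fun T => by
    show q0 * (q0 * w T * q0) = q0 * w T * q0
    rw [← mul_assoc, ← mul_assoc, hq0q0]
  have hbq0 : ∀ T, b T * q0 = b T := fun T => by
    show (q0 * w T * q0) * q0 = q0 * w T * q0
    rw [mul_assoc, hq0q0]
  have hq0Y : Commute q0 Y := by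
    show q0 * Y = Y * q0
    rw [hY, Finset.mul_sum, Finset.sum_mul]
    refine Finset.sum_congr rfl (fun T _ => ?_)
    calc q0 * (b T * b T) = b T * b T := by rw [← mul_assoc, hq0b]
      _ = b T * b T * q0 := by rw [mul_assoc (b T) (b T) q0, hbq0]
  have hq01 : q0 * q1 = q1 * q0 := (hq1c q0 hq0Y).eq
  have hqp : IsStarProjection (q1 * q0) := hq1.mul hq0 hq01.symm
  have hbq : ∀ v, ∀ T ∈ 𝒯, ‖b T (q1 (q0 v))‖ ≤ κ * ‖v‖ := by
    intro v T hT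
    apply le_of_sq_le_sq _ (by positivity)
    have h1 := hq1a (q0 v)
    rw [hYv] at h1
    have h2 := Finset.single_le_sum (f := fun T => ‖b T (q1 (q0 v))‖ ^ 2)
      (fun T _ => by positivity) hT
    calc ‖b T (q1 (q0 v))‖ ^ 2 ≤ κ ^ 2 * ‖q1 (q0 v)‖ ^ 2 := h2.trans h1
      _ ≤ κ ^ 2 * ‖v‖ ^ 2 := by
          gcongr
          exact (proj_norm_le hq1 _).trans (proj_norm_le hq0 _)
      _ = (κ * ‖v‖) ^ 2 := by ring
  refine ⟨q1 * q0, w, mul_mem hq1M hq0M, hqp, by rw [mul_assoc, hq0e], ?_, hwA, hwsa, ?_, ?_, ?_⟩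
  · intro h0
    have h1 : (q1 * q0) ξ = 0 := by rw [h0]; rfl
    have h2 : q1 (q0 ξ) = 0 := h1
    have h3 := hq1b (q0 ξ)
    rw [h2, sub_zero, hYv] at h3
    have h4 : ∀ T ∈ 𝒯, ‖b T (q0 ξ)‖ ^ 2 ≤ 2 ^ N * δ := by
      intro T hT
      have h5 : b T (q0 ξ) = q0 (w T (q0 ξ)) := by
        show q0 (w T (q0 (q0 ξ))) = _
        have : q0 (q0 ξ) = q0 ξ := congrArg (fun S : H →L[ℂ] H => S ξ) hq0q0
        rw [this]
      rw [h5]; exact hwq T hT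
    have h5 : ∑ T ∈ 𝒯, ‖b T (q0 ξ)‖ ^ 2 ≤ K * δ := by
      calc _ ≤ ∑ T ∈ 𝒯, 2 ^ N * δ := Finset.sum_le_sum h4
        _ ≤ ∑ T ∈ (Finset.range N).powerset, 2 ^ N * δ := by
            apply Finset.sum_le_sum_of_subset_of_nonneg (Finset.erase_subset _ _)
            intro _ _ _; positivity
        _ = K * δ := by
            rw [Finset.sum_const, Finset.card_powerset, Finset.card_range, nsmul_eq_mul, hK]
            push_cast
            ring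
    have h6 : κ ^ 2 * ‖q0 ξ‖ ^ 2 < κ ^ 2 * (1 / 2) ^ 2 := by linarith
    have h7 : ‖q0 ξ‖ ^ 2 < (1 / 2) ^ 2 := lt_of_mul_lt_mul_left h6 (by positivity)
    have h8 : ‖q0 ξ‖ < 1 / 2 := lt_of_pow_lt_pow_left₀ 2 (by norm_num) h7
    have h9 : ‖(e - q0) ξ‖ = ‖ξ - q0 ξ‖ := by
      rw [sub_apply, heξ]
    rw [h9] at hq0ξ
    have h10 : ‖ξ‖ ≤ ‖ξ - q0 ξ‖ + ‖q0 ξ‖ := by
      have := norm_add_le (ξ - q0 ξ) (q0 ξ)
      rwa [sub_add_cancel] at this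
    linarith
  · show wC C _ = e
    have : (fun s => ∏ j ∈ (∅ : Finset ℕ), a j s) = (1 : C.ι → ℝ) := by
      funext s; simp
    rw [this, wC_one]
  · intro T T'
    show wC C _ * wC C _ = wC C _
    rw [wC_mul]
    congr 1
    funext s
    exact prod_symmDiff a ha T T' s
  · intro T hT hne
    have hT' : T ∈ 𝒯 := by
      rw [h𝒯, Finset.mem_erase, Finset.mem_powerset]
      exact ⟨hne, hT⟩
    apply ContinuousLinearMap.opNorm_le_bound _ hκ.le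
    intro v
    have h1 : (q1 * q0 * w T * (q1 * q0)) v = q1 (b T (q1 (q0 v))) := by
      have : q1 * q0 * w T * (q1 * q0) = q1 * (b T * (q1 * q0)) := by
        show _ = q1 * ((q0 * w T * q0) * (q1 * q0))
        have h3 : q0 * (q1 * q0) = q1 * q0 := by
          rw [← mul_assoc, hq01, mul_assoc, hq0q0]
        rw [mul_assoc (q0 * w T) q0 (q1 * q0), h3]
        simp only [mul_assoc]
      rw [this]; rfl
    rw [h1]
    exact (proj_norm_le hq1 _).trans (hbq v T hT')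

end Vale.Agent.P078
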