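import Vale.Agent.P078.Lower2

open scoped InnerProductSpace Topology ComplexOrder symmDiff
open Filter

namespace Vale.Agent.P078

universe u

variable {H : Type u} [NormedAddCommGroup H] [InnerProductSpace ℂ H] [CompleteSpace H]
variable {A : StarSubalgebra ℂ (H →L[ℂ] H)} {M : VonNeumannAlgebra H} {e : H →L[ℂ] H}

/-- signs, half of them `1`, half `-1` -/
noncomputable def sg (m : ℕ) (j : ℕ) : ℝ := if j < m then 1 else -1

theorem sg_eq (m j : ℕ) : sg m j = 1 ∨ sg m j = -1 := by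
  unfold sg
  split_ifs
  · exact Or.inl rfl
  · exact Or.inr rfl

theorem sg_sum (m : ℕ) : ∑ j ∈ Finset.range (2 * m), sg m j = 0 := by
  have h1 : ∀ k, ∑ j ∈ Finset.range (m + k), sg m j = m - k := by
    intro k
    induction k with
    | zero =>
      have : ∀ j ∈ Finset.range (m + 0), sg m j = 1 := by
        intro j hj
        rw [Finset.mem_range] at hj
        rw [sg, if_pos (by omega)]
      rw [Finset.sum_congr rfl this]
      simp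
    | succ k ih =>
      rw [← add_assoc, Finset.sum_range_succ, ih, sg, if_neg (by omega)]
      push_cast
      ring
  have := h1 m
  rw [← two_mul] at this
  rw [this]
  ring

theorem opNorm_le_of_inner {x : H →L[ℂ] H} {B : ℝ} (hB : 0 ≤ B)
    (h : ∀ v w, ‖⟪x v, w⟫_ℂ‖ ≤ B / 2 * (‖v‖ ^ 2 + ‖w‖ ^ 2)) : ‖x‖ ≤ B := by
  apply ContinuousLinearMap.opNorm_le_bound _ hB
  intro v
  by_cases hv : ‖x v‖ = 0
  · rw [hv]; positivity
  have hv0 : 0 < ‖x v‖ := lt_of_le_of_ne (norm_nonneg _) (Ne.symm hv)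
  by_cases hvv : ‖v‖ = 0
  · have : v = 0 := norm_eq_zero.mp hvv
    rw [this, map_zero, norm_zero] at hv
    exact absurd rfl hv
  have hvv0 : 0 < ‖v‖ := lt_of_le_of_ne (norm_nonneg _) (Ne.symm hvv)
  have h1 := h v (((‖v‖ / ‖x v‖ : ℝ) : ℂ) • x v)
  rw [inner_smul_right, norm_mul, norm_smul, Complex.norm_real, Real.norm_eq_abs,
    abs_of_pos (by positivity), div_mul_cancel₀ _ hv] at h1
  have h2 : ‖⟪x v, x v⟫_ℂ‖ = ‖x v‖ ^ 2 := by
    rw [inner_self_eq_norm_sq_to_K]; simp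
  rw [h2] at h1
  have h3 : ‖v‖ / ‖x v‖ * ‖x v‖ ^ 2 = ‖v‖ * ‖x v‖ := by
    field_simp
  rw [h3] at h1
  have h4 : ‖v‖ * ‖x v‖ ≤ ‖v‖ * (B * ‖v‖) := by
    calc ‖v‖ * ‖x v‖ ≤ B / 2 * (‖v‖ ^ 2 + ‖v‖ ^ 2) := h1
      _ = ‖v‖ * (B * ‖v‖) := by ring
  exact le_of_mul_le_mul_left h4 hvv0

/-- the data produced by `exists_family` -/
structure Fam (M : VonNeumannAlgebra H) (A : StarSubalgebra ℂ (H →L[ℂ] H)) (e : H →L[ℂ] H)
    (N : ℕ) (κ : ℝ) (q : H →L[ℂ] H) (w : Finset ℕ → H →L[ℂ] H) : Prop where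
  qM : q ∈ M
  qp : IsStarProjection q
  qe : q * e = q
  q0 : q ≠ 0
  wA : ∀ T, w T ∈ A
  wsa : ∀ T, IsSelfAdjoint (w T)
  we : w ∅ = e
  ww : ∀ T T', w T * w T' = w (T ∆ T')
  wκ : ∀ T ⊆ Finset.range N, T ≠ ∅ → ‖q * w T * q‖ ≤ κ

/-- the test operator -/
noncomputable def xx (m : ℕ) (q : H →L[ℂ] H) (w : Finset ℕ → H →L[ℂ] H) : H →L[ℂ] H :=
  ∑ j ∈ Finset.range (2 * m), (sg m j : ℂ) • (w {j} * q * w {j})

theorem Fam.facts (hA : IsMASA M A) (he : IsStarProjection e) {m : ℕ} {κ : ℝ} (hκ0 : 0 < κ)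
    {q : H →L[ℂ] H} {w : Finset ℕ → H →L[ℂ] H} (hF : Fam M A e (2 * m) κ q w)
    {n B : ℝ} (hn : n = (((Finset.range (2 * m)).powerset).card : ℝ)) (hB : B = 1 + n ^ 2 * κ) :
    (∀ T, w T * w T = e) ∧ (∀ T, ‖w T‖ ≤ 1) ∧
    (∀ T, IsStarProjection (w T * q * w T)) ∧
    (∀ T v, ‖(w T * q * w T) v‖ ^ 2 = ‖q (w T v)‖ ^ 2) ∧
    (∀ v, ∑ T ∈ (Finset.range (2 * m)).powerset, ‖q (w T v)‖ ^ 2 ≤ B * ‖v‖ ^ 2) ∧
    xx m q w ∈ M ∧ IsSelfAdjoint (xx m q w) ∧ e * xx m q w * e = xx m q w ∧ ‖xx m q w‖ ≤ B := by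
  classical
  obtain ⟨hqM, hq, hqe, hq0, hwA, hwsa, hwe, hww, hwκ⟩ := hF
  set N := 2 * m with hN
  have hB0 : 0 ≤ B := by rw [hB]; positivity
  have hee : e * e = e := he.isIdempotentElem
  have hqq : q * q = q := hq.isIdempotentElem
  have heq : e * q = q := by
    have := congrArg star hqe
    rwa [star_mul, hq.isSelfAdjoint.star_eq, he.isSelfAdjoint.star_eq] at this
  have hwe1 : ∀ T, w T * e = w T := fun T => by
    rw [← hwe, hww, ← Finset.bot_eq_empty, symmDiff_bot]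
  have hwe2 : ∀ T, e * w T = w T := fun T => by
    rw [← hwe, hww, ← Finset.bot_eq_empty, bot_symmDiff]
  have hwsq : ∀ T, w T * w T = e := fun T => by
    rw [hww, symmDiff_self, Finset.bot_eq_empty, hwe]
  set Q : Finset ℕ → H →L[ℂ] H := fun T => w T * q * w T with hQ
  have hQp : ∀ T, IsStarProjection (Q T) := by
    intro T
    refine ⟨?_, conj_sa (hwsa T) hq.isSelfAdjoint⟩
    show w T * q * w T * (w T * q * w T) = w T * q * w T
    calc w T * q * w T * (w T * q * w T) = w T * q * (w T * w T) * q * w T := by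
          simp only [mul_assoc]
      _ = w T * (q * e * q) * w T := by rw [hwsq]; simp only [mul_assoc]
      _ = _ := by rw [hqe, hqq]
  have hwn : ∀ T, ‖w T‖ ≤ 1 := by
    intro T
    apply ContinuousLinearMap.opNorm_le_bound _ zero_le_one
    intro v
    apply le_of_sq_le_sq _ (by positivity)
    rw [← inner_self_sq (hwsa T), hwsq, one_mul, ← proj_norm_sq he]
    have := proj_norm_le he v
    gcongr
  have hQo : ∀ S ∈ (Finset.range N).powerset, ∀ T ∈ (Finset.range N).powerset, S ≠ T →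
      ‖Q S * Q T‖ ≤ κ := by
    intro S hS T hT hST
    rw [Finset.mem_powerset] at hS hT
    have h1 : Q S * Q T = w S * (q * w (S ∆ T) * q) * w T := by
      show w S * q * w S * (w T * q * w T) = _
      rw [← hww]
      simp only [mul_assoc]
    have h2 : ‖q * w (S ∆ T) * q‖ ≤ κ := by
      apply hwκ
      · intro j hj
        rw [Finset.mem_symmDiff] at hj
        rcases hj with h | h
        · exact hS h.1
        · exact hT h.1
      · intro h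
        apply hST
        rw [← Finset.bot_eq_empty] at h
        exact symmDiff_eq_bot.mp h
    rw [h1]
    calc ‖w S * (q * w (S ∆ T) * q) * w T‖ ≤ ‖w S‖ * ‖q * w (S ∆ T) * q‖ * ‖w T‖ :=
          (norm_mul_le _ _).trans (by gcongr; exact norm_mul_le _ _)
      _ ≤ 1 * κ * 1 := by
          have := hwn S
          have := hwn T
          gcongr
      _ = κ := by ring
  have hQs : ∀ v, ∑ T ∈ (Finset.range N).powerset, ‖Q T v‖ ^ 2 ≤ B * ‖v‖ ^ 2 := fun v =>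
    by rw [hB, hn]; exact almost_orth _ Q hQp hκ0.le hQo v
  have hQv : ∀ T v, ‖Q T v‖ ^ 2 = ‖q (w T v)‖ ^ 2 := by
    intro T v
    rw [proj_norm_sq (hQp T), proj_norm_sq hq]
    show (⟪w T (q (w T v)), v⟫_ℂ).re = _
    rw [sa_inner (hwsa T)]
  set σ : ℕ → ℝ := sg m with hσ
  have hσ1 : ∀ j, |σ j| = 1 := by
    intro j
    rcases sg_eq m j with h | h <;> rw [hσ, h] <;> simp
  set x : H →L[ℂ] H := xx m q w with hx'
  have hx : x = ∑ j ∈ Finset.range N, (σ j : ℂ) • Q {j} := rfl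
  have hxM : x ∈ M := by
    rw [hx]
    refine sum_mem (fun j _ => M.toStarSubalgebra.smul_mem ?_ _)
    exact mul_mem (mul_mem (hA.subset _ (hwA _)) hqM) (hA.subset _ (hwA _))
  have hxs : IsSelfAdjoint x := by
    rw [hx]
    apply isSelfAdjoint_sum
    intro j _
    rw [IsSelfAdjoint, star_smul, (hQp {j}).isSelfAdjoint.star_eq]
    simp
  have hxe : e * x * e = x := by
    rw [hx, Finset.mul_sum, Finset.sum_mul]
    refine Finset.sum_congr rfl (fun j _ => ?_)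
    rw [mul_smul_comm, smul_mul_assoc]
    congr 1
    show e * (w {j} * q * w {j}) * e = w {j} * q * w {j}
    rw [← mul_assoc, ← mul_assoc, hwe2, mul_assoc _ _ e, hwe1]
  have hsingle : ∀ v, ∑ j ∈ Finset.range N, ‖Q {j} v‖ ^ 2 ≤ B * ‖v‖ ^ 2 := by
    intro v
    refine le_trans ?_ (hQs v)
    rw [← Finset.sum_image (f := fun T => ‖Q T v‖ ^ 2) (g := fun j : ℕ => ({j} : Finset ℕ))]
    · apply Finset.sum_le_sum_of_subset_of_nonneg
      · intro T hT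
        rw [Finset.mem_image] at hT
        obtain ⟨j, hj, rfl⟩ := hT
        rw [Finset.mem_powerset, Finset.singleton_subset_iff]
        exact hj
      · intro T _ _; positivity
    · intro j _ k _ hjk
      exact Finset.singleton_injective hjk
  have hxn : ‖x‖ ≤ B := by
    apply opNorm_le_of_inner hB0
    intro v z
    have h1 : ⟪x v, z⟫_ℂ = ∑ j ∈ Finset.range N, (σ j : ℂ) * ⟪Q {j} v, Q {j} z⟫_ℂ := by
      rw [hx, sum_apply, sum_inner]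
      refine Finset.sum_congr rfl (fun j _ => ?_)
      rw [smul_apply, inner_smul_left, Complex.conj_ofReal, proj_apply_inner (hQp {j})]
    rw [h1]
    calc ‖∑ j ∈ Finset.range N, (σ j : ℂ) * ⟪Q {j} v, Q {j} z⟫_ℂ‖
        ≤ ∑ j ∈ Finset.range N, ‖(σ j : ℂ) * ⟪Q {j} v, Q {j} z⟫_ℂ‖ := norm_sum_le _ _
      _ ≤ ∑ j ∈ Finset.range N, 1 / 2 * (‖Q {j} v‖ ^ 2 + ‖Q {j} z‖ ^ 2) := by
          refine Finset.sum_le_sum (fun j _ => ?_)
          rw [norm_mul, Complex.norm_real, Real.norm_eq_abs, hσ1, one_mul]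
          refine (norm_inner_le_norm _ _).trans ?_
          nlinarith [sq_nonneg (‖Q {j} v‖ - ‖Q {j} z‖)]
      _ = 1 / 2 * (∑ j ∈ Finset.range N, ‖Q {j} v‖ ^ 2 + ∑ j ∈ Finset.range N, ‖Q {j} z‖ ^ 2) := by
          rw [← Finset.mul_sum, Finset.sum_add_distrib]
      _ ≤ 1 / 2 * (B * ‖v‖ ^ 2 + B * ‖z‖ ^ 2) := by
          have := hsingle v
          have := hsingle z
          gcongr
      _ = B / 2 * (‖v‖ ^ 2 + ‖z‖ ^ 2) := by ring
  refine ⟨hwsq, hwn, hQp, hQv, ?_, hxM, hxs, hxe, hxn⟩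
  intro v
  refine le_trans (le_of_eq ?_) (hQs v)
  exact Finset.sum_congr rfl (fun T _ => (hQv T v).symm)

theorem Fam.test (hA : IsMASA M A) (heA : e ∈ A) (he : IsStarProjection e)
    {m : ℕ} {κ : ℝ} (hκ0 : 0 < κ)
    {q : H →L[ℂ] H} {w : Finset ℕ → H →L[ℂ] H} (hF : Fam M A e (2 * m) κ q w)
    {n B : ℝ} (hn : n = (((Finset.range (2 * m)).powerset).card : ℝ)) (hB : B = 1 + n ^ 2 * κ)
    {r : ℕ} (hr0 : (0 : ℝ) < r) {ε : ℝ} (hε0 : 0 < ε) {γ : ℝ} (hγ0 : 0 < γ)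
    (hpav : SoPavableOn M A e (xx m q w) ε r) :
    ((2 * m : ℕ) : ℝ) * (r : ℝ)⁻¹ - 2 * B ≤ ((2 * m : ℕ) : ℝ) * (ε * B + γ / 16 * B) := by
  classical
  obtain ⟨hwsq, hwn, hQp, hQv, hQs, hxM, hxs, hxe, hxn⟩ := hF.facts hA he hκ0 hn hB
  obtain ⟨hqM, hq, hqe, hq0, hwA, hwsa, hwe, hww, hwκ⟩ := hF
  set N := 2 * m with hN
  have hB0 : 0 ≤ B := by rw [hB]; positivity
  have hqq : q * q = q := hq.isIdempotentElem
  have heq : e * q = q := by
    have := congrArg star hqe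
    rwa [star_mul, hq.isSelfAdjoint.star_eq, he.isSelfAdjoint.star_eq] at this
  have hwe2 : ∀ T, e * w T = w T := fun T => by
    rw [← hwe, hww, ← Finset.bot_eq_empty, bot_symmDiff]
  set σ : ℕ → ℝ := sg m with hσ
  have hσ1 : ∀ j, |σ j| = 1 := by
    intro j
    rcases sg_eq m j with h | h <;> rw [hσ, h] <;> simp
  set x : H →L[ℂ] H := xx m q w with hx'
  have hx : x = ∑ j ∈ Finset.range N, (σ j : ℂ) • (w {j} * q * w {j}) := rfl
  obtain ⟨v0, hv0⟩ : ∃ v, q v ≠ 0 := by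
    by_contra h
    push Not at h
    exact hq0 (by ext v; simpa using h v)
  set ζ : H := ((‖q v0‖⁻¹ : ℝ) : ℂ) • q v0 with hζ
  have hqv0 : 0 < ‖q v0‖ := norm_pos_iff.mpr hv0
  have hζ1 : ‖ζ‖ = 1 := by
    rw [hζ, norm_smul, Complex.norm_real, Real.norm_eq_abs, abs_of_pos (by positivity)]
    exact inv_mul_cancel₀ hqv0.ne'
  have hqζ : q ζ = ζ := by
    rw [hζ, map_smul]
    congr 1
    exact congrArg (fun S : H →L[ℂ] H => S v0) hqq
  have heζ : e ζ = ζ := by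
    conv_lhs => rw [← hqζ]
    have : e (q ζ) = q ζ := congrArg (fun S : H →L[ℂ] H => S ζ) heq
    rw [this, hqζ]
  obtain ⟨p, a, q', hp, haA, has, hae, han, hq'M, hq', hq'e, hq'F, hpn⟩ :=
    hpav ((Finset.range N).image (fun j => w {j} ζ)) (γ / 64) (by positivity)
  set y := pinching p x - a with hy
  have hSn : ‖pinching p x‖ ≤ ‖x‖ := hp.pinching_norm_le he x
  have hyn : ‖y‖ ≤ 2 * B := by
    calc ‖y‖ ≤ ‖pinching p x‖ + ‖a‖ := norm_sub_le _ _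
      _ ≤ 2 * B := by linarith
  have hvn : ∀ j, ‖w {j} ζ‖ ≤ 1 := by
    intro j
    calc ‖w {j} ζ‖ ≤ ‖w {j}‖ * ‖ζ‖ := ContinuousLinearMap.le_opNorm _ _
      _ ≤ 1 * 1 := by rw [hζ1]; gcongr; exact hwn _
      _ = 1 := one_mul 1
  have hup : ∀ j ∈ Finset.range N, σ j * (⟪y (w {j} ζ), w {j} ζ⟫_ℂ).re ≤ ε * B + γ / 16 * B := by
    intro j hj
    set v := w {j} ζ with hv
    have hvq : ‖v - q' v‖ ≤ γ / 64 := by
      have h1 := hq'F v (Finset.mem_image_of_mem _ hj)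
      have h2 : (e - q') v = v - q' v := by
        rw [sub_apply]
        congr 1
        exact congrArg (fun S : H →L[ℂ] H => S ζ) (hwe2 {j})
      rw [h2] at h1
      exact h1.le
    have hv1 : ‖v‖ ≤ 1 := hvn j
    have hq'v1 : ‖q' v‖ ≤ 1 := (proj_norm_le hq' v).trans hv1
    have hq'sa := hq'.isSelfAdjoint
    have e1 : ⟪y v, v⟫_ℂ = ⟪(q' * y * q') v, v⟫_ℂ + ⟪y (v - q' v), q' v⟫_ℂ +
        ⟪y v, v - q' v⟫_ℂ := by
      have h3 : ⟪(q' * y * q') v, v⟫_ℂ = ⟪y (q' v), q' v⟫_ℂ := by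
        rw [mul_apply', mul_apply', sa_inner hq'sa]
      rw [h3, map_sub, inner_sub_left, inner_sub_right]
      ring
    have h4 : ‖⟪(q' * y * q') v, v⟫_ℂ‖ ≤ ε * B := by
      calc _ ≤ ‖(q' * y * q') v‖ * ‖v‖ := norm_inner_le_norm _ _
        _ ≤ ((ε * ‖x‖) * ‖v‖) * ‖v‖ := by
            gcongr
            exact ContinuousLinearMap.le_of_opNorm_le _ hpn v
        _ ≤ ((ε * B) * 1) * 1 := by gcongr
        _ = ε * B := by ring
    have h5 : ‖⟪y (v - q' v), q' v⟫_ℂ‖ ≤ 2 * B * (γ / 64) := by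
      calc _ ≤ ‖y (v - q' v)‖ * ‖q' v‖ := norm_inner_le_norm _ _
        _ ≤ (2 * B * (γ / 64)) * 1 := by
            gcongr
            refine (ContinuousLinearMap.le_opNorm _ _).trans ?_
            gcongr
        _ = _ := mul_one _
    have h6 : ‖⟪y v, v - q' v⟫_ℂ‖ ≤ 2 * B * (γ / 64) := by
      calc _ ≤ ‖y v‖ * ‖v - q' v‖ := norm_inner_le_norm _ _
        _ ≤ (2 * B * 1) * (γ / 64) := by
            gcongr
            refine (ContinuousLinearMap.le_opNorm _ _).trans ?_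
            gcongr
        _ = _ := by ring
    calc σ j * (⟪y v, v⟫_ℂ).re ≤ |σ j * (⟪y v, v⟫_ℂ).re| := le_abs_self _
      _ = |(⟪y v, v⟫_ℂ).re| := by rw [abs_mul, hσ1, one_mul]
      _ ≤ ‖⟪y v, v⟫_ℂ‖ := Complex.abs_re_le_norm _
      _ ≤ ‖⟪(q' * y * q') v, v⟫_ℂ‖ + ‖⟪y (v - q' v), q' v⟫_ℂ‖ + ‖⟪y v, v - q' v⟫_ℂ‖ := by
          rw [e1]
          exact norm_add₃_le
      _ ≤ ε * B + 2 * B * (γ / 64) + 2 * B * (γ / 64) := by linarith
      _ = _ := by ring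
  have hUP : ∑ j ∈ Finset.range N, σ j * (⟪y (w {j} ζ), w {j} ζ⟫_ℂ).re ≤
      N * (ε * B + γ / 16 * B) := by
    calc _ ≤ ∑ j ∈ Finset.range N, (ε * B + γ / 16 * B) := Finset.sum_le_sum hup
      _ = _ := by rw [Finset.sum_const, Finset.card_range, nsmul_eq_mul]
  have ha0 : ∀ j, ⟪a (w {j} ζ), w {j} ζ⟫_ℂ = ⟪a ζ, ζ⟫_ℂ := by
    intro j
    rw [← sa_inner (hwsa {j})]
    have : w {j} * (a * w {j}) = a := by
      rw [hA.comm a haA _ (hwA {j}), ← mul_assoc, hwsq, hA.comm e heA a haA, hae]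
    have h2 : w {j} (a (w {j} ζ)) = a ζ := congrArg (fun S : H →L[ℂ] H => S ζ) this
    rw [h2]
  set g : Fin r → Finset ℕ → ℝ := fun i T => ‖q (w T (p i ζ))‖ ^ 2 with hg
  have hS : ∀ j, (⟪pinching p x (w {j} ζ), w {j} ζ⟫_ℂ).re =
      ∑ i, ∑ k ∈ Finset.range N, σ k * g i ({k} ∆ {j}) := by
    intro j
    have h1 : ⟪pinching p x (w {j} ζ), w {j} ζ⟫_ℂ =
        ∑ i, ⟪x (w {j} (p i ζ)), w {j} (p i ζ)⟫_ℂ := by
      rw [pinching, sum_apply, sum_inner]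
      refine Finset.sum_congr rfl (fun i _ => ?_)
      rw [mul_apply', mul_apply', sa_inner (hp.proj i).isSelfAdjoint]
      have : p i (w {j} ζ) = w {j} (p i ζ) :=
        congrArg (fun S : H →L[ℂ] H => S ζ) (hA.comm _ (hp.mem i) _ (hwA {j}))
      rw [this]
    rw [h1, Complex.re_sum]
    refine Finset.sum_congr rfl (fun i _ => ?_)
    rw [hx, sum_apply, sum_inner, Complex.re_sum]
    refine Finset.sum_congr rfl (fun k _ => ?_)
    rw [smul_apply, inner_smul_left, Complex.conj_ofReal, Complex.re_ofReal_mul,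
      ← proj_norm_sq (hQp {k}), hQv]
    have h9 : w {k} (w {j} (p i ζ)) = w ({k} ∆ {j}) (p i ζ) :=
      congrArg (fun S : H →L[ℂ] H => S (p i ζ)) (hww {k} {j})
    rw [h9]
  have hLOW : ∑ j ∈ Finset.range N, σ j * (⟪y (w {j} ζ), w {j} ζ⟫_ℂ).re =
      ∑ i, ∑ j ∈ Finset.range N, ∑ k ∈ Finset.range N, σ j * σ k * g i ({k} ∆ {j}) := by
    have h1 : ∀ j, σ j * (⟪y (w {j} ζ), w {j} ζ⟫_ℂ).re =
        ∑ i, (∑ k ∈ Finset.range N, σ j * σ k * g i ({k} ∆ {j})) -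
          σ j * (⟪a ζ, ζ⟫_ℂ).re := by
      intro j
      rw [hy, sub_apply, inner_sub_left, Complex.sub_re, hS, ha0, mul_sub, Finset.mul_sum]
      congr 1
      refine Finset.sum_congr rfl (fun i _ => ?_)
      rw [Finset.mul_sum]
      refine Finset.sum_congr rfl (fun k _ => ?_)
      ring
    simp_rw [h1]
    rw [Finset.sum_sub_distrib, ← Finset.sum_mul, hσ, hN, sg_sum, zero_mul, sub_zero,
      Finset.sum_comm]
  have hcomb : ∀ i, N * g i ∅ - 2 * ∑ T ∈ (Finset.range N).powerset, g i T ≤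
      ∑ j ∈ Finset.range N, ∑ k ∈ Finset.range N, σ j * σ k * g i ({k} ∆ {j}) := fun i =>
    comb_ineq N (g i) (fun T => by positivity) σ (sg_eq m)
  have hgs : ∀ i, ∑ T ∈ (Finset.range N).powerset, g i T ≤ B * ‖p i ζ‖ ^ 2 := by
    intro i
    exact hQs (p i ζ)
  have hpζ : ∑ i, ‖p i ζ‖ ^ 2 = 1 := by
    rw [hp.norm_sq he, heζ, hζ1]; norm_num
  have hg0 : ∀ i, (‖p i ζ‖ ^ 2) ^ 2 ≤ g i ∅ := by
    intro i
    show _ ≤ ‖q (w ∅ (p i ζ))‖ ^ 2
    have h1 : w ∅ (p i ζ) = p i ζ := by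
      rw [hwe]
      exact congrArg (fun S : H →L[ℂ] H => S ζ) (hp.mul_eq i).1
    rw [h1]
    have h2 : ‖p i ζ‖ ^ 2 ≤ ‖q (p i ζ)‖ := by
      rw [proj_norm_sq (hp.proj i)]
      calc (⟪p i ζ, ζ⟫_ℂ).re = (⟪p i ζ, q ζ⟫_ℂ).re := by rw [hqζ]
        _ = (⟪q (p i ζ), ζ⟫_ℂ).re := by rw [sa_inner hq.isSelfAdjoint]
        _ ≤ ‖q (p i ζ)‖ * ‖ζ‖ := (Complex.re_le_norm _).trans (norm_inner_le_norm _ _)
        _ = _ := by rw [hζ1, mul_one]
    gcongr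
  have hCS : (r : ℝ)⁻¹ ≤ ∑ i, (‖p i ζ‖ ^ 2) ^ 2 := by
    have h1 := sq_sum_le_card_mul_sum_sq (s := (Finset.univ : Finset (Fin r)))
      (f := fun i => ‖p i ζ‖ ^ 2)
    rw [hpζ, Finset.card_univ, Fintype.card_fin] at h1
    rw [inv_le_iff_one_le_mul₀' hr0]
    simpa using h1
  refine le_trans ?_ hUP
  rw [hLOW]
  calc (N : ℝ) * (r : ℝ)⁻¹ - 2 * B ≤ N * ∑ i, g i ∅ - 2 * ∑ i, (B * ‖p i ζ‖ ^ 2) := by
        rw [← Finset.mul_sum, hpζ, mul_one]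
        have : (r : ℝ)⁻¹ ≤ ∑ i, g i ∅ := hCS.trans (Finset.sum_le_sum (fun i _ => hg0 i))
        gcongr
    _ = ∑ i, (N * g i ∅ - 2 * (B * ‖p i ζ‖ ^ 2)) := by
        rw [Finset.sum_sub_distrib, Finset.mul_sum, Finset.mul_sum]
    _ ≤ ∑ i, ∑ j ∈ Finset.range N, ∑ k ∈ Finset.range N, σ j * σ k * g i ({k} ∆ {j}) := by
        refine Finset.sum_le_sum (fun i _ => ?_)
        have h1 := hcomb i
        have h2 := hgs i
        linarith

theorem numeric_final {r m : ℕ} {ε γ t : ℝ} (hr1 : (1 : ℝ) ≤ r) (hε0 : 0 < ε) (hε1 : ε < 1)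
    (hγ : γ = (r : ℝ)⁻¹ - ε) (hγ0 : 0 < γ) (hm0 : (0 : ℝ) < m) (hmγ : 2 / (m : ℝ) < γ / 8)
    (ht0 : 0 ≤ t) (ht1 : t ≤ 1) (ht2 : t ≤ γ / 8)
    (hfin : ((2 * m : ℕ) : ℝ) * (r : ℝ)⁻¹ - 2 * (1 + t) ≤
      ((2 * m : ℕ) : ℝ) * (ε * (1 + t) + γ / 16 * (1 + t))) : False := by
  push_cast at hfin
  have h1 : (r : ℝ)⁻¹ ≤ ε * (1 + t) + γ / 16 * (1 + t) + (1 + t) / m := by
    have h2 : (2 * m : ℝ) * (r : ℝ)⁻¹ ≤ 2 * m * (ε * (1 + t) + γ / 16 * (1 + t) + (1 + t) / m) := by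
      have h3 : 2 * m * (ε * (1 + t) + γ / 16 * (1 + t) + (1 + t) / m) =
          2 * m * (ε * (1 + t) + γ / 16 * (1 + t)) + 2 * (1 + t) := by
        field_simp
      rw [h3]; linarith
    exact le_of_mul_le_mul_left h2 (by positivity)
  have h2 : (1 + t) / m ≤ 2 / m := by gcongr; linarith
  have h3 : ε * (1 + t) ≤ ε + γ / 8 := by nlinarith
  have h4 : γ / 16 * (1 + t) ≤ γ / 16 * 2 := by
    apply mul_le_mul_of_nonneg_left _ (by positivity)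
    linarith
  linarith

theorem not_soPavableOn (hA : IsMASA M A) (heA : e ∈ A) (he : IsStarProjection e) (he0 : e ≠ 0)
    (hinf : Infinitesimal M A e) (r : ℕ) (hr : 1 ≤ r) (ε : ℝ) (hε0 : 0 < ε)
    (hε : r * ε < 1) :
    ∃ x ∈ M, IsSelfAdjoint x ∧ e * x * e = x ∧ ¬ SoPavableOn M A e x ε r := by
  classical
  have hr0 : (0 : ℝ) < r := by exact_mod_cast hr
  have hr1 : (1 : ℝ) ≤ r := by exact_mod_cast hr
  obtain ⟨γ, hγ⟩ : ∃ γ : ℝ, γ = (r : ℝ)⁻¹ - ε := ⟨_, rfl⟩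
  have hγ0 : 0 < γ := by
    rw [hγ, sub_pos, lt_inv_comm₀ hε0 hr0]
    rw [inv_eq_one_div, lt_div_iff₀ hε0]
    exact hε
  have hrinv : (r : ℝ)⁻¹ ≤ 1 := inv_le_one_of_one_le₀ hr1
  have hε1 : ε < 1 := by linarith
  obtain ⟨m, hm⟩ := exists_nat_gt (16 / γ)
  have hm0 : (0 : ℝ) < m := lt_trans (by positivity) hm
  have hmγ : 2 / (m : ℝ) < γ / 8 := by
    rw [div_lt_iff₀ hm0]
    rw [div_lt_iff₀ hγ0] at hm
    linarith
  obtain ⟨n, hn⟩ : ∃ n : ℝ, n = (((Finset.range (2 * m)).powerset).card : ℝ) := ⟨_, rfl⟩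
  have hn1 : 1 ≤ n := by
    rw [hn, Finset.card_powerset]
    exact_mod_cast Nat.one_le_two_pow
  obtain ⟨κ, hκ0, hκ1, hκ2⟩ : ∃ κ : ℝ, 0 < κ ∧ n ^ 2 * κ ≤ 1 ∧ n ^ 2 * κ ≤ γ / 8 := by
    refine ⟨min 1 (γ / 8) / n ^ 2, by positivity, ?_, ?_⟩
    · rw [mul_div_cancel₀ _ (by positivity)]
      exact min_le_left _ _
    · rw [mul_div_cancel₀ _ (by positivity)]
      exact min_le_right _ _
  obtain ⟨q, w, hqM, hq, hqe, hq0, hwA, hwsa, hwe, hww, hwκ⟩ :=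
    exists_family hA he he0 hinf (2 * m) κ hκ0
  have hF : Fam M A e (2 * m) κ q w := ⟨hqM, hq, hqe, hq0, hwA, hwsa, hwe, hww, hwκ⟩
  obtain ⟨-, -, -, -, -, hxM, hxs, hxe, -⟩ := hF.facts hA he hκ0 hn rfl
  refine ⟨xx m q w, hxM, hxs, hxe, fun hpav => ?_⟩
  have hfin := hF.test hA heA he hκ0 hn rfl hr0 hε0 hγ0 hpav
  exact numeric_final hr1 hε0 hε1 hγ hγ0 hm0 hmγ (by positivity) hκ1 hκ2 hfin

end Vale.Agent.P078
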