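import Vale.Agent.P078.Corner

open scoped InnerProductSpace Topology ComplexOrder

namespace Vale.Agent.P078

universe u

variable {H : Type u} [NormedAddCommGroup H] [InnerProductSpace ℂ H] [CompleteSpace H]
variable {A : StarSubalgebra ℂ (H →L[ℂ] H)} {M : VonNeumannAlgebra H} {e f : H →L[ℂ] H}

theorem soPavableOn_one_iff {x : H →L[ℂ] H} {ε : ℝ} {r : ℕ} :
    SoPavableOn M A 1 x ε r ↔ SoPavable M A x ε r := by
  constructor
  · exact SoPavableOn.soPavable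
  · intro h F δ hδ
    obtain ⟨p, a, q, h1, h2, h3, h4, h5, h6, h7, h8⟩ := h F δ hδ
    exact ⟨p, a, q, h1, h2, h3, mul_one a, h4, h5, h6, mul_one q, h7, h8⟩

theorem cornerPavingNumber_one (ε : ℝ) :
    cornerPavingNumber M A 1 ε = pavingNumber M A ε := by
  apply le_antisymm
  · refine le_iInf₂ (fun r hr => iInf₂_le r ⟨hr.1, fun x hx hxs _ => ?_⟩)
    exact soPavableOn_one_iff.mpr (hr.2 x hx hxs)
  · refine le_iInf₂ (fun r hr => iInf₂_le r ⟨hr.1, fun x hx hxs => ?_⟩)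
    exact soPavableOn_one_iff.mp (hr.2 x hx hxs (by simp))

theorem ceil_le_of_forall {ε : ℝ} (hε : 0 < ε) {N : ℕ∞}
    (h : ∀ ε', ε < ε' → (⌈1 / ε'⌉₊ : ℕ∞) ≤ N) : (⌈1 / ε⌉₊ : ℕ∞) ≤ N := by
  obtain ⟨k, hk⟩ : ∃ k, ⌈1 / ε⌉₊ = k + 1 :=
    Nat.exists_eq_succ_of_ne_zero (by
      have : 0 < ⌈1 / ε⌉₊ := Nat.ceil_pos.mpr (by positivity)
      omega)
  have h1 : (k : ℝ) < 1 / ε := by
    have := Nat.lt_ceil.mp (show k < ⌈1 / ε⌉₊ by omega)
    exact this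
  obtain ⟨ε', hε1, hε2⟩ : ∃ ε', ε < ε' ∧ (k : ℝ) < 1 / ε' := by
    rcases Nat.eq_zero_or_pos k with h0 | h0
    · refine ⟨ε + 1, by linarith, ?_⟩
      rw [h0]; push_cast; positivity
    · have hk0 : (0 : ℝ) < k := by exact_mod_cast h0
      have h2 : ε < 1 / k := by
        rw [lt_div_iff₀ hε] at h1
        rw [lt_div_iff₀ hk0]
        linarith
      obtain ⟨ε', h3, h4⟩ := exists_between h2
      refine ⟨ε', h3, ?_⟩
      rw [lt_div_iff₀ hk0] at h4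
      rw [lt_div_iff₀ (hε.trans h3)]
      linarith
  refine le_trans ?_ (h ε' hε1)
  rw [hk, Nat.cast_le]
  exact Nat.lt_ceil.mpr hε2

theorem exists_expected_part (hA : IsMASA M A) :
    ∃ z ∈ A, IsStarProjection z ∧ (∀ ψ, IsCentralised M A ψ → ψ (1 - z) = 0) ∧
      (∀ g ∈ A, IsStarProjection g → z * g = g → g ≠ 0 →
        ∃ ψ, IsCentralised M A ψ ∧ ψ g ≠ 0) ∧
      Infinitesimal M A (1 - z) := by
  obtain ⟨T, ⟨hTA, hTp, hTn⟩, hTmax⟩ := exists_max_null hA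
  have h1T : 1 - (1 - T) = T := by abel
  refine ⟨1 - T, sub_mem (one_mem A) hTA, hTp.one_sub, ?_, ?_, ?_⟩
  · rw [h1T]; exact hTn
  · intro g hgA hgp hzg hg0
    by_contra hc
    push Not at hc
    have h1 := hTmax g ⟨hgA, hgp, hc⟩
    rw [sub_mul, one_mul, h1, sub_self] at hzg
    exact hg0 hzg.symm
  · rw [h1T]
    exact infinitesimal_of_noCentralised hA hTA hTp hTn

end Vale.Agent.P078
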