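import Vale.Agent.P078.HahnBanach

open scoped InnerProductSpace Topology ComplexOrder
open Filter

namespace Vale.Agent.P078

universe u

variable {H : Type u} [NormedAddCommGroup H] [InnerProductSpace ℂ H] [CompleteSpace H]
variable {A : StarSubalgebra ℂ (H →L[ℂ] H)} {e : H →L[ℂ] H}

theorem sa_inner {x : H →L[ℂ] H} (hx : IsSelfAdjoint x) (u v : H) :
    ⟪x u, v⟫_ℂ = ⟪u, x v⟫_ℂ := by
  calc ⟪x u, v⟫_ℂ = ⟪u, (ContinuousLinearMap.adjoint x) v⟫_ℂ :=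
        (ContinuousLinearMap.adjoint_inner_right x _ _).symm
    _ = _ := by rw [← ContinuousLinearMap.star_eq_adjoint, hx.star_eq]

theorem norm_sq_re_inner (v : H) : (⟪v, v⟫_ℂ).re = ‖v‖ ^ 2 := by
  rw [← inner_self_eq_norm_sq (𝕜 := ℂ)]; rfl

theorem real_smul_apply (c : ℝ) (z : H →L[ℂ] H) (v : H) : (c • z) v = (c : ℂ) • z v := by
  rw [← Complex.coe_smul]; rfl

theorem re_real_smul_inner (c : ℝ) (z : H →L[ℂ] H) (v : H) :
    (⟪(c • z) v, v⟫_ℂ).re = c * (⟪z v, v⟫_ℂ).re := by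
  rw [real_smul_apply, inner_smul_left, Complex.conj_ofReal, Complex.re_ofReal_mul]

theorem key_ineq {g c x : H →L[ℂ] H} (hg : IsStarProjection g) (hc : IsStarProjection c)
    (hgc : g * c = g) (hx : IsSelfAdjoint x) {t : ℝ} (ht : 0 < t) :
    c * x * c - g * x * g ≤ ‖x‖ • ((1 + t⁻¹) • (c - g) + t • (1 : H →L[ℂ] H)) := by
  have hcg : c * g = g := by
    have := congrArg star hgc
    rwa [star_mul, hc.isSelfAdjoint.star_eq, hg.isSelfAdjoint.star_eq] at this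
  have hk : IsStarProjection (c - g) := hg.sub_of_mul_eq_left hc hgc
  have hL : IsSelfAdjoint (c * x * c - g * x * g) := by
    apply IsSelfAdjoint.sub
    · rw [IsSelfAdjoint, star_mul, star_mul, hc.isSelfAdjoint.star_eq, hx.star_eq, mul_assoc]
    · rw [IsSelfAdjoint, star_mul, star_mul, hg.isSelfAdjoint.star_eq, hx.star_eq, mul_assoc]
  have hR : IsSelfAdjoint (‖x‖ • ((1 + t⁻¹) • (c - g) + t • (1 : H →L[ℂ] H))) := by
    apply isSelfAdjoint_real_smul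
    exact (isSelfAdjoint_real_smul _ hk.isSelfAdjoint).add (isSelfAdjoint_smul_one t)
  rw [le_iff_re hL hR]
  intro v
  set a := g v with ha
  set w := (c - g) v with hw
  have hcv : c v = a + w := by rw [hw, sub_apply, ha]; abel
  have e1 : (⟪(c * x * c - g * x * g) v, v⟫_ℂ).re =
      (⟪x w, w⟫_ℂ).re + 2 * (⟪x a, w⟫_ℂ).re := by
    have h1 : ⟪(c * x * c - g * x * g) v, v⟫_ℂ = ⟪x (c v), c v⟫_ℂ - ⟪x a, a⟫_ℂ := by
      rw [sub_apply, inner_sub_left, mul_apply', mul_apply', mul_apply', mul_apply',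
        sa_inner hc.isSelfAdjoint, sa_inner hg.isSelfAdjoint]
    rw [h1, hcv, map_add, inner_add_left, inner_add_right, inner_add_right]
    have h2 : (⟪x w, a⟫_ℂ).re = (⟪x a, w⟫_ℂ).re := by
      rw [sa_inner hx, ← inner_conj_symm, Complex.conj_re]
    rw [Complex.sub_re, Complex.add_re, Complex.add_re, Complex.add_re, h2]
    ring
  have e2 : (⟪(‖x‖ • ((1 + t⁻¹) • (c - g) + t • (1 : H →L[ℂ] H))) v, v⟫_ℂ).re =
      ‖x‖ * ((1 + t⁻¹) * ‖w‖ ^ 2 + t * ‖v‖ ^ 2) := by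
    rw [re_real_smul_inner, add_apply, inner_add_left, Complex.add_re, re_real_smul_inner,
      re_real_smul_inner, ← proj_norm_sq hk, one_apply_eq_self, norm_sq_re_inner]
  rw [e1, e2]
  have h3 : (⟪x w, w⟫_ℂ).re ≤ ‖x‖ * ‖w‖ ^ 2 := by
    calc (⟪x w, w⟫_ℂ).re ≤ ‖⟪x w, w⟫_ℂ‖ := Complex.re_le_norm _
      _ ≤ ‖x w‖ * ‖w‖ := norm_inner_le_norm _ _
      _ ≤ (‖x‖ * ‖w‖) * ‖w‖ := by gcongr; exact ContinuousLinearMap.le_opNorm _ _
      _ = _ := by ring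
  have h4 : (⟪x a, w⟫_ℂ).re ≤ ‖x‖ * (‖v‖ * ‖w‖) := by
    calc (⟪x a, w⟫_ℂ).re ≤ ‖⟪x a, w⟫_ℂ‖ := Complex.re_le_norm _
      _ ≤ ‖x a‖ * ‖w‖ := norm_inner_le_norm _ _
      _ ≤ (‖x‖ * ‖v‖) * ‖w‖ := by
          gcongr
          refine (ContinuousLinearMap.le_opNorm _ _).trans ?_
          gcongr
          exact proj_norm_le hg v
      _ = _ := by ring
  have h5 : 2 * (‖v‖ * ‖w‖) ≤ t * ‖v‖ ^ 2 + t⁻¹ * ‖w‖ ^ 2 := by
    have h6 : 0 ≤ (Real.sqrt t * ‖v‖ - Real.sqrt t⁻¹ * ‖w‖) ^ 2 := sq_nonneg _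
    have h7 : Real.sqrt t * Real.sqrt t⁻¹ = 1 := by
      rw [← Real.sqrt_mul ht.le, mul_inv_cancel₀ ht.ne', Real.sqrt_one]
    have h8 : (Real.sqrt t) ^ 2 = t := Real.sq_sqrt ht.le
    have h9 : (Real.sqrt t⁻¹) ^ 2 = t⁻¹ := Real.sq_sqrt (by positivity)
    have h10 : (Real.sqrt t * ‖v‖ - Real.sqrt t⁻¹ * ‖w‖) ^ 2 =
        (Real.sqrt t) ^ 2 * ‖v‖ ^ 2 - 2 * ((Real.sqrt t * Real.sqrt t⁻¹) * (‖v‖ * ‖w‖)) +
          (Real.sqrt t⁻¹) ^ 2 * ‖w‖ ^ 2 := by ring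
    rw [h10, h7, h8, h9] at h6
    linarith
  have hxn := norm_nonneg x
  calc (⟪x w, w⟫_ℂ).re + 2 * (⟪x a, w⟫_ℂ).re
      ≤ ‖x‖ * ‖w‖ ^ 2 + ‖x‖ * (2 * (‖v‖ * ‖w‖)) := by linarith
    _ ≤ ‖x‖ * ‖w‖ ^ 2 + ‖x‖ * (t * ‖v‖ ^ 2 + t⁻¹ * ‖w‖ ^ 2) := by gcongr
    _ = _ := by ring

/-- functional on tuples controlled by the values `y (ζ j)` -/
theorem exists_vectors {M : VonNeumannAlgebra H} {k : ℕ} (ζ : Fin k → H)
    (fs : (H →L[ℂ] H) →ₗ[ℝ] ℝ) (K : ℝ)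
    (hK : ∀ y, y ∈ M → IsSelfAdjoint y → |fs y| ≤ K * ‖fun j => y (ζ j)‖) :
    ∃ w : Fin k → H, ∀ y, y ∈ M → IsSelfAdjoint y → fs y = ∑ j, (⟪w j, y (ζ j)⟫_ℂ).re := by
  classical
  let Msa : Submodule ℝ (H →L[ℂ] H) :=
    { carrier := {y | y ∈ M ∧ IsSelfAdjoint y}
      add_mem' := fun ha hb => ⟨add_mem ha.1 hb.1, ha.2.add hb.2⟩
      zero_mem' := ⟨zero_mem M, IsSelfAdjoint.zero _⟩
      smul_mem' := fun c _ ha => ⟨real_smul_mem c ha.1, isSelfAdjoint_real_smul c ha.2⟩ }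
  let T : Msa →ₗ[ℝ] (Fin k → H) :=
    { toFun := fun y j => y.1 (ζ j)
      map_add' := fun a b => by ext j; rfl
      map_smul' := fun c a => by ext j; rfl }
  let g : Msa →ₗ[ℝ] ℝ := fs.comp Msa.subtype
  have hg : ∀ y : Msa, |g y| ≤ K * ‖T y‖ := fun y => hK y.1 y.2.1 y.2.2
  have hfree : Module.Free ℝ (LinearMap.range T) := Module.Free.of_divisionRing ℝ _
  have hproj : Module.Projective ℝ (LinearMap.range T) := Module.Projective.of_free
  obtain ⟨r, hr⟩ := LinearMap.exists_rightInverse_of_surjective T.rangeRestrict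
    (LinearMap.range_rangeRestrict T)
  have hr' : ∀ v : LinearMap.range T, T (r v) = v.1 := by
    intro v
    have := congrArg (fun S : LinearMap.range T →ₗ[ℝ] LinearMap.range T => (S v).1) hr
    exact this
  let f' : LinearMap.range T →ₗ[ℝ] ℝ := g.comp r
  have hf' : ∀ v, ‖f' v‖ ≤ K * ‖v‖ := by
    intro v
    have := hg (r v)
    rw [hr' v] at this
    exact this
  let f'' : StrongDual ℝ (LinearMap.range T) := f'.mkContinuous K hf'
  obtain ⟨G, hG, -⟩ := exists_extension_norm_eq (LinearMap.range T) f''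
  have hGT : ∀ y : Msa, G (T y) = g y := by
    intro y
    have h1 : G (T y) = f' ⟨T y, LinearMap.mem_range_self T y⟩ :=
      hG ⟨T y, LinearMap.mem_range_self T y⟩
    rw [h1]
    show g (r ⟨T y, LinearMap.mem_range_self T y⟩) = g y
    have h2 := hg (r ⟨T y, LinearMap.mem_range_self T y⟩ - y)
    rw [map_sub T, hr', sub_self, norm_zero, mul_zero, map_sub] at h2
    have h3 := abs_nonneg (g (r ⟨T y, LinearMap.mem_range_self T y⟩) - g y)
    have h4 : |g (r ⟨T y, LinearMap.mem_range_self T y⟩) - g y| = 0 := le_antisymm h2 h3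
    linarith [abs_eq_zero.mp h4]
  let Gj : Fin k → StrongDual ℝ H := fun j =>
    G.comp (ContinuousLinearMap.single ℝ (fun _ : Fin k => H) j)
  let Gc : Fin k → StrongDual ℂ H := fun j => (Gj j).extendRCLike
  let w : Fin k → H := fun j => (InnerProductSpace.toDual ℂ H).symm (Gc j)
  refine ⟨w, ?_⟩
  intro y hyM hys
  have h1 : fs y = G (T ⟨y, hyM, hys⟩) := (hGT ⟨y, hyM, hys⟩).symm
  have h2 : G (T ⟨y, hyM, hys⟩) = ∑ j, G (Pi.single j (y (ζ j))) := by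
    rw [← map_sum]
    congr 1
    exact (Finset.univ_sum_single _).symm
  rw [h1, h2]
  refine Finset.sum_congr rfl (fun j _ => ?_)
  have h3 : ⟪w j, y (ζ j)⟫_ℂ = Gc j (y (ζ j)) :=
    InnerProductSpace.toDual_symm_apply (x := y (ζ j)) (y := Gc j)
  rw [h3]
  exact (StrongDual.re_extendRCLike_apply (𝕜 := ℂ) (Gj j) (y (ζ j))).symm

end Vale.Agent.P078
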