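import Mathlib

open scoped InnerProductSpace

namespace Vale.Agent.P078

variable {H : Type*} [NormedAddCommGroup H] [InnerProductSpace ℂ H] [CompleteSpace H]

theorem commute_starProjection_ker (g T : H →L[ℂ] H) (h1 : Commute T g)
    (h2 : Commute (star T) g) :
    Commute T (g.ker.starProjection) := by
  have hK1 : ∀ v ∈ g.ker, T v ∈ g.ker := by
    intro v hv
    have hv' : g v = 0 := by simpa using hv
    have : g (T v) = T (g v) := by
      have := congrArg (fun S : H →L[ℂ] H => S v) h1.eq
      simpa using this.symm
    simp [this, hv']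
  have hK2 : ∀ v ∈ g.ker, (star T) v ∈ g.ker := by
    intro v hv
    have hv' : g v = 0 := by simpa using hv
    have : g ((star T) v) = (star T) (g v) := by
      have := congrArg (fun S : H →L[ℂ] H => S v) h2.eq
      simpa using this.symm
    simp [this, hv']
  have hK3 : ∀ v ∈ g.kerᗮ, T v ∈ g.kerᗮ := by
    intro v hv
    rw [Submodule.mem_orthogonal] at hv ⊢
    intro u hu
    have := hv _ (hK2 u hu)
    rwa [ContinuousLinearMap.star_eq_adjoint, ContinuousLinearMap.adjoint_inner_left] at this
  ext v
  have hdec : v = g.ker.starProjection v + (v - g.ker.starProjection v) := by abel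
  have hmem : g.ker.starProjection v ∈ g.ker := by
    exact Submodule.starProjection_apply_mem _ v
  have hmem' : v - g.ker.starProjection v ∈ g.kerᗮ :=
    Submodule.sub_starProjection_mem_orthogonal v
  have h4 : g.ker.starProjection (T v) = T (g.ker.starProjection v) := by
    have : T v = T (g.ker.starProjection v) + T (v - g.ker.starProjection v) := by
      rw [← map_add]; congr 1
    rw [this, map_add]
    have e1 : g.ker.starProjection (T (g.ker.starProjection v)) = T (g.ker.starProjection v) :=
      Submodule.starProjection_eq_self_iff.mpr (hK1 _ hmem)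
    have e2 : g.ker.starProjection (T (v - g.ker.starProjection v)) = 0 :=
      (Submodule.starProjection_apply_eq_zero_iff _).mpr (hK3 _ hmem')
    rw [e1, e2, add_zero]
  show T (g.ker.starProjection v) = g.ker.starProjection (T v)
  rw [h4]

/-- spectral cut -/
theorem spectral_cut (y : H →L[ℂ] H) (hy : IsSelfAdjoint y) (κ : ℝ) (hκ : 0 < κ) :
    ∃ q : H →L[ℂ] H, IsStarProjection q ∧ (∀ T, Commute T y → Commute T q) ∧
      ‖y * q‖ ≤ κ ∧ (∀ ξ, κ * ‖ξ - q ξ‖ ≤ ‖y ξ‖) := by
  set f : ℝ → ℝ := fun t => max (|t| - κ) 0 with hf
  set hcl : ℝ → ℝ := fun t => max (-κ) (min κ t) with hhcl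
  set k : ℝ → ℝ := fun t => max (-1) (min 1 (t / κ)) with hk
  set m : ℝ → ℝ := fun t => κ * t / max (t ^ 2) (κ ^ 2) with hm
  have cf : Continuous f := by fun_prop
  have ch : Continuous hcl := by fun_prop
  have ck : Continuous k := by fun_prop
  have cm : Continuous m := by
    apply Continuous.div
    · fun_prop
    · fun_prop
    · intro t
      have : 0 < κ ^ 2 := by positivity
      exact (lt_of_lt_of_le this (le_max_right _ _)).ne'
  set g := cfc f y with hg
  have hgsa : IsSelfAdjoint g := cfc_predicate f y
  refine ⟨g.ker.starProjection, isStarProjection_starProjection, ?_, ?_, ?_⟩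
  · intro T hT
    have h1 : Commute T g := (hy.commute_cfc hT.symm f).symm
    have h2 : Commute (star T) g := by
      have : Commute (star T) y := by
        have := hT.star_star
        rwa [hy.star_eq] at this
      exact (hy.commute_cfc this.symm f).symm
    exact commute_starProjection_ker g T h1 h2
  · apply ContinuousLinearMap.opNorm_le_bound _ hκ.le
    intro v
    set w := g.ker.starProjection v with hw
    have hwm : w ∈ g.ker := Submodule.starProjection_apply_mem _ v
    have hgw : g w = 0 := by simpa using hwm
    have hid : y = cfc hcl y + cfc k y * cfc f y := by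
      have e1 : cfc (fun x => k x * f x) y = cfc k y * cfc f y := cfc_mul k f y
      have e2 : cfc (fun x => hcl x + k x * f x) y = cfc hcl y + cfc (fun x => k x * f x) y :=
        cfc_add y hcl (fun x => k x * f x)
      rw [← e1, ← e2]
      conv_lhs => rw [← cfc_id ℝ y]
      apply cfc_congr
      intro t _
      simp only [id, hhcl, hk, hf]
      rcases le_total t (-κ) with h | h
      · have h1 : |t| = -t := abs_of_nonpos (by linarith)
        have h2 : t / κ ≤ -1 := by rw [div_le_iff₀ hκ]; linarith
        rw [h1, min_eq_right (by linarith : t ≤ κ), max_eq_left h, min_eq_right (by linarith),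
          max_eq_left h2, max_eq_left (by linarith)]
        ring
      · rcases le_total t κ with h' | h'
        · have h1 : |t| ≤ κ := abs_le.mpr ⟨h, h'⟩
          rw [min_eq_right h', max_eq_right h, max_eq_right (a := |t| - κ) (by linarith)]
          ring
        · have h1 : |t| = t := abs_of_nonneg (by linarith)
          have h2 : 1 ≤ t / κ := by rw [le_div_iff₀ hκ]; linarith
          rw [h1, min_eq_left h', max_eq_right (by linarith : -κ ≤ κ), min_eq_left h2,
            max_eq_right (by norm_num : (-1:ℝ) ≤ 1), max_eq_left (by linarith)]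
          ring
    have hyw : y w = cfc hcl y w := by
      conv_lhs => rw [hid]
      simp only [add_apply, mul_apply_eq_comp]
      rw [← hg, hgw]; simp
    have hn : ‖cfc hcl y‖ ≤ κ := by
      apply norm_cfc_le hκ.le
      intro t _
      rw [Real.norm_eq_abs, abs_le]
      constructor
      · exact le_max_left _ _
      · exact max_le (by linarith) (min_le_left _ _)
    calc ‖(y * g.ker.starProjection) v‖ = ‖y w‖ := rfl
      _ = ‖cfc hcl y w‖ := by rw [hyw]
      _ ≤ ‖cfc hcl y‖ * ‖w‖ := ContinuousLinearMap.le_opNorm _ _
      _ ≤ κ * ‖v‖ := by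
        apply mul_le_mul hn _ (norm_nonneg _) hκ.le
        exact Submodule.norm_starProjection_apply_le _ v
  · intro ξ
    have hid2 : κ • g = cfc m y * (y * g) := by
      rw [hg]
      have e0 : cfc (fun x => id x * f x) y = y * cfc f y := by
        rw [cfc_mul id f y, cfc_id ℝ y]
      have e1 : cfc (fun x => m x * (id x * f x)) y = cfc m y * cfc (fun x => id x * f x) y :=
        cfc_mul m (fun x => id x * f x) y
      have e2 : cfc (fun x => κ • f x) y = κ • cfc f y := cfc_smul κ f y
      rw [← e0, ← e1, ← e2]
      apply cfc_congr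
      intro t _
      simp only [id, hm, hf, smul_eq_mul]
      rcases le_total (|t|) κ with h | h
      · rw [max_eq_right (a := |t| - κ) (by linarith)]; ring
      · have h3 : κ ^ 2 ≤ t ^ 2 := by rw [← sq_abs t]; gcongr
        have h4 : 0 < t ^ 2 := lt_of_lt_of_le (by positivity) h3
        have h5 : t ≠ 0 := by rintro rfl; simp at h4
        rw [max_eq_left (a := |t| - κ) (by linarith), max_eq_left h3]
        field_simp
    have hmn : ‖cfc m y‖ ≤ 1 := by
      apply norm_cfc_le zero_le_one
      intro t _
      rw [Real.norm_eq_abs, hm]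
      have h6 : 0 < max (t ^ 2) (κ ^ 2) := lt_of_lt_of_le (by positivity) (le_max_right _ _)
      rw [abs_div, abs_of_pos h6, div_le_one h6, abs_mul, abs_of_pos hκ]
      rcases le_total (|t|) κ with h | h
      · calc κ * |t| ≤ κ * κ := by gcongr
          _ = κ ^ 2 := by ring
          _ ≤ _ := le_max_right _ _
      · calc κ * |t| ≤ |t| * |t| := by gcongr
          _ = t ^ 2 := by rw [← sq_abs]; ring
          _ ≤ _ := le_max_left _ _
    have hrange : ∀ ζ ∈ g.range.topologicalClosure, κ * ‖ζ‖ ≤ ‖y ζ‖ := by
      intro ζ hζ
      have hcl : IsClosed {ζ : H | κ * ‖ζ‖ ≤ ‖y ζ‖} :=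
        isClosed_le (by fun_prop) (by fun_prop)
      have hsub : (g.range : Set H) ⊆ {ζ : H | κ * ‖ζ‖ ≤ ‖y ζ‖} := by
        rintro _ ⟨ζ', rfl⟩
        show κ * ‖g ζ'‖ ≤ ‖y (g ζ')‖
        have := congrArg (fun S : H →L[ℂ] H => S ζ') hid2
        simp only [smul_apply, mul_apply_eq_comp] at this
        calc κ * ‖g ζ'‖ = ‖κ • g ζ'‖ := by rw [norm_smul, Real.norm_eq_abs, abs_of_pos hκ]
          _ = ‖(cfc m y) (y (g ζ'))‖ := by rw [this]
          _ ≤ ‖cfc m y‖ * ‖y (g ζ')‖ := ContinuousLinearMap.le_opNorm _ _
          _ ≤ 1 * ‖y (g ζ')‖ := by gcongr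
          _ = _ := one_mul _
      have : ζ ∈ closure (g.range : Set H) := hζ
      exact closure_minimal hsub hcl this
    have hζ : ξ - g.ker.starProjection ξ ∈ g.range.topologicalClosure := by
      have h7 : ξ - g.ker.starProjection ξ ∈ g.kerᗮ :=
        Submodule.sub_starProjection_mem_orthogonal ξ
      rw [ContinuousLinearMap.orthogonal_ker] at h7
      rwa [← ContinuousLinearMap.star_eq_adjoint, hgsa.star_eq] at h7
    have hcomm : Commute y (g.ker.starProjection) := by
      have h1 : Commute y g := (hy.commute_cfc (Commute.refl y) f).symm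
      exact commute_starProjection_ker g y h1 (by rw [hy.star_eq]; exact h1)
    calc κ * ‖ξ - g.ker.starProjection ξ‖ ≤ ‖y (ξ - g.ker.starProjection ξ)‖ := hrange _ hζ
      _ = ‖y ξ - g.ker.starProjection (y ξ)‖ := by
        have := congrArg (fun S : H →L[ℂ] H => S ξ) hcomm.eq
        simp only [mul_apply_eq_comp] at this
        rw [map_sub, this]
      _ ≤ ‖y ξ‖ := by
        have : y ξ - g.ker.starProjection (y ξ) = (g.kerᗮ).starProjection (y ξ) := by
          rw [Submodule.starProjection_orthogonal']
          simp
        rw [this]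
        exact Submodule.norm_starProjection_apply_le _ _

end Vale.Agent.P078
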