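import Vale.Agent.P078.Defs
import Vale.Agent.P078.Spectral

open scoped InnerProductSpace

namespace Vale.Agent.P078

variable {H : Type*} [NormedAddCommGroup H] [InnerProductSpace ℂ H] [CompleteSpace H]

theorem IsMASA.mem_iff {M : VonNeumannAlgebra H} {A : StarSubalgebra ℂ (H →L[ℂ] H)}
    (h : IsMASA M A) (x : H →L[ℂ] H) :
    x ∈ A ↔ x ∈ M ∧ ∀ a ∈ A, a * x = x * a := by
  constructor
  · intro hx
    exact ⟨h.subset x hx, fun a ha => h.comm a ha x hx⟩
  · rintro ⟨hxM, hxc⟩
    have key : ∀ y : H →L[ℂ] H, IsSelfAdjoint y → y ∈ M → (∀ a ∈ A, a * y = y * a) → y ∈ A := by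
      intro y hy hyM hyc
      have hcomm : ∀ a ∈ (insert y (A : Set (H →L[ℂ] H))), ∀ b ∈ (insert y (A : Set (H →L[ℂ] H))),
          a * b = b * a := by
        intro a ha b hb
        rcases ha with rfl | ha
        · rcases hb with rfl | hb
          · rfl
          · exact (hyc b hb).symm
        · rcases hb with rfl | hb
          · exact hyc a ha
          · exact h.comm a ha b hb
      have hcomm_star : ∀ a ∈ (insert y (A : Set (H →L[ℂ] H))),
          ∀ b ∈ (insert y (A : Set (H →L[ℂ] H))), a * star b = star b * a := by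
        intro a ha b hb
        rcases hb with rfl | hb
        · rw [hy.star_eq]; exact hcomm a ha _ (Set.mem_insert _ _)
        · exact hcomm a ha _ (Set.mem_insert_of_mem _ (star_mem hb))
      let B := StarAlgebra.adjoin ℂ (insert y (A : Set (H →L[ℂ] H)))
      have hBM : B ≤ M.toStarSubalgebra := by
        apply StarAlgebra.adjoin_le
        intro z hz
        rcases hz with rfl | hz
        · exact hyM
        · exact h.subset z hz
      have hBc : ∀ a ∈ B, ∀ b ∈ B, a * b = b * a := by
        have hc := StarAlgebra.isMulCommutative_adjoin ℂ hcomm hcomm_star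
        intro a ha b hb
        have := hc.is_comm.comm (⟨a, ha⟩ : B) ⟨b, hb⟩
        exact congrArg Subtype.val this
      have hAB : A ≤ B := by
        intro z hz
        exact StarAlgebra.subset_adjoin ℂ _ (Set.mem_insert_of_mem _ hz)
      have := h.maximal B (fun b hb => hBM hb) hBc hAB
      exact this (StarAlgebra.subset_adjoin ℂ _ (Set.mem_insert _ _))
    have hxs : ∀ a ∈ A, a * star x = star x * a := by
      intro a ha
      have := hxc (star a) (star_mem ha)
      have h2 := congrArg star this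
      simp only [star_mul, star_star] at h2
      exact h2.symm
    have hxsM : star x ∈ M := star_mem hxM
    have h1 : x + star x ∈ A := by
      apply key
      · rw [IsSelfAdjoint, star_add, star_star, add_comm]
      · exact add_mem hxM hxsM
      · intro a ha; rw [mul_add, add_mul, hxc a ha, hxs a ha]
    have hMs : ∀ (c : ℂ) (z : H →L[ℂ] H), z ∈ M → c • z ∈ M := fun c z hz =>
      M.toStarSubalgebra.smul_mem hz c
    have h2 : Complex.I • (x - star x) ∈ A := by
      apply key
      · rw [IsSelfAdjoint, star_smul, star_sub, star_star]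
        simp only [RCLike.star_def, Complex.conj_I, neg_smul]
        rw [← smul_neg, neg_sub]
      · exact hMs _ _ (sub_mem hxM hxsM)
      · intro a ha
        rw [mul_smul_comm, smul_mul_assoc, mul_sub, sub_mul, hxc a ha, hxs a ha]
    have h3 : x = (2⁻¹ : ℂ) • (x + star x) - ((2⁻¹ : ℂ) * Complex.I) • (Complex.I • (x - star x)) := by
      rw [smul_smul, mul_assoc, Complex.I_mul_I, smul_add, smul_sub]
      have : (2⁻¹ : ℂ) • x + (2⁻¹ : ℂ) • x = x := by
        rw [← add_smul]; norm_num
      simp only [mul_neg, mul_one, neg_smul]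
      nth_rewrite 1 [← this]
      abel
    rw [h3]
    exact sub_mem (A.smul_mem h1 _) (A.smul_mem h2 _)

variable {A : StarSubalgebra ℂ (H →L[ℂ] H)} {e : H →L[ℂ] H}

theorem proj_apply_inner {p : H →L[ℂ] H} (hp : IsStarProjection p) (u v : H) :
    ⟪p u, v⟫_ℂ = ⟪p u, p v⟫_ℂ := by
  have h1 : p * p = p := hp.isIdempotentElem
  have h2 : ContinuousLinearMap.adjoint p = p := hp.isSelfAdjoint.star_eq
  have h3 : p (p v) = p v := by
    have := congrArg (fun S : H →L[ℂ] H => S v) h1
    simpa using this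
  calc ⟪p u, v⟫_ℂ = ⟪u, (ContinuousLinearMap.adjoint p) v⟫_ℂ :=
        (ContinuousLinearMap.adjoint_inner_right p u v).symm
    _ = ⟪u, (ContinuousLinearMap.adjoint p) (p v)⟫_ℂ := by rw [h2, h3]
    _ = ⟪p u, p v⟫_ℂ := ContinuousLinearMap.adjoint_inner_right p u (p v)

theorem proj_norm_sq {p : H →L[ℂ] H} (hp : IsStarProjection p) (v : H) :
    ‖p v‖ ^ 2 = (⟪p v, v⟫_ℂ).re := by
  rw [proj_apply_inner hp, ← inner_self_eq_norm_sq (𝕜 := ℂ)]; rfl

theorem proj_norm_le {p : H →L[ℂ] H} (hp : IsStarProjection p) (v : H) : ‖p v‖ ≤ ‖v‖ := by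
  have h := proj_norm_sq hp v
  have h2 : (⟪p v, v⟫_ℂ).re ≤ ‖p v‖ * ‖v‖ := (Complex.re_le_norm _).trans (norm_inner_le_norm _ _)
  by_contra hc
  push Not at hc
  have h3 : 0 < ‖p v‖ := lt_of_le_of_lt (norm_nonneg _) hc
  nlinarith

theorem proj_opNorm_le {p : H →L[ℂ] H} (hp : IsStarProjection p) : ‖p‖ ≤ 1 :=
  ContinuousLinearMap.opNorm_le_bound _ zero_le_one (fun v => by simpa using proj_norm_le hp v)

theorem mul_apply' (S T : H →L[ℂ] H) (v : H) : (S * T) v = S (T v) := rfl

theorem IsPartition.norm_sq {ι : Type} [Fintype ι] {p : ι → H →L[ℂ] H}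
    (hp : IsPartition A e p) (he : IsStarProjection e) (v : H) :
    ∑ i, ‖p i v‖ ^ 2 = ‖e v‖ ^ 2 := by
  rw [proj_norm_sq he, ← hp.sum]
  simp only [ContinuousLinearMap.sum_apply, sum_inner, Complex.re_sum]
  exact Finset.sum_congr rfl (fun i _ => proj_norm_sq (hp.proj i) v)

theorem IsPartition.mul_eq {ι : Type} [Fintype ι] {p : ι → H →L[ℂ] H}
    (hp : IsPartition A e p) (i : ι) : e * p i = p i ∧ p i * e = p i := by
  constructor
  · rw [← hp.sum, Finset.sum_mul, Finset.sum_eq_single i]
    · exact (hp.proj i).isIdempotentElem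
    · intro j _ hj; exact hp.orth j i hj
    · simp
  · rw [← hp.sum, Finset.mul_sum, Finset.sum_eq_single i]
    · exact (hp.proj i).isIdempotentElem
    · intro j _ hj; exact hp.orth i j hj.symm
    · simp

theorem IsPartition.mul_pinching {ι : Type} [Fintype ι] {p : ι → H →L[ℂ] H}
    (hp : IsPartition A e p) (x : H →L[ℂ] H) (i : ι) :
    p i * pinching p x = p i * x * p i := by
  rw [pinching, Finset.mul_sum, Finset.sum_eq_single i]
  · rw [← mul_assoc, ← mul_assoc, (hp.proj i).isIdempotentElem]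
  · intro j _ hj
    rw [← mul_assoc, ← mul_assoc, hp.orth i j hj.symm]; simp
  · simp

theorem IsPartition.pinching_mul {ι : Type} [Fintype ι] {p : ι → H →L[ℂ] H}
    (hp : IsPartition A e p) (x : H →L[ℂ] H) (i : ι) :
    pinching p x * p i = p i * x * p i := by
  rw [pinching, Finset.sum_mul, Finset.sum_eq_single i]
  · rw [mul_assoc, (hp.proj i).isIdempotentElem]
  · intro j _ hj
    rw [mul_assoc, hp.orth j i hj]; simp
  · simp

theorem IsPartition.pinching_norm_apply_le {ι : Type} [Fintype ι] {p : ι → H →L[ℂ] H}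
    (hp : IsPartition A e p) (he : IsStarProjection e) (x : H →L[ℂ] H) (v : H) :
    ‖pinching p x v‖ ≤ ‖x‖ * ‖v‖ := by
  have h1 : e (pinching p x v) = pinching p x v := by
    have : e * pinching p x = pinching p x := by
      rw [pinching, Finset.mul_sum]
      refine Finset.sum_congr rfl (fun i _ => ?_)
      rw [← mul_assoc, ← mul_assoc, (hp.mul_eq i).1]
    exact congrArg (fun S : H →L[ℂ] H => S v) this
  have h2 : ‖pinching p x v‖ ^ 2 ≤ (‖x‖ * ‖v‖) ^ 2 := by
    rw [← h1, ← hp.norm_sq he]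
    calc ∑ i, ‖p i (pinching p x v)‖ ^ 2 = ∑ i, ‖p i (x (p i v))‖ ^ 2 := by
          refine Finset.sum_congr rfl (fun i _ => ?_)
          have := congrArg (fun S : H →L[ℂ] H => S v) (hp.mul_pinching x i)
          simp only [mul_apply'] at this
          rw [this]
      _ ≤ ∑ i, ‖x‖ ^ 2 * ‖p i v‖ ^ 2 := by
          refine Finset.sum_le_sum (fun i _ => ?_)
          rw [← mul_pow]
          gcongr
          exact (proj_norm_le (hp.proj i) _).trans (ContinuousLinearMap.le_opNorm _ _)
      _ = ‖x‖ ^ 2 * ‖e v‖ ^ 2 := by rw [← Finset.mul_sum, hp.norm_sq he]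
      _ ≤ ‖x‖ ^ 2 * ‖v‖ ^ 2 := by
          gcongr
          exact proj_norm_le he v
      _ = _ := by ring
  exact le_of_sq_le_sq h2 (by positivity) |> fun h => h

theorem IsPartition.pinching_norm_le {ι : Type} [Fintype ι] {p : ι → H →L[ℂ] H}
    (hp : IsPartition A e p) (he : IsStarProjection e) (x : H →L[ℂ] H) :
    ‖pinching p x‖ ≤ ‖x‖ :=
  ContinuousLinearMap.opNorm_le_bound _ (norm_nonneg _) (hp.pinching_norm_apply_le he x)

theorem pinching_isSelfAdjoint {ι : Type} [Fintype ι] {p : ι → H →L[ℂ] H}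
    (hp : ∀ i, IsStarProjection (p i)) {x : H →L[ℂ] H} (hx : IsSelfAdjoint x) :
    IsSelfAdjoint (pinching p x) := by
  rw [pinching]
  apply isSelfAdjoint_sum
  intro i _
  rw [IsSelfAdjoint, star_mul, star_mul, (hp i).isSelfAdjoint.star_eq, hx.star_eq, mul_assoc]

theorem pinching_mem {M : VonNeumannAlgebra H} {ι : Type} [Fintype ι] {p : ι → H →L[ℂ] H}
    (hp : ∀ i, p i ∈ M) {x : H →L[ℂ] H} (hx : x ∈ M) :
    pinching p x ∈ M := by
  rw [pinching]
  exact sum_mem (fun i _ => mul_mem (mul_mem (hp i) hx) (hp i))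

end Vale.Agent.P078
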