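import Vale.Agent.P078.Refine

open scoped InnerProductSpace Topology
open Filter

namespace Vale.Agent.P078

universe u

variable {H : Type u} [NormedAddCommGroup H] [InnerProductSpace ℂ H] [CompleteSpace H]
variable {A : StarSubalgebra ℂ (H →L[ℂ] H)} {e : H →L[ℂ] H}

theorem norm_mul_proj_sq {q c : H →L[ℂ] H} (hq : IsStarProjection q) (hc : IsStarProjection c) :
    ‖q * c‖ ^ 2 = ‖q * c * q‖ := by
  have h1 : (q * c) * star (q * c) = q * c * q := by
    rw [star_mul, hq.isSelfAdjoint.star_eq, hc.isSelfAdjoint.star_eq, mul_assoc q c,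
      ← mul_assoc c c, hc.isIdempotentElem, mul_assoc]
  rw [← h1, CStarRing.norm_self_mul_star, sq]

theorem norm_q_c_apply {q c : H →L[ℂ] H} (hq : IsStarProjection q) (hc : IsStarProjection c)
    {δ : ℝ} (h : ‖q * c * q‖ ≤ δ) (w : H) : ‖q (c w)‖ ^ 2 ≤ δ * ‖c w‖ ^ 2 := by
  have h1 : q (c w) = (q * c) (c w) := by
    have : c (c w) = c w := congrArg (fun S : H →L[ℂ] H => S w) hc.isIdempotentElem
    rw [mul_apply', this]
  calc ‖q (c w)‖ ^ 2 = ‖(q * c) (c w)‖ ^ 2 := by rw [← h1]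
    _ ≤ (‖q * c‖ * ‖c w‖) ^ 2 := by gcongr; exact ContinuousLinearMap.le_opNorm _ _
    _ = ‖q * c * q‖ * ‖c w‖ ^ 2 := by rw [mul_pow, norm_mul_proj_sq hq hc]
    _ ≤ _ := by gcongr

theorem norm_refine_le {q c b : H →L[ℂ] H} (hq : IsStarProjection q) (hc : IsStarProjection c)
    (hb : IsStarProjection b) (hcb : c * b = b * c) {δ : ℝ} (h : ‖q * c * q‖ ≤ δ) :
    ‖q * (c * b) * q‖ ≤ δ := by
  rw [← norm_mul_proj_sq hq (hc.mul hb hcb)]
  calc ‖q * (c * b)‖ ^ 2 = ‖(q * c) * b‖ ^ 2 := by rw [mul_assoc]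
    _ ≤ (‖q * c‖ * 1) ^ 2 := by
        gcongr
        exact (norm_mul_le _ _).trans (by gcongr; exact proj_opNorm_le hb)
    _ = ‖q * c * q‖ := by rw [mul_one, norm_mul_proj_sq hq hc]
    _ ≤ δ := h

theorem pinching_add {ι : Type} [Fintype ι] (p : ι → H →L[ℂ] H) (x y : H →L[ℂ] H) :
    pinching p (x + y) = pinching p x + pinching p y := by
  simp only [pinching, mul_add, add_mul, Finset.sum_add_distrib]

theorem piLp_sum_apply {k : ℕ} {ι : Type*} (s : Finset ι) (f : ι → PiLp 2 (fun _ : Fin k => H))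
    (j : Fin k) : (∑ i ∈ s, f i) j = ∑ i ∈ s, f i j := by
  rw [WithLp.ofLp_sum, Finset.sum_apply]

theorem levels (hcomm : ∀ a ∈ A, ∀ b ∈ A, a * b = b * a) (he : IsStarProjection e)
    {q : H →L[ℂ] H} (hq : IsStarProjection q)
    {ι : Type} [Fintype ι] {c : ι → H →L[ℂ] H} (hc : IsPartition A e c)
    {δ : ℝ} (hδ0 : 0 ≤ δ) (hδ : ∀ s, ‖q * c s * q‖ ≤ δ)
    {μ : Type} [Fintype μ] (lam : μ → ℝ) (hl0 : ∀ m, 0 ≤ lam m) (hl1 : ∑ m, lam m = 1)
    (B : μ → FinPart A e) (x : H →L[ℂ] H) {k : ℕ} (ξ : Fin k → H) :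
    ∃ C : FinPart A e, (∀ s, ‖q * C.p s * q‖ ≤ δ) ∧
      ∑ j, ‖q ((pinching C.p x - ∑ m, (lam m : ℂ) • pinching c (pinching (B m).p x))
        (q (ξ j)))‖ ^ 2 ≤ 4 * δ * ‖x‖ ^ 2 * ∑ j, ‖ξ j‖ ^ 2 := by
  classical
  set Rb : H →L[ℂ] H := ∑ m, (lam m : ℂ) • pinching (B m).p x with hRb
  have hRbn : ‖Rb‖ ≤ ‖x‖ := by
    calc ‖Rb‖ ≤ ∑ m, ‖(lam m : ℂ) • pinching (B m).p x‖ := norm_sum_le _ _
      _ ≤ ∑ m, lam m * ‖x‖ := by
          refine Finset.sum_le_sum (fun m _ => ?_)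
          rw [norm_smul, Complex.norm_real, Real.norm_eq_abs, abs_of_nonneg (hl0 m)]
          exact mul_le_mul_of_nonneg_left ((B m).isPart.pinching_norm_le he x) (hl0 m)
      _ = ‖x‖ := by rw [← Finset.sum_mul, hl1, one_mul]
  let D : ι → μ → H →L[ℂ] H := fun s m => c s * (pinching (B m).p x - Rb) * c s
  let v : ι → μ → PiLp 2 (fun _ : Fin k => H) := fun s m =>
    WithLp.toLp 2 (fun j => q (D s m (q (ξ j))))
  let β : ι → ℝ := fun s => ∑ j, δ * (4 * ‖x‖ ^ 2 * ‖c s (q (ξ j))‖ ^ 2)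
  have hv0 : ∀ s, ∑ m, (lam m : ℂ) • v s m = 0 := by
    intro s
    have hD0 : ∑ m, (lam m : ℂ) • D s m = 0 := by
      have : ∀ m, (lam m : ℂ) • D s m =
          c s * ((lam m : ℂ) • pinching (B m).p x) * c s - (lam m : ℂ) • (c s * Rb * c s) := by
        intro m
        simp only [D, mul_sub, sub_mul, smul_sub, mul_smul_comm, smul_mul_assoc]
      simp_rw [this]
      rw [Finset.sum_sub_distrib, ← Finset.sum_mul, ← Finset.mul_sum, ← Finset.sum_smul,
        ← hRb]
      have : (∑ m, (lam m : ℂ)) = 1 := by exact_mod_cast hl1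
      rw [this, one_smul, sub_self]
    ext j
    have h1 : (∑ m, (lam m : ℂ) • v s m) j = ∑ m, (lam m : ℂ) • q (D s m (q (ξ j))) := by
      rw [piLp_sum_apply]
      refine Finset.sum_congr rfl (fun m _ => ?_)
      rfl
    rw [h1]
    have h2 : ∑ m, (lam m : ℂ) • q (D s m (q (ξ j))) = q ((∑ m, (lam m : ℂ) • D s m) (q (ξ j))) := by
      rw [sum_apply, map_sum]
      refine Finset.sum_congr rfl (fun m _ => ?_)
      rw [smul_apply, map_smul]
    rw [h2, hD0]; simp
  have hβ : ∀ s m, ‖v s m‖ ^ 2 ≤ β s := by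
    intro s m
    rw [PiLp.norm_sq_eq_of_L2]
    refine Finset.sum_le_sum (fun j _ => ?_)
    show ‖q (c s ((pinching (B m).p x - Rb) (c s (q (ξ j)))))‖ ^ 2 ≤ _
    refine (norm_q_c_apply hq (hc.proj s) (hδ s) _).trans ?_
    apply mul_le_mul_of_nonneg_left _ hδ0
    calc ‖c s ((pinching (B m).p x - Rb) (c s (q (ξ j))))‖ ^ 2
        ≤ (2 * ‖x‖ * ‖c s (q (ξ j))‖) ^ 2 := by
          gcongr
          refine (proj_norm_le (hc.proj s) _).trans ?_
          refine (ContinuousLinearMap.le_opNorm _ _).trans ?_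
          gcongr
          refine (norm_sub_le _ _).trans ?_
          have := (B m).isPart.pinching_norm_le he x
          linarith
      _ = _ := by ring
  obtain ⟨ch, hch⟩ := greedy_choice lam hl0 hl1 v β hv0 hβ Finset.univ
  let C : FinPart A e := ⟨Σ s, (B (ch s)).ι, inferInstance,
    fun y => c y.1 * (B (ch y.1)).p y.2, hc.sigma hcomm (fun s => (B (ch s)).isPart)⟩
  refine ⟨C, ?_, ?_⟩
  · rintro ⟨s, t⟩
    exact norm_refine_le hq (hc.proj s) ((B (ch s)).isPart.proj t)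
      (hcomm _ (hc.mem s) _ ((B (ch s)).isPart.mem t)) (hδ s)
  · have hpin : pinching C.p x - ∑ m, (lam m : ℂ) • pinching c (pinching (B m).p x) =
        ∑ s, D s (ch s) := by
      have h3 : pinching C.p x = ∑ s, c s * pinching (B (ch s)).p x * c s :=
        pinching_sigma hcomm hc (fun s => (B (ch s)).isPart) x
      have h4 : ∑ m, (lam m : ℂ) • pinching c (pinching (B m).p x) = ∑ s, c s * Rb * c s := by
        simp only [pinching]
        simp_rw [Finset.smul_sum]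
        rw [Finset.sum_comm]
        refine Finset.sum_congr rfl (fun s _ => ?_)
        rw [hRb, Finset.mul_sum, Finset.sum_mul]
        refine Finset.sum_congr rfl (fun m _ => ?_)
        rw [mul_smul_comm, smul_mul_assoc]
        rfl
      rw [h3, h4, ← Finset.sum_sub_distrib]
      refine Finset.sum_congr rfl (fun s _ => ?_)
      simp only [D, mul_sub, sub_mul]
    have h5 : ∑ j, ‖q ((pinching C.p x - ∑ m, (lam m : ℂ) • pinching c (pinching (B m).p x))
        (q (ξ j)))‖ ^ 2 = ‖∑ s, v s (ch s)‖ ^ 2 := by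
      rw [PiLp.norm_sq_eq_of_L2]
      refine Finset.sum_congr rfl (fun j _ => ?_)
      rw [hpin, piLp_sum_apply, sum_apply, map_sum]
    rw [h5]
    refine hch.trans ?_
    show ∑ s, ∑ j, δ * (4 * ‖x‖ ^ 2 * ‖c s (q (ξ j))‖ ^ 2) ≤ _
    rw [Finset.sum_comm, Finset.mul_sum]
    refine Finset.sum_le_sum (fun j _ => ?_)
    rw [← Finset.mul_sum, ← Finset.mul_sum, hc.norm_sq he]
    have h6 : ‖e (q (ξ j))‖ ^ 2 ≤ ‖ξ j‖ ^ 2 := by
      gcongr
      exact (proj_norm_le he _).trans (proj_norm_le hq _)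
    calc δ * (4 * ‖x‖ ^ 2 * ‖e (q (ξ j))‖ ^ 2) ≤ δ * (4 * ‖x‖ ^ 2 * ‖ξ j‖ ^ 2) := by gcongr
      _ = _ := by ring

theorem colors (hcomm : ∀ a ∈ A, ∀ b ∈ A, a * b = b * a) (he : IsStarProjection e)
    {q : H →L[ℂ] H} (hq : IsStarProjection q)
    {ι : Type} [Fintype ι] {c : ι → H →L[ℂ] H} (hc : IsPartition A e c)
    {δ : ℝ} (hδ0 : 0 ≤ δ) (hδ : ∀ s, ‖q * c s * q‖ ≤ δ)
    (x : H →L[ℂ] H) {k : ℕ} (ξ : Fin k → H) (r : ℕ) (hr : 0 < r) :
    ∃ p : Fin r → H →L[ℂ] H, IsPartition A e p ∧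
      ∑ j, ‖q ((pinching p x - (((r : ℝ)⁻¹ : ℝ) : ℂ) • (e * x * e)
        - ((1 - (r : ℝ)⁻¹ : ℝ) : ℂ) • pinching c x) (q (ξ j)))‖ ^ 2
        ≤ 2 * δ * ‖x‖ ^ 2 * ∑ j, ‖ξ j‖ ^ 2 := by
  classical
  haveI : NeZero r := ⟨hr.ne'⟩
  let v : ι → ι → PiLp 2 (fun _ : Fin k => H) := fun s t =>
    WithLp.toLp 2 (fun j => q (c s (x (c t (q (ξ j))))))
  have hcard : Fintype.card (ZMod r) = r := ZMod.card r
  obtain ⟨κ', hκ'⟩ := coloring hcard v
  let eq' : ZMod r ≃ Fin r := Fintype.equivFinOfCardEq hcard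
  let κ : ι → Fin r := fun s => eq' (κ' s)
  have hκκ : ∀ s t, (κ s = κ t) ↔ (κ' s = κ' t) := fun s t => eq'.injective.eq_iff
  let p : Fin r → H →L[ℂ] H := fun l => ∑ s, if κ s = l then c s else 0
  have hpc : ∀ l s, p l * c s = if κ s = l then c s else 0 := by
    intro l s
    simp only [p, Finset.sum_mul, ite_mul, zero_mul]
    rw [Finset.sum_eq_single s]
    · rw [(hc.proj s).isIdempotentElem]
    · intro t _ ht
      rw [hc.orth t s ht]; simp
    · simp
  have hpp : ∀ l l', p l * p l' = if l = l' then p l else 0 := by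
    intro l l'
    have : p l * p l' = ∑ s, if κ s = l' then p l * c s else 0 := by
      conv_lhs => rw [show p l' = ∑ s, if κ s = l' then c s else 0 from rfl]
      rw [Finset.mul_sum]
      refine Finset.sum_congr rfl (fun s _ => ?_)
      split_ifs <;> simp
    rw [this]
    by_cases hl : l = l'
    · subst hl
      rw [if_pos rfl]
      refine Finset.sum_congr rfl (fun s _ => ?_)
      rw [hpc]; split_ifs <;> rfl
    · rw [if_neg hl]
      refine Finset.sum_eq_zero (fun s _ => ?_)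
      rw [hpc]
      split_ifs with h1 h2
      · exact absurd (h2.symm.trans h1) hl
      · rfl
      · rfl
  have hpart : IsPartition A e p := by
    constructor
    · intro l
      refine sum_mem (fun s _ => ?_)
      split_ifs
      · exact hc.mem s
      · exact zero_mem A
    · intro l
      refine ⟨by rw [IsIdempotentElem, hpp, if_pos rfl], ?_⟩
      apply isSelfAdjoint_sum
      intro s _
      split_ifs
      · exact (hc.proj s).isSelfAdjoint
      · exact IsSelfAdjoint.zero _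
    · intro l l' h
      rw [hpp, if_neg h]
    · simp only [p]
      rw [Finset.sum_comm]
      simp [hc.sum]
  refine ⟨p, hpart, ?_⟩
  have hpin : pinching p x = ∑ s, ∑ t, if κ s = κ t then c s * x * c t else 0 := by
    have h1 : pinching p x = ∑ l, ∑ s, ∑ t,
        if κ s = l then (if κ t = l then c s * x * c t else 0) else 0 := by
      rw [pinching]
      refine Finset.sum_congr rfl (fun l _ => ?_)
      simp only [p]
      rw [Finset.sum_mul, Finset.sum_mul]
      refine Finset.sum_congr rfl (fun s _ => ?_)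
      rw [Finset.mul_sum]
      refine Finset.sum_congr rfl (fun t _ => ?_)
      split_ifs <;> simp
    rw [h1, Finset.sum_comm]
    refine Finset.sum_congr rfl (fun s _ => ?_)
    rw [Finset.sum_comm]
    refine Finset.sum_congr rfl (fun t _ => ?_)
    rw [Finset.sum_ite_eq Finset.univ (κ s) (fun l => if κ t = l then c s * x * c t else 0)]
    simp only [Finset.mem_univ, if_true, eq_comm]
  have hexe : e * x * e = ∑ s, ∑ t, c s * x * c t := by
    rw [← hc.sum, Finset.sum_mul, Finset.sum_mul]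
    refine Finset.sum_congr rfl (fun s _ => ?_)
    rw [Finset.mul_sum]
  have hdiag : ∀ f : ι → ι → H →L[ℂ] H, ∑ s, ∑ t, f s t =
      ∑ s, f s s + ∑ y ∈ (Finset.univ : Finset ι).offDiag, f y.1 y.2 := by
    intro f
    rw [← Fintype.sum_prod_type' f]
    have h2 : (Finset.univ : Finset (ι × ι)) =
        (Finset.univ : Finset ι).diag ∪ (Finset.univ : Finset ι).offDiag := by
      rw [Finset.diag_union_offDiag]; rfl
    rw [h2, Finset.sum_union (Finset.disjoint_diag_offDiag _), Finset.sum_diag]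
  have hmain : pinching p x - (((r : ℝ)⁻¹ : ℝ) : ℂ) • (e * x * e)
        - ((1 - (r : ℝ)⁻¹ : ℝ) : ℂ) • pinching c x =
      ∑ y ∈ (Finset.univ : Finset ι).offDiag,
        ((theta r κ' y.1 y.2 : ℝ) : ℂ) • (c y.1 * x * c y.2) := by
    rw [hpin, hexe, hdiag, hdiag, pinching]
    simp only [if_true]
    rw [smul_add]
    have h3 : ∀ y : ι × ι, ((theta r κ' y.1 y.2 : ℝ) : ℂ) • (c y.1 * x * c y.2) =
        (if κ y.1 = κ y.2 then c y.1 * x * c y.2 else 0) -
          (((r : ℝ)⁻¹ : ℝ) : ℂ) • (c y.1 * x * c y.2) := by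
      intro y
      unfold theta
      simp only [hκκ]
      split_ifs with h
      · push_cast
        rw [sub_smul, one_smul, one_div]
      · push_cast
        rw [sub_smul, zero_smul, one_div]
    simp_rw [h3]
    rw [Finset.sum_sub_distrib, ← Finset.smul_sum]
    push_cast
    rw [sub_smul, one_smul]
    abel
  have h5 : ∑ j, ‖q ((pinching p x - (((r : ℝ)⁻¹ : ℝ) : ℂ) • (e * x * e)
        - ((1 - (r : ℝ)⁻¹ : ℝ) : ℂ) • pinching c x) (q (ξ j)))‖ ^ 2 =
      ‖∑ y ∈ (Finset.univ : Finset ι).offDiag,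
        ((theta r κ' y.1 y.2 : ℝ) : ℂ) • v y.1 y.2‖ ^ 2 := by
    rw [PiLp.norm_sq_eq_of_L2]
    refine Finset.sum_congr rfl (fun j _ => ?_)
    rw [hmain, piLp_sum_apply, sum_apply, map_sum]
    congr 2
    refine Finset.sum_congr rfl (fun y _ => ?_)
    rw [smul_apply, map_smul]
    rfl
  rw [h5]
  refine hκ'.trans ?_
  have h6 : ∑ s, ∑ t, ‖v s t‖ ^ 2 ≤ δ * ‖x‖ ^ 2 * ∑ j, ‖ξ j‖ ^ 2 := by
    calc ∑ s, ∑ t, ‖v s t‖ ^ 2 = ∑ j, ∑ t, ∑ s, ‖q (c s (x (c t (q (ξ j)))))‖ ^ 2 := by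
          simp_rw [PiLp.norm_sq_eq_of_L2]
          rw [Finset.sum_comm]
          simp_rw [Finset.sum_comm (s := (Finset.univ : Finset ι)) (t := (Finset.univ : Finset (Fin k)))]
          rw [Finset.sum_comm]
      _ ≤ ∑ j, ∑ t, δ * (‖x‖ ^ 2 * ‖c t (q (ξ j))‖ ^ 2) := by
          refine Finset.sum_le_sum (fun j _ => Finset.sum_le_sum (fun t _ => ?_))
          calc ∑ s, ‖q (c s (x (c t (q (ξ j)))))‖ ^ 2
              ≤ ∑ s, δ * ‖c s (x (c t (q (ξ j))))‖ ^ 2 :=
                Finset.sum_le_sum (fun s _ => norm_q_c_apply hq (hc.proj s) (hδ s) _)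
            _ = δ * ‖e (x (c t (q (ξ j))))‖ ^ 2 := by
                rw [← Finset.mul_sum, hc.norm_sq he]
            _ ≤ δ * (‖x‖ * ‖c t (q (ξ j))‖) ^ 2 := by
                gcongr
                exact (proj_norm_le he _).trans (ContinuousLinearMap.le_opNorm _ _)
            _ = _ := by ring
      _ = ∑ j, δ * (‖x‖ ^ 2 * ‖e (q (ξ j))‖ ^ 2) := by
          refine Finset.sum_congr rfl (fun j _ => ?_)
          rw [← Finset.mul_sum, ← Finset.mul_sum, hc.norm_sq he]
      _ ≤ ∑ j, δ * (‖x‖ ^ 2 * ‖ξ j‖ ^ 2) := by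
          refine Finset.sum_le_sum (fun j _ => ?_)
          gcongr
          exact (proj_norm_le he _).trans (proj_norm_le hq _)
      _ = _ := by
          rw [Finset.mul_sum]
          refine Finset.sum_congr rfl (fun j _ => ?_)
          ring
  linarith

end Vale.Agent.P078
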