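import Vale.Agent.P078.Upper
import Vale.Agent.P078.DefsCorner

open scoped InnerProductSpace Topology ComplexOrder
open Filter

namespace Vale.Agent.P078

universe u

variable {H : Type u} [NormedAddCommGroup H] [InnerProductSpace ℂ H] [CompleteSpace H]
variable {A : StarSubalgebra ℂ (H →L[ℂ] H)} {M : VonNeumannAlgebra H}

/-- null projections -/
def IsNull (M : VonNeumannAlgebra H) (A : StarSubalgebra ℂ (H →L[ℂ] H)) (g : H →L[ℂ] H) : Prop :=
  g ∈ A ∧ IsStarProjection g ∧ ∀ ψ, IsCentralised M A ψ → ψ g = 0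

theorem IsCentralised.mono_null {ψ : (H →L[ℂ] H) →ₗ[ℂ] ℂ} (hψ : IsCentralised M A ψ)
    (hA : IsMASA M A) {g h : H →L[ℂ] H} (hg : g ∈ A) (hgp : IsStarProjection g)
    (hh : h ∈ A) (hhp : IsStarProjection h) (hgh : g * h = g) (h0 : ψ h = 0) : ψ g = 0 := by
  have hgM := hA.subset g hg
  have hhM := hA.subset h hh
  have h1 : 0 ≤ ψ g := by
    have := hψ.pos g hgM
    rwa [hgp.isSelfAdjoint.star_eq, hgp.isIdempotentElem] at this
  have hhg : IsStarProjection (h - g) := hgp.sub_of_mul_eq_left hhp hgh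
  have h2 : 0 ≤ ψ (h - g) := by
    have := hψ.pos (h - g) (sub_mem hhM hgM)
    rwa [hhg.isSelfAdjoint.star_eq, hhg.isIdempotentElem] at this
  rw [map_sub, h0, zero_sub] at h2
  exact le_antisymm (neg_nonneg.mp h2) h1

theorem IsNull.join (hA : IsMASA M A) {g h : H →L[ℂ] H} (hg : IsNull M A g) (hh : IsNull M A h) :
    IsNull M A (g + h - g * h) := by
  obtain ⟨g1, g2, g3⟩ := hg
  obtain ⟨h1, h2, h3⟩ := hh
  have hc : g * h = h * g := hA.comm g g1 h h1
  refine ⟨sub_mem (add_mem g1 h1) (mul_mem g1 h1), IsStarProjection.add_sub_mul_of_commute hc g2 h2, ?_⟩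
  intro ψ hψ
  rw [map_sub, map_add, g3 ψ hψ, h3 ψ hψ]
  have hgh : IsStarProjection (g * h) := g2.mul h2 hc
  rw [hψ.mono_null hA (mul_mem g1 h1) hgh h1 h2 (by rw [mul_assoc, h2.isIdempotentElem]) (h3 ψ hψ)]
  simp

theorem exists_null_ub (hA : IsMASA M A) (G : Finset {g : H →L[ℂ] H // IsNull M A g}) :
    ∃ s : {g : H →L[ℂ] H // IsNull M A g}, ∀ g ∈ G, s.1 * g.1 = g.1 := by
  classical
  induction G using Finset.induction_on with
  | empty =>
    exact ⟨⟨0, zero_mem A, IsStarProjection.zero _, fun ψ _ => map_zero ψ⟩, by simp⟩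
  | insert g G hg ih =>
    obtain ⟨s, hs⟩ := ih
    refine ⟨⟨g.1 + s.1 - g.1 * s.1, g.2.join hA s.2⟩, ?_⟩
    have hc : g.1 * s.1 = s.1 * g.1 := hA.comm _ g.2.1 _ s.2.1
    intro g' hg'
    rw [Finset.mem_insert] at hg'
    rcases hg' with rfl | hg'
    · show (g'.1 + s.1 - g'.1 * s.1) * g'.1 = g'.1
      rw [sub_mul, add_mul, g'.2.2.1.isIdempotentElem, hc, mul_assoc,
        g'.2.2.1.isIdempotentElem]
      abel
    · show (g.1 + s.1 - g.1 * s.1) * g'.1 = g'.1
      have h1 := hs g' hg'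
      rw [sub_mul, add_mul, h1, mul_assoc, h1]
      abel

theorem exists_max_null (hA : IsMASA M A) :
    ∃ T : H →L[ℂ] H, IsNull M A T ∧ ∀ g, IsNull M A g → T * g = g := by
  classical
  let Z := {g : H →L[ℂ] H // IsNull M A g}
  let I := Finset Z
  let U : Ultrafilter I := Ultrafilter.of atTop
  have hU : (U : Filter I) ≤ atTop := Ultrafilter.of_le _
  choose s hs using fun G : I => exists_null_ub hA G
  obtain ⟨T, hT1, hT⟩ := exists_wot_limit U (fun G => (s G).1) 1
    (fun G => proj_opNorm_le (s G).2.2.1)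
  have hTsa : IsSelfAdjoint T :=
    wot_limit_isSelfAdjoint U _ T hT (fun G => (s G).2.2.1.isSelfAdjoint)
  have hTM : T ∈ M := by
    apply mem_of_commute_commutant
    intro g hg
    rw [VonNeumannAlgebra.mem_commutant_iff] at hg
    exact wot_limit_commute U _ T g hT
      (Filter.Eventually.of_forall (fun G => (hg _ (hA.subset _ (s G).2.1)).symm))
  have hTA : T ∈ A := by
    rw [hA.mem_iff]
    exact ⟨hTM, fun a ha => wot_limit_commute U _ T a hT
      (Filter.Eventually.of_forall (fun G => hA.comm a ha _ (s G).2.1))⟩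
  have hTg : ∀ g : Z, T * g.1 = g.1 := by
    intro g
    ext v
    apply ext_inner_right ℂ
    intro w
    have h1 := hT (g.1 v) w
    have h2 : ∀ᶠ G in (U : Filter I), ({g} : I) ≤ G := hU (eventually_ge_atTop _)
    have h3 : Tendsto (fun G => ⟪(s G).1 (g.1 v), w⟫_ℂ) U (𝓝 ⟪g.1 v, w⟫_ℂ) := by
      apply tendsto_const_nhds.congr'
      filter_upwards [h2] with G hG
      have h4 := hs G g (hG (Finset.mem_singleton_self _))
      have h5 : (s G).1 (g.1 v) = g.1 v := congrArg (fun S : H →L[ℂ] H => S v) h4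
      rw [h5]
    exact tendsto_nhds_unique h1 h3
  have hTT : T * T = T := by
    ext v
    apply ext_inner_right ℂ
    intro w
    have h1 := hT v (T w)
    have h2 := hT v w
    have h3 : Tendsto (fun G => ⟪(s G).1 v, T w⟫_ℂ) U (𝓝 ⟪T v, w⟫_ℂ) := by
      refine h2.congr (fun G => ?_)
      have h5 : T ((s G).1 v) = (s G).1 v := congrArg (fun S : H →L[ℂ] H => S v) (hTg (s G))
      rw [← sa_inner hTsa, h5]
    have h4 := tendsto_nhds_unique h1 h3
    show ⟪T (T v), w⟫_ℂ = _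
    rw [sa_inner hTsa, h4]
  refine ⟨T, ⟨hTA, ⟨hTT, hTsa⟩, ?_⟩, fun g hg => hTg ⟨g, hg⟩⟩
  intro ψ hψ
  rw [← norm_le_zero_iff]
  apply le_of_forall_pos_le_add
  intro ε hε
  obtain ⟨n, ξ, η, hN⟩ := hψ.normal (ε / 2) (by positivity)
  have h1 : ∀ G, ‖∑ i, ⟪η i, (s G).1 (ξ i)⟫_ℂ‖ ≤ ε / 2 := by
    intro G
    have h2 := hN (s G).1 (hA.subset _ (s G).2.1)
    have h3 : ψ (s G).1 = 0 := (s G).2.2.2 ψ hψ
    rw [h3, zero_sub, norm_neg] at h2
    have h4 := proj_opNorm_le (s G).2.2.1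
    calc _ ≤ ε / 2 * ‖(s G).1‖ := h2
      _ ≤ ε / 2 * 1 := by gcongr
      _ = ε / 2 := mul_one _
  have h2 : Tendsto (fun G => ∑ i, ⟪η i, (s G).1 (ξ i)⟫_ℂ) U (𝓝 (∑ i, ⟪η i, T (ξ i)⟫_ℂ)) := by
    apply tendsto_finsetSum
    intro i _
    have h3 := hT (η i) (ξ i)
    have h4 : ∀ (S : H →L[ℂ] H), IsSelfAdjoint S → ⟪η i, S (ξ i)⟫_ℂ = ⟪S (η i), ξ i⟫_ℂ :=
      fun S hS => (sa_inner hS _ _).symm
    rw [h4 T hTsa]
    refine h3.congr (fun G => ?_)
    rw [h4 _ (s G).2.2.1.isSelfAdjoint]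
  have h3 : ‖∑ i, ⟪η i, T (ξ i)⟫_ℂ‖ ≤ ε / 2 :=
    le_of_tendsto (h2.norm) (Filter.Eventually.of_forall h1)
  have h4 := hN T hTM
  have h5 : ‖ψ T‖ ≤ ‖ψ T - ∑ i, ⟪η i, T (ξ i)⟫_ℂ‖ + ‖∑ i, ⟪η i, T (ξ i)⟫_ℂ‖ := by
    have := norm_add_le (ψ T - ∑ i, ⟪η i, T (ξ i)⟫_ℂ) (∑ i, ⟪η i, T (ξ i)⟫_ℂ)
    rwa [sub_add_cancel] at this
  have h6 : ε / 2 * ‖T‖ ≤ ε / 2 * 1 := by gcongr
  linarith

theorem block_norm_le {z y1 y2 : H →L[ℂ] H} (hz : IsStarProjection z)
    (h1 : z * y1 = y1) (h1' : y1 * z = y1) (h2 : z * y2 = 0) (h2' : y2 * z = 0)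
    {c : ℝ} (hc1 : ‖y1‖ ≤ c) (hc2 : ‖y2‖ ≤ c) : ‖y1 + y2‖ ≤ c := by
  have hc : 0 ≤ c := (norm_nonneg _).trans hc1
  apply ContinuousLinearMap.opNorm_le_bound _ hc
  intro v
  have hpy : ∀ w : H, ‖z w‖ ^ 2 + ‖w - z w‖ ^ 2 = ‖w‖ ^ 2 := by
    intro w
    have e1 := proj_norm_sq hz w
    have e2 := proj_norm_sq hz.one_sub w
    have e3 : (1 - z) w = w - z w := rfl
    rw [e3, inner_sub_left, Complex.sub_re, norm_sq_re_inner] at e2
    linarith
  have e1 : z ((y1 + y2) v) = y1 (z v) := by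
    have : z * (y1 + y2) = y1 * z := by rw [mul_add, h1, h2, add_zero, h1']
    exact congrArg (fun S : H →L[ℂ] H => S v) this
  have e2 : (y1 + y2) v - z ((y1 + y2) v) = y2 (v - z v) := by
    have : (y1 + y2) - z * (y1 + y2) = y2 * (1 - z) := by
      rw [mul_add, h1, h2, mul_sub, h2', mul_one]; abel
    exact congrArg (fun S : H →L[ℂ] H => S v) this
  apply le_of_sq_le_sq _ (by positivity)
  rw [← hpy ((y1 + y2) v), e2, e1]
  calc ‖y1 (z v)‖ ^ 2 + ‖y2 (v - z v)‖ ^ 2
      ≤ (c * ‖z v‖) ^ 2 + (c * ‖v - z v‖) ^ 2 := by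
        gcongr
        · exact y1.le_of_opNorm_le hc1 _
        · exact y2.le_of_opNorm_le hc2 _
    _ = c ^ 2 * (‖z v‖ ^ 2 + ‖v - z v‖ ^ 2) := by ring
    _ = (c * ‖v‖) ^ 2 := by rw [hpy]; ring

theorem soPavable_add (hA : IsMASA M A) {z : H →L[ℂ] H} (hzA : z ∈ A) (hz : IsStarProjection z)
    {x : H →L[ℂ] H} {ε : ℝ} (hε : 0 ≤ ε) {r1 r2 : ℕ}
    (h1 : SoPavableOn M A z (z * x * z) ε r1)
    (h2 : SoPavableOn M A (1 - z) ((1 - z) * x * (1 - z)) ε r2) :
    SoPavable M A x ε (r1 + r2) := by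
  intro F δ hδ
  obtain ⟨p1, a1, q1, P1, a1A, a1s, a1z, a1n, q1M, q1p, q1z, q1F, n1⟩ := h1 F (δ / 2) (by positivity)
  obtain ⟨p2, a2, q2, P2, a2A, a2s, a2z, a2n, q2M, q2p, q2z, q2F, n2⟩ := h2 F (δ / 2) (by positivity)
  have hz' := hz.one_sub
  have hzz : z * z = z := hz.isIdempotentElem
  have hz1 : z * (1 - z) = 0 := by rw [mul_sub, hzz, mul_one, sub_self]
  have hz2 : (1 - z) * z = 0 := by rw [sub_mul, hzz, one_mul, sub_self]
  have zq1 : z * q1 = q1 := by
    have := congrArg star q1z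
    rwa [star_mul, q1p.isSelfAdjoint.star_eq, hz.isSelfAdjoint.star_eq] at this
  have zq2' : (1 - z) * q2 = q2 := by
    have := congrArg star q2z
    rwa [star_mul, q2p.isSelfAdjoint.star_eq, hz'.isSelfAdjoint.star_eq] at this
  have zq2 : z * q2 = 0 := by rw [← zq2', ← mul_assoc, hz1, zero_mul]
  have q2z' : q2 * z = 0 := by rw [← q2z, mul_assoc, hz2, mul_zero]
  have hq12 : q1 * q2 = 0 := by rw [← q1z, mul_assoc, zq2, mul_zero]
  have hzp1 : ∀ i, z * p1 i = p1 i := fun i => (P1.mul_eq i).1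
  have hp1z : ∀ i, p1 i * z = p1 i := fun i => (P1.mul_eq i).2
  have hzp2 : ∀ i, z * p2 i = 0 := fun i => by
    rw [← (P2.mul_eq i).1, ← mul_assoc, hz1, zero_mul]
  have hp2z : ∀ i, p2 i * z = 0 := fun i => by
    rw [← (P2.mul_eq i).2, mul_assoc, hz2, mul_zero]
  set y1 := pinching p1 (z * x * z) - a1 with hy1
  set y2 := pinching p2 ((1 - z) * x * (1 - z)) - a2 with hy2
  have za1 : z * a1 = a1 := by rw [hA.comm z hzA a1 a1A]; exact a1z
  have za2' : (1 - z) * a2 = a2 := by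
    rw [hA.comm (1 - z) (sub_mem (one_mem A) hzA) a2 a2A]; exact a2z
  have za2 : z * a2 = 0 := by rw [← za2', ← mul_assoc, hz1, zero_mul]
  have a2z' : a2 * z = 0 := by rw [← a2z, mul_assoc, hz2, mul_zero]
  have zy1 : z * y1 = y1 := by
    rw [hy1, mul_sub, za1, pinching, Finset.mul_sum]
    congr 1
    refine Finset.sum_congr rfl (fun i _ => ?_)
    rw [← mul_assoc, ← mul_assoc, hzp1]
  have y1z : y1 * z = y1 := by
    rw [hy1, sub_mul, a1z, pinching, Finset.sum_mul]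
    congr 1
    refine Finset.sum_congr rfl (fun i _ => ?_)
    rw [mul_assoc, hp1z]
  have zy2 : z * y2 = 0 := by
    rw [hy2, mul_sub, za2, pinching, Finset.mul_sum, sub_zero]
    refine Finset.sum_eq_zero (fun i _ => ?_)
    rw [← mul_assoc, ← mul_assoc, hzp2]; simp
  have y2z : y2 * z = 0 := by
    rw [hy2, sub_mul, a2z', pinching, Finset.sum_mul, sub_zero]
    refine Finset.sum_eq_zero (fun i _ => ?_)
    rw [mul_assoc, hp2z]; simp
  refine ⟨Fin.append p1 p2, a1 + a2, q1 + q2, ?_, add_mem a1A a2A, a1s.add a2s, ?_,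
    add_mem q1M q2M, q1p.add q2p hq12, ?_, ?_⟩
  · constructor
    · intro i
      refine Fin.addCases (fun i => ?_) (fun i => ?_) i
      · rw [Fin.append_left]; exact P1.mem i
      · rw [Fin.append_right]; exact P2.mem i
    · intro i
      refine Fin.addCases (fun i => ?_) (fun i => ?_) i
      · rw [Fin.append_left]; exact P1.proj i
      · rw [Fin.append_right]; exact P2.proj i
    · intro i j
      refine Fin.addCases (fun i => ?_) (fun i => ?_) i
      · refine Fin.addCases (fun j => ?_) (fun j => ?_) j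
        · intro h
          rw [Fin.append_left, Fin.append_left]
          exact P1.orth i j (fun h' => h (by rw [h']))
        · intro _
          rw [Fin.append_left, Fin.append_right, ← hp1z i, mul_assoc, hzp2, mul_zero]
      · refine Fin.addCases (fun j => ?_) (fun j => ?_) j
        · intro _
          rw [Fin.append_left, Fin.append_right, ← hzp1 j, ← mul_assoc, hp2z, zero_mul]
        · intro h
          rw [Fin.append_right, Fin.append_right]
          exact P2.orth i j (fun h' => h (by rw [h']))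
    · rw [Fin.sum_univ_add]
      simp only [Fin.append_left, Fin.append_right]
      rw [P1.sum, P2.sum]
      abel
  · apply block_norm_le hz za1 a1z za2 a2z'
    · refine a1n.trans (conj_norm_le hz x)
    · refine a2n.trans (conj_norm_le hz' x)
  · intro ξ hξ
    have e1 : (1 - (q1 + q2)) ξ = (z - q1) ξ + ((1 - z) - q2) ξ := by
      have : (1 : H →L[ℂ] H) - (q1 + q2) = (z - q1) + ((1 - z) - q2) := by abel
      rw [this]; rfl
    rw [e1]
    calc _ ≤ ‖(z - q1) ξ‖ + ‖((1 - z) - q2) ξ‖ := norm_add_le _ _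
      _ < δ / 2 + δ / 2 := add_lt_add (q1F ξ hξ) (q2F ξ hξ)
      _ = δ := by ring
  · have e1 : pinching (Fin.append p1 p2) x - (a1 + a2) = y1 + y2 := by
      have e2 : pinching (Fin.append p1 p2) x = pinching p1 (z * x * z) +
          pinching p2 ((1 - z) * x * (1 - z)) := by
        rw [pinching, Fin.sum_univ_add]
        simp only [Fin.append_left, Fin.append_right]
        congr 1
        · rw [pinching]
          refine Finset.sum_congr rfl (fun i _ => ?_)
          calc p1 i * x * p1 i = (p1 i * z) * x * (z * p1 i) := by rw [hzp1, hp1z]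
            _ = _ := by simp only [mul_assoc]
        · rw [pinching]
          refine Finset.sum_congr rfl (fun i _ => ?_)
          calc p2 i * x * p2 i = (p2 i * (1 - z)) * x * ((1 - z) * p2 i) := by
                rw [(P2.mul_eq i).1, (P2.mul_eq i).2]
            _ = _ := by simp only [mul_assoc]
      rw [e2, hy1, hy2]; abel
    have q1y2 : q1 * y2 = 0 := by rw [← q1z, mul_assoc, zy2, mul_zero]
    have q2y1 : q2 * y1 = 0 := by rw [← zy1, ← mul_assoc, q2z', zero_mul]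
    have y1q2 : y1 * q2 = 0 := by rw [← y1z, mul_assoc, zq2, mul_zero]
    have y2q1 : y2 * q1 = 0 := by rw [← zq1, ← mul_assoc, y2z, zero_mul]
    have e3 : (q1 + q2) * (y1 + y2) * (q1 + q2) = q1 * y1 * q1 + q2 * y2 * q2 := by
      have e4 : (q1 + q2) * (y1 + y2) = q1 * y1 + q2 * y2 := by
        rw [add_mul, mul_add, mul_add, q1y2, q2y1, add_zero, zero_add]
      rw [e4, add_mul, mul_add, mul_add, mul_assoc q1 y1 q2, y1q2, mul_assoc q2 y2 q1, y2q1]
      simp
    rw [e1, e3]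
    apply block_norm_le hz
    · rw [← mul_assoc, ← mul_assoc, zq1]
    · rw [mul_assoc, q1z]
    · rw [← mul_assoc, ← mul_assoc, zq2]; simp
    · rw [mul_assoc, q2z']; simp
    · exact n1.trans (mul_le_mul_of_nonneg_left (conj_norm_le hz x) hε)
    · exact n2.trans (mul_le_mul_of_nonneg_left (conj_norm_le hz' x) hε)

theorem pavingNumber_le_add (hA : IsMASA M A) {z : H →L[ℂ] H} (hzA : z ∈ A)
    (hz : IsStarProjection z) {ε : ℝ} (hε : 0 < ε)
    (hinf : Infinitesimal M A (1 - z)) :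
    pavingNumber M A ε ≤ cornerPavingNumber M A z ε + (⌊1 / ε⌋₊ + 1) := by
  rw [← tsub_le_iff_right]
  refine le_iInf₂ (fun r hr => ?_)
  rw [tsub_le_iff_right]
  have h := pavingNumber_le (M := M) (A := A) (ε := ε) (r := r + (⌊1 / ε⌋₊ + 1)) (by omega)
    (fun x hx hxs => soPavable_add hA hzA hz hε.le
      (hr.2 _ (mul_mem (mul_mem (hA.subset z hzA) hx) (hA.subset z hzA))
        (conj_sa hz.isSelfAdjoint hxs) (by
          have hzz : z * z = z := hz.isIdempotentElem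
          rw [← mul_assoc, ← mul_assoc, hzz, mul_assoc, mul_assoc, hzz, mul_assoc]))
      (soPavableOn_of_infinitesimal hA (sub_mem (one_mem A) hzA) hz.one_sub hinf _
        (mul_mem (mul_mem (hA.subset _ (sub_mem (one_mem A) hzA)) hx)
          (hA.subset _ (sub_mem (one_mem A) hzA)))
        (conj_sa hz.one_sub.isSelfAdjoint hxs) ε _ (floor_mul hε)))
  simpa using h

end Vale.Agent.P078
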