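import Vale.Agent.P078.Ultra
import Vale.Agent.P078.Combi

open scoped InnerProductSpace Topology
open Filter

namespace Vale.Agent.P078

universe u

variable {H : Type u} [NormedAddCommGroup H] [InnerProductSpace ℂ H] [CompleteSpace H]
variable {A : StarSubalgebra ℂ (H →L[ℂ] H)} {e : H →L[ℂ] H}

theorem IsPartition.sigma (hcomm : ∀ a ∈ A, ∀ b ∈ A, a * b = b * a)
    {ι : Type} [Fintype ι] {c : ι → H →L[ℂ] H} (hc : IsPartition A e c)
    {τ : ι → Type} [∀ s, Fintype (τ s)] {b : ∀ s, τ s → H →L[ℂ] H}
    (hb : ∀ s, IsPartition A e (b s)) :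
    IsPartition A e (fun x : (Σ s, τ s) => c x.1 * b x.1 x.2) := by
  constructor
  · rintro ⟨s, t⟩; exact mul_mem (hc.mem s) ((hb s).mem t)
  · rintro ⟨s, t⟩
    exact (hc.proj s).mul ((hb s).proj t) (hcomm _ (hc.mem s) _ ((hb s).mem t))
  · rintro ⟨s, t⟩ ⟨s', t'⟩ hne
    show c s * b s t * (c s' * b s' t') = 0
    by_cases h : s = s'
    · subst h
      have ht : t ≠ t' := by
        rintro rfl; exact hne rfl
      calc c s * b s t * (c s * b s t') = c s * (b s t * (b s t' * c s)) := by
            rw [hcomm _ (hc.mem s) _ ((hb s).mem t')]; simp only [mul_assoc]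
        _ = 0 := by rw [← mul_assoc (b s t), (hb s).orth t t' ht]; simp
    · calc c s * b s t * (c s' * b s' t') = b s t * ((c s * c s') * b s' t') := by
            rw [hcomm _ (hc.mem s) _ ((hb s).mem t)]; simp only [mul_assoc]
        _ = 0 := by rw [hc.orth s s' h]; simp
  · rw [Fintype.sum_sigma]
    calc ∑ s, ∑ t, c s * b s t = ∑ s, c s := by
          refine Finset.sum_congr rfl (fun s _ => ?_)
          rw [← Finset.mul_sum, (hb s).sum, (hc.mul_eq s).2]
      _ = e := hc.sum

theorem pinching_sigma (hcomm : ∀ a ∈ A, ∀ b ∈ A, a * b = b * a)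
    {ι : Type} [Fintype ι] {c : ι → H →L[ℂ] H} (hc : IsPartition A e c)
    {τ : ι → Type} [∀ s, Fintype (τ s)] {b : ∀ s, τ s → H →L[ℂ] H}
    (hb : ∀ s, IsPartition A e (b s)) (x : H →L[ℂ] H) :
    pinching (fun x : (Σ s, τ s) => c x.1 * b x.1 x.2) x =
      ∑ s, c s * pinching (b s) x * c s := by
  rw [pinching, Fintype.sum_sigma]
  refine Finset.sum_congr rfl (fun s _ => ?_)
  rw [pinching, Finset.mul_sum, Finset.sum_mul]
  refine Finset.sum_congr rfl (fun t _ => ?_)
  show c s * b s t * x * (c s * b s t) = c s * (b s t * x * b s t) * c s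
  rw [hcomm _ (hc.mem s) _ ((hb s).mem t)]
  nth_rewrite 1 [← hcomm _ (hc.mem s) _ ((hb s).mem t)]
  simp only [mul_assoc]

/-- bundled finite partitions -/
structure FinPart (A : StarSubalgebra ℂ (H →L[ℂ] H)) (e : H →L[ℂ] H) where
  ι : Type
  fin : Fintype ι
  p : ι → H →L[ℂ] H
  isPart : IsPartition A e p

attribute [instance] FinPart.fin

theorem exists_resolving (hcomm : ∀ a ∈ A, ∀ b ∈ A, a * b = b * a) (heA : e ∈ A)
    (he : IsStarProjection e) (G : Finset {g : H →L[ℂ] H // g ∈ A ∧ IsStarProjection g}) :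
    ∃ B : FinPart A e, ∀ g ∈ G, ∀ i, B.p i * g.1 = B.p i ∨ B.p i * g.1 = 0 := by
  classical
  induction G using Finset.induction_on with
  | empty =>
    refine ⟨⟨Unit, inferInstance, fun _ => e, ⟨fun _ => heA, fun _ => he, ?_, by simp⟩⟩, by simp⟩
    intro i j h; exact absurd (Subsingleton.elim i j) h
  | insert g G hg ih =>
    obtain ⟨B, hB⟩ := ih
    have hgA := g.2.1
    have hgP := g.2.2
    have hge : g.1 * e = e * g.1 := hcomm _ hgA _ heA
    have hee : e * e = e := he.isIdempotentElem
    have hgg : g.1 * g.1 = g.1 := hgP.isIdempotentElem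
    let b : Bool → H →L[ℂ] H := fun t => if t then g.1 * e else e - g.1 * e
    have hgep : IsStarProjection (g.1 * e) := hgP.mul he hge
    have hbp : IsPartition A e b := by
      constructor
      · intro t; cases t
        · exact sub_mem heA (mul_mem hgA heA)
        · exact mul_mem hgA heA
      · intro t; cases t
        · show IsStarProjection (e - g.1 * e)
          apply hgep.sub_of_mul_eq_left he
          rw [mul_assoc, hee]
        · exact hgep
      · intro t t' h
        have h1 : g.1 * e * (g.1 * e) = g.1 * e := hgep.isIdempotentElem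
        have h2 : e * (g.1 * e) = g.1 * e := by rw [← mul_assoc, ← hge, mul_assoc, hee]
        have h3 : g.1 * e * e = g.1 * e := by rw [mul_assoc, hee]
        cases t <;> cases t'
        · exact absurd rfl h
        · show (e - g.1 * e) * (g.1 * e) = 0
          rw [sub_mul, h1, h2, sub_self]
        · show (g.1 * e) * (e - g.1 * e) = 0
          rw [mul_sub, h1, h3, sub_self]
        · exact absurd rfl h
      · show ∑ t, b t = e
        simp [b]
    refine ⟨⟨Σ _ : B.ι, Bool, inferInstance, fun x => B.p x.1 * b x.2,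
      B.isPart.sigma hcomm (fun _ => hbp)⟩, ?_⟩
    intro g' hg' ⟨i, t⟩
    show B.p i * b t * g'.1 = B.p i * b t ∨ B.p i * b t * g'.1 = 0
    rw [Finset.mem_insert] at hg'
    rcases hg' with rfl | hg'
    · cases t
      · right
        show B.p i * (e - g'.1 * e) * g'.1 = 0
        have : (e - g'.1 * e) * g'.1 = 0 := by
          rw [sub_mul, mul_assoc, ← hge, ← mul_assoc, hgg, sub_self]
        rw [mul_assoc, this, mul_zero]
      · left
        show B.p i * (g'.1 * e) * g'.1 = B.p i * (g'.1 * e)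
        have : (g'.1 * e) * g'.1 = g'.1 * e := by
          rw [mul_assoc, ← hge, ← mul_assoc, hgg]
        rw [mul_assoc, this]
    · have h5 : b t * g'.1 = g'.1 * b t := hcomm _ (hbp.mem t) _ g'.2.1
      rw [mul_assoc, h5, ← mul_assoc]
      rcases hB g' hg' i with h | h
      · left; rw [h]
      · right; rw [h, zero_mul]

theorem exists_diag_limit {M : VonNeumannAlgebra H} (hA : IsMASA M A) (heA : e ∈ A)
    (he : IsStarProjection e) (x : H →L[ℂ] H) (hx : x ∈ M) :
    ∃ (I : Type u) (U : Ultrafilter I) (B : I → FinPart A e) (a : H →L[ℂ] H),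
      a ∈ A ∧ ‖a‖ ≤ ‖x‖ ∧ (IsSelfAdjoint x → IsSelfAdjoint a) ∧ a * e = a ∧
      ∀ v w, Tendsto (fun i => ⟪pinching (B i).p x v, w⟫_ℂ) U (𝓝 ⟪a v, w⟫_ℂ) := by
  classical
  have hcomm := hA.comm
  let I := Finset {g : H →L[ℂ] H // g ∈ A ∧ IsStarProjection g}
  let U : Ultrafilter I := Ultrafilter.of atTop
  have hU : (U : Filter I) ≤ atTop := Ultrafilter.of_le _
  choose B hB using fun G : I => exists_resolving hcomm heA he G
  obtain ⟨a, ha, hconv⟩ := exists_wot_limit U (fun i => pinching (B i).p x) ‖x‖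
    (fun i => (B i).isPart.pinching_norm_le he x)
  have hcommg : ∀ g ∈ A, IsStarProjection g → g * a = a * g := by
    intro g hgA hg
    apply wot_limit_commute U _ a g hconv
    have h1 : ∀ᶠ i in (atTop : Filter I), ({⟨g, hgA, hg⟩} : I) ≤ i :=
      eventually_ge_atTop _
    filter_upwards [hU h1] with i hi
    have hgi : (⟨g, hgA, hg⟩ : {g : H →L[ℂ] H // g ∈ A ∧ IsStarProjection g}) ∈ i :=
      hi (Finset.mem_singleton_self _)
    rw [pinching, Finset.mul_sum, Finset.sum_mul]
    refine Finset.sum_congr rfl (fun j _ => ?_)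
    have h2 := hB i _ hgi j
    have h3 : g * (B i).p j = (B i).p j * g := hcomm _ hgA _ ((B i).isPart.mem j)
    show g * ((B i).p j * x * (B i).p j) = (B i).p j * x * (B i).p j * g
    rcases h2 with h2 | h2
    · have h2' : (B i).p j * g = (B i).p j := h2
      rw [mul_assoc _ _ g, h2', ← mul_assoc, ← mul_assoc, h3, h2']
    · have h2' : (B i).p j * g = 0 := h2
      rw [mul_assoc _ _ g, h2', ← mul_assoc, ← mul_assoc, h3, h2']
      simp
  have haM : a ∈ M := by
    apply mem_of_commute_commutant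
    intro g hg
    apply wot_limit_commute U _ a g hconv
    apply Filter.Eventually.of_forall
    intro i
    have h4 : pinching (B i).p x ∈ M :=
      pinching_mem (fun j => hA.subset _ ((B i).isPart.mem j)) hx
    rw [VonNeumannAlgebra.mem_commutant_iff] at hg
    exact (hg _ h4).symm
  have haA : a ∈ A := by
    rw [hA.mem_iff]
    exact ⟨haM, hA.commute_of_proj a hcommg⟩
  refine ⟨I, U, B, a, haA, ha, ?_, ?_, hconv⟩
  · intro hxs
    exact wot_limit_isSelfAdjoint U _ a hconv
      (fun i => pinching_isSelfAdjoint (fun j => (B i).isPart.proj j) hxs)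
  · have h5 : e * a = a := by
      ext v
      apply ext_inner_right ℂ
      intro w
      have h6 := hconv v (e w)
      have h7 : Tendsto (fun i => ⟪pinching (B i).p x v, w⟫_ℂ) U (𝓝 ⟪a v, e w⟫_ℂ) := by
        refine h6.congr (fun i => ?_)
        have h8 : e * pinching (B i).p x = pinching (B i).p x := by
          rw [pinching, Finset.mul_sum]
          refine Finset.sum_congr rfl (fun j _ => ?_)
          rw [← mul_assoc, ← mul_assoc, ((B i).isPart.mul_eq j).1]
        have h9 : ⟪pinching (B i).p x v, e w⟫_ℂ = ⟪e (pinching (B i).p x v), w⟫_ℂ := by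
          calc ⟪pinching (B i).p x v, e w⟫_ℂ
              = ⟪pinching (B i).p x v, (ContinuousLinearMap.adjoint e) w⟫_ℂ := by
                rw [← ContinuousLinearMap.star_eq_adjoint, he.isSelfAdjoint.star_eq]
            _ = _ := ContinuousLinearMap.adjoint_inner_right e _ _
        rw [h9]
        have h10 : e (pinching (B i).p x v) = pinching (B i).p x v :=
          congrArg (fun S : H →L[ℂ] H => S v) h8
        rw [h10]
      have h11 := tendsto_nhds_unique (hconv v w) h7
      have h12 : ⟪a v, e w⟫_ℂ = ⟪e (a v), w⟫_ℂ := by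
        calc ⟪a v, e w⟫_ℂ = ⟪a v, (ContinuousLinearMap.adjoint e) w⟫_ℂ := by
              rw [← ContinuousLinearMap.star_eq_adjoint, he.isSelfAdjoint.star_eq]
          _ = _ := ContinuousLinearMap.adjoint_inner_right e _ _
      show ⟪e (a v), w⟫_ℂ = ⟪a v, w⟫_ℂ
      rw [← h12, ← h11]
    rw [← hcomm e heA a haA, h5]

theorem mazur {I : Type*} (U : Ultrafilter I) (T : I → H →L[ℂ] H) (a : H →L[ℂ] H)
    (hconv : ∀ v w, Tendsto (fun i => ⟪T i v, w⟫_ℂ) U (𝓝 ⟪a v, w⟫_ℂ))
    {k : ℕ} (ξ : Fin k → H) (δ : ℝ) (hδ : 0 < δ) :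
    ∃ (μ : Type) (_ : Fintype μ) (lam : μ → ℝ) (i : μ → I), (∀ m, 0 ≤ lam m) ∧
      ∑ m, lam m = 1 ∧ ∀ j, ‖∑ m, (lam m : ℂ) • T (i m) (ξ j) - a (ξ j)‖ < δ := by
  set V : Set (Fin k → H) := Set.range (fun i => fun j => T i (ξ j)) with hV
  set y : Fin k → H := fun j => a (ξ j) with hy
  have hmem : y ∈ closure (convexHull ℝ V) := by
    by_contra hcon
    obtain ⟨f, u, hfu, hfb⟩ := RCLike.geometric_hahn_banach_point_closed (𝕜 := ℂ)
      ((convex_convexHull ℝ V).closure) isClosed_closure hcon
    have hlim : Tendsto (fun i => f (fun j => T i (ξ j))) U (𝓝 (f y)) := by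
      have hdec : ∀ z : Fin k → H, f z = ∑ j, f (Pi.single j (z j)) := by
        intro z
        rw [← map_sum]
        congr 1
        exact (Finset.univ_sum_single z).symm
      have hj : ∀ j, Tendsto (fun i => f (Pi.single j (T i (ξ j)))) U
          (𝓝 (f (Pi.single j (y j)))) := by
        intro j
        let g : H →L[ℂ] ℂ := f.comp (ContinuousLinearMap.single ℂ (fun _ : Fin k => H) j)
        have hg : ∀ z, f (Pi.single j z) = g z := fun z => rfl
        let w : H := (InnerProductSpace.toDual ℂ H).symm g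
        have hw : ∀ z, g z = starRingEnd ℂ ⟪z, w⟫_ℂ := by
          intro z
          rw [inner_conj_symm]
          exact (InnerProductSpace.toDual_symm_apply (x := z) (y := g)).symm
        simp_rw [hg, hw]
        exact (Complex.continuous_conj.tendsto _).comp (hconv (ξ j) w)
      have : Tendsto (fun i => ∑ j, f (Pi.single j (T i (ξ j)))) U
          (𝓝 (∑ j, f (Pi.single j (y j)))) := tendsto_finset_sum _ (fun j _ => hj j)
      rw [← hdec] at this
      refine this.congr (fun i => ?_)
      exact (hdec _).symm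
    have hre : Tendsto (fun i => (f (fun j => T i (ξ j))).re) U (𝓝 (f y).re) :=
      (Complex.continuous_re.tendsto _).comp hlim
    have hge : ∀ i, u < (f (fun j => T i (ξ j))).re := by
      intro i
      exact hfb _ (subset_closure (subset_convexHull ℝ V ⟨i, rfl⟩))
    have := ge_of_tendsto hre (Filter.Eventually.of_forall (fun i => (hge i).le))
    have h2 : (f y).re < u := hfu
    linarith
  rw [Metric.mem_closure_iff] at hmem
  obtain ⟨z, hz, hdist⟩ := hmem δ hδ
  rw [mem_convexHull_iff_exists_fintype] at hz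
  obtain ⟨μ, hμ, lam, zz, h0, h1, hzz, hsum⟩ := hz
  choose i hi using hzz
  refine ⟨μ, hμ, lam, i, h0, h1, ?_⟩
  intro j
  have h2 : ‖z j - y j‖ ≤ ‖z - y‖ := norm_le_pi_norm (z - y) j
  have h3 : ‖z - y‖ < δ := by rwa [dist_comm, dist_eq_norm] at hdist
  have h4 : z j = ∑ m, (lam m : ℂ) • T (i m) (ξ j) := by
    rw [← hsum, Finset.sum_apply]
    refine Finset.sum_congr rfl (fun m _ => ?_)
    rw [Pi.smul_apply, ← hi m, Complex.coe_smul]
  rw [← h4]
  exact lt_of_le_of_lt h2 h3

end Vale.Agent.P078
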