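import Vale.Agent.P078.Main
import Vale.Agent.P078.DefsState

open scoped InnerProductSpace Topology ComplexOrder
open Filter

namespace Vale.Agent.P078

universe u

variable {H : Type u} [NormedAddCommGroup H] [InnerProductSpace ℂ H] [CompleteSpace H]
variable {A : StarSubalgebra ℂ (H →L[ℂ] H)} {M : VonNeumannAlgebra H} {e f : H →L[ℂ] H}

theorem proj_mul_nonneg {ψ : (H →L[ℂ] H) →ₗ[ℂ] ℂ} (hψ : IsCentralised M A ψ)
    {g : H →L[ℂ] H} (hgM : g ∈ M) (hgp : IsStarProjection g) : 0 ≤ ψ g := by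
  have := hψ.pos g hgM
  rwa [hgp.isSelfAdjoint.star_eq, hgp.isIdempotentElem] at this

/-- a directed family of projections of `A`, closed under joins, has a supremum in `A` -/
theorem exists_sup (hA : IsMASA M A) (Z : Set (H →L[ℂ] H))
    (hZA : ∀ g ∈ Z, g ∈ A) (hZp : ∀ g ∈ Z, IsStarProjection g) (hZ0 : (0 : H →L[ℂ] H) ∈ Z)
    (hZj : ∀ g ∈ Z, ∀ h ∈ Z, g + h - g * h ∈ Z) :
    ∃ T : H →L[ℂ] H, T ∈ A ∧ IsStarProjection T ∧ (∀ g ∈ Z, T * g = g) ∧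
      ∃ (I : Type u) (U : Ultrafilter I) (s : I → H →L[ℂ] H), (∀ i, s i ∈ Z) ∧
        ∀ v w, Tendsto (fun i => ⟪s i v, w⟫_ℂ) U (𝓝 ⟪T v, w⟫_ℂ) := by
  classical
  have hub : ∀ G : Finset Z, ∃ s : Z, ∀ g ∈ G, s.1 * g.1 = g.1 := by
    intro G
    induction G using Finset.induction_on with
    | empty => exact ⟨⟨0, hZ0⟩, by simp⟩
    | insert g G hg ih =>
      obtain ⟨s, hs⟩ := ih
      refine ⟨⟨g.1 + s.1 - g.1 * s.1, hZj _ g.2 _ s.2⟩, ?_⟩
      have hc : g.1 * s.1 = s.1 * g.1 := hA.comm _ (hZA _ g.2) _ (hZA _ s.2)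
      intro g' hg'
      rw [Finset.mem_insert] at hg'
      rcases hg' with rfl | hg'
      · show (g'.1 + s.1 - g'.1 * s.1) * g'.1 = g'.1
        rw [sub_mul, add_mul, (hZp _ g'.2).isIdempotentElem, hc, mul_assoc,
          (hZp _ g'.2).isIdempotentElem]
        abel
      · show (g.1 + s.1 - g.1 * s.1) * g'.1 = g'.1
        have h1 := hs g' hg'
        rw [sub_mul, add_mul, h1, mul_assoc, h1]
        abel
  let I := Finset Z
  let U : Ultrafilter I := Ultrafilter.of atTop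
  have hU : (U : Filter I) ≤ atTop := Ultrafilter.of_le _
  choose s hs using hub
  have hsA : ∀ G, (s G).1 ∈ A := fun G => hZA _ (s G).2
  have hsp : ∀ G, IsStarProjection (s G).1 := fun G => hZp _ (s G).2
  obtain ⟨T, hT1, hT⟩ := exists_wot_limit U (fun G => (s G).1) 1
    (fun G => proj_opNorm_le (hsp G))
  have hTsa : IsSelfAdjoint T :=
    wot_limit_isSelfAdjoint U _ T hT (fun G => (hsp G).isSelfAdjoint)
  have hTM : T ∈ M := by
    apply mem_of_commute_commutant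
    intro g hg
    rw [VonNeumannAlgebra.mem_commutant_iff] at hg
    exact wot_limit_commute U _ T g hT
      (Filter.Eventually.of_forall (fun G => (hg _ (hA.subset _ (hsA G))).symm))
  have hTA : T ∈ A := by
    rw [hA.mem_iff]
    exact ⟨hTM, fun a ha => wot_limit_commute U _ T a hT
      (Filter.Eventually.of_forall (fun G => hA.comm a ha _ (hsA G)))⟩
  have hTg : ∀ g : Z, T * g.1 = g.1 := by
    intro g
    ext v
    apply ext_inner_right ℂ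
    intro w
    have h1 := hT (g.1 v) w
    have h2 : ∀ᶠ G in (U : Filter I), ({g} : I) ≤ G := hU (eventually_ge_atTop _)
    have h3 : Tendsto (fun G => ⟪(s G).1 (g.1 v), w⟫_ℂ) U (𝓝 ⟪g.1 v, w⟫_ℂ) := by
      apply tendsto_const_nhds.congr'
      filter_upwards [h2] with G hG
      have h4 := hs G g (hG (Finset.mem_singleton_self _))
      have h5 : (s G).1 (g.1 v) = g.1 v := congrArg (fun S : H →L[ℂ] H => S v) h4
      show ⟪g.1 v, w⟫_ℂ = ⟪(s G).1 (g.1 v), w⟫_ℂ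
      rw [h5]
    exact tendsto_nhds_unique h1 h3
  have hTT : T * T = T := by
    ext v
    apply ext_inner_right ℂ
    intro w
    have h1 := hT v (T w)
    have h2 := hT v w
    have h3 : Tendsto (fun G => ⟪(s G).1 v, T w⟫_ℂ) U (𝓝 ⟪T v, w⟫_ℂ) := by
      refine h2.congr (fun G => ?_)
      have h5 : T ((s G).1 v) = (s G).1 v := congrArg (fun S : H →L[ℂ] H => S v) (hTg (s G))
      rw [← sa_inner hTsa, h5]
    have h4 := tendsto_nhds_unique h1 h3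
    show ⟪T (T v), w⟫_ℂ = _
    rw [sa_inner hTsa, h4]
  exact ⟨T, hTA, ⟨hTT, hTsa⟩, fun g hg => hTg ⟨g, hg⟩, I, U, fun G => (s G).1,
    fun G => (s G).2, hT⟩

theorem normal_limit_zero {ψ : (H →L[ℂ] H) →ₗ[ℂ] ℂ} (hψ : IsNormalOn M ψ)
    {I : Type u} (U : Ultrafilter I) {s : I → H →L[ℂ] H} {T : H →L[ℂ] H}
    (hsM : ∀ i, s i ∈ M) (hTM : T ∈ M)
    (hsp : ∀ i, IsStarProjection (s i)) (hTp : IsStarProjection T)
    (hT : ∀ v w, Tendsto (fun i => ⟪s i v, w⟫_ℂ) U (𝓝 ⟪T v, w⟫_ℂ))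
    (h0 : ∀ i, ψ (s i) = 0) : ψ T = 0 := by
  rw [← norm_le_zero_iff]
  apply le_of_forall_pos_le_add
  intro ε hε
  obtain ⟨n, ξ, η, hN⟩ := hψ (ε / 2) (by positivity)
  have h1 : ∀ G, ‖∑ i, ⟪η i, (s G) (ξ i)⟫_ℂ‖ ≤ ε / 2 := by
    intro G
    have h2 := hN (s G) (hsM G)
    rw [h0, zero_sub, norm_neg] at h2
    have h4 := proj_opNorm_le (hsp G)
    calc _ ≤ ε / 2 * ‖s G‖ := h2
      _ ≤ ε / 2 * 1 := by gcongr
      _ = ε / 2 := mul_one _
  have h2 : Tendsto (fun G => ∑ i, ⟪η i, (s G) (ξ i)⟫_ℂ) U (𝓝 (∑ i, ⟪η i, T (ξ i)⟫_ℂ)) := by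
    apply tendsto_finsetSum
    intro i _
    have h3 := hT (η i) (ξ i)
    have h4 : ∀ (S : H →L[ℂ] H), IsSelfAdjoint S → ⟪η i, S (ξ i)⟫_ℂ = ⟪S (η i), ξ i⟫_ℂ :=
      fun S hS => (sa_inner hS _ _).symm
    rw [h4 T hTp.isSelfAdjoint]
    refine h3.congr (fun G => ?_)
    rw [h4 _ (hsp G).isSelfAdjoint]
  have h3 : ‖∑ i, ⟪η i, T (ξ i)⟫_ℂ‖ ≤ ε / 2 :=
    le_of_tendsto (h2.norm) (Filter.Eventually.of_forall h1)
  have h4 := hN T hTM
  have h5 : ‖ψ T‖ ≤ ‖ψ T - ∑ i, ⟪η i, T (ξ i)⟫_ℂ‖ + ‖∑ i, ⟪η i, T (ξ i)⟫_ℂ‖ := by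
    have := norm_add_le (ψ T - ∑ i, ⟪η i, T (ξ i)⟫_ℂ) (∑ i, ⟪η i, T (ξ i)⟫_ℂ)
    rwa [sub_add_cancel] at this
  have h6 : ε / 2 * ‖T‖ ≤ ε / 2 * 1 := by
    have := proj_opNorm_le hTp
    gcongr
  linarith

theorem zero_isStateCorner : IsStateCorner M A 0 :=
  ⟨zero_mem A, IsStarProjection.zero _, 0, ⟨fun ε hε => ⟨0, fun i => 0, fun i => 0,
    fun x _ => by simp; positivity⟩, fun x _ => by simp, fun a _ x _ => by simp⟩,
    fun h _ _ hh hne => absurd (by rw [← hh]; simp) hne⟩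

theorem exists_stateCorner_le (hA : IsMASA M A) {ψ : (H →L[ℂ] H) →ₗ[ℂ] ℂ}
    (hψ : IsCentralised M A ψ) {h : H →L[ℂ] H} (hhA : h ∈ A) (hhp : IsStarProjection h)
    (hne : ψ h ≠ 0) : ∃ g, IsStateCorner M A g ∧ h * g = g ∧ g ≠ 0 := by
  obtain ⟨T, hTA, hTp, hTm, I, U, s, hsZ, hsT⟩ := exists_sup hA
    {g | g ∈ A ∧ IsStarProjection g ∧ ψ g = 0} (fun g hg => hg.1) (fun g hg => hg.2.1)
    ⟨zero_mem A, IsStarProjection.zero _, map_zero ψ⟩ (by
      rintro g ⟨g1, g2, g3⟩ k ⟨k1, k2, k3⟩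
      have hc : g * k = k * g := hA.comm g g1 k k1
      refine ⟨sub_mem (add_mem g1 k1) (mul_mem g1 k1),
        IsStarProjection.add_sub_mul_of_commute hc g2 k2, ?_⟩
      have hgk : IsStarProjection (g * k) := g2.mul k2 hc
      rw [map_sub, map_add, g3, k3, hψ.mono_null hA (mul_mem g1 k1) hgk k1 k2
        (by rw [mul_assoc, k2.isIdempotentElem]) k3]
      simp)
  have hψT : ψ T = 0 := normal_limit_zero hψ.normal U (fun i => hA.subset _ (hsZ i).1)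
    (hA.subset _ hTA) (fun i => (hsZ i).2.1) hTp hsT (fun i => (hsZ i).2.2)
  have hhT : h * T = T * h := hA.comm h hhA T hTA
  have hgp : IsStarProjection (h * (1 - T)) := hhp.mul hTp.one_sub (by
    show h * (1 - T) = (1 - T) * h
    rw [mul_sub, sub_mul, hhT, mul_one, one_mul])
  have hhh : h * h = h := hhp.isIdempotentElem
  have hTT : T * T = T := hTp.isIdempotentElem
  refine ⟨h * (1 - T), ⟨mul_mem hhA (sub_mem (one_mem A) hTA), hgp, ψ, hψ, ?_⟩, ?_, ?_⟩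
  · intro k hkA hkp hgk hk0 hψk
    have h1 : T * k = k := hTm k ⟨hkA, hkp, hψk⟩
    apply hk0
    rw [← hgk, mul_assoc, sub_mul, one_mul, h1, sub_self, mul_zero]
  · rw [← mul_assoc, hhh]
  · intro h0
    apply hne
    have h1 : h * T = h := by
      rw [mul_sub, mul_one, sub_eq_zero] at h0
      exact h0.symm
    exact hψ.mono_null hA hhA hhp hTA hTp h1 hψT

theorem IsCentralised.add {ψ₁ ψ₂ : (H →L[ℂ] H) →ₗ[ℂ] ℂ} (h₁ : IsCentralised M A ψ₁)
    (h₂ : IsCentralised M A ψ₂) : IsCentralised M A (ψ₁ + ψ₂) where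
  normal := by
    apply normal_of_fintype
    intro ε hε
    obtain ⟨n₁, ξ₁, η₁, hN₁⟩ := h₁.normal (ε / 2) (by positivity)
    obtain ⟨n₂, ξ₂, η₂, hN₂⟩ := h₂.normal (ε / 2) (by positivity)
    refine ⟨Fin n₁ ⊕ Fin n₂, inferInstance, Sum.elim ξ₁ ξ₂, Sum.elim η₁ η₂, ?_⟩
    intro x hx
    rw [Fintype.sum_sum_type]
    simp only [Sum.elim_inl, Sum.elim_inr]
    have e1 : (ψ₁ + ψ₂) x - (∑ i, ⟪η₁ i, x (ξ₁ i)⟫_ℂ + ∑ i, ⟪η₂ i, x (ξ₂ i)⟫_ℂ) =
        (ψ₁ x - ∑ i, ⟪η₁ i, x (ξ₁ i)⟫_ℂ) + (ψ₂ x - ∑ i, ⟪η₂ i, x (ξ₂ i)⟫_ℂ) := by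
      rw [LinearMap.add_apply]; ring
    rw [e1]
    calc _ ≤ ‖ψ₁ x - ∑ i, ⟪η₁ i, x (ξ₁ i)⟫_ℂ‖ + ‖ψ₂ x - ∑ i, ⟪η₂ i, x (ξ₂ i)⟫_ℂ‖ :=
          norm_add_le _ _
      _ ≤ ε / 2 * ‖x‖ + ε / 2 * ‖x‖ := add_le_add (hN₁ x hx) (hN₂ x hx)
      _ = ε * ‖x‖ := by ring
  pos := fun x hx => add_nonneg (h₁.pos x hx) (h₂.pos x hx)
  central := fun a ha x hx => by
    rw [LinearMap.add_apply, LinearMap.add_apply, h₁.central a ha x hx, h₂.central a ha x hx]

theorem IsStateCorner.join (hA : IsMASA M A) {g k : H →L[ℂ] H} (hg : IsStateCorner M A g)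
    (hk : IsStateCorner M A k) : IsStateCorner M A (g + k - g * k) := by
  obtain ⟨g1, g2, ψ₁, hψ₁, gf⟩ := hg
  obtain ⟨k1, k2, ψ₂, hψ₂, kf⟩ := hk
  have hc : g * k = k * g := hA.comm g g1 k k1
  refine ⟨sub_mem (add_mem g1 k1) (mul_mem g1 k1),
    IsStarProjection.add_sub_mul_of_commute hc g2 k2, ψ₁ + ψ₂, hψ₁.add hψ₂, ?_⟩
  intro h hhA hhp hle hh0 hsum
  have hhM := hA.subset h hhA
  have p1 := proj_mul_nonneg hψ₁ hhM hhp
  have p2 := proj_mul_nonneg hψ₂ hhM hhp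
  rw [LinearMap.add_apply] at hsum
  have z1 : ψ₁ h = 0 := by
    apply le_antisymm _ p1
    have : ψ₁ h = -ψ₂ h := eq_neg_of_add_eq_zero_left hsum
    rw [this]
    exact neg_nonpos.mpr p2
  have z2 : ψ₂ h = 0 := by rw [z1, zero_add] at hsum; exact hsum
  have key : ∀ (l : H →L[ℂ] H) (ψ : (H →L[ℂ] H) →ₗ[ℂ] ℂ), l ∈ A → IsStarProjection l →
      IsCentralised M A ψ → (∀ h ∈ A, IsStarProjection h → l * h = h → h ≠ 0 → ψ h ≠ 0) →
      ψ h = 0 → l * h = 0 := by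
    intro l ψ hl hlp hψ hlf hz
    by_contra hne
    have hlh : l * h = h * l := hA.comm l hl h hhA
    have hlhp : IsStarProjection (l * h) := hlp.mul hhp hlh
    apply hlf (l * h) (mul_mem hl hhA) hlhp (by rw [← mul_assoc, hlp.isIdempotentElem]) hne
    exact hψ.mono_null hA (mul_mem hl hhA) hlhp hhA hhp
      (by rw [mul_assoc, hhp.isIdempotentElem]) hz
  have e1 := key g ψ₁ g1 g2 hψ₁ gf z1
  have e2 := key k ψ₂ k1 k2 hψ₂ kf z2
  apply hh0
  rw [← hle, sub_mul, add_mul, e1, e2, mul_assoc, e2]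
  simp

theorem exists_stateCorner_approx (hA : IsMASA M A) {z : H →L[ℂ] H} (hzA : z ∈ A)
    (hz : IsStarProjection z) (h1 : ∀ ψ, IsCentralised M A ψ → ψ (1 - z) = 0)
    (h2 : ∀ g ∈ A, IsStarProjection g → z * g = g → g ≠ 0 →
        ∃ ψ, IsCentralised M A ψ ∧ ψ g ≠ 0) (F : Finset H) {δ : ℝ} (hδ : 0 < δ) :
    ∃ g, IsStateCorner M A g ∧ z * g = g ∧ ∀ ξ ∈ F, ‖(z - g) ξ‖ < δ := by
  have hle : ∀ g, IsStateCorner M A g → z * g = g := by
    rintro g ⟨gA, gp, ψ, hψ, gf⟩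
    have hc : g * z = z * g := hA.comm g gA z hzA
    have hz' := hz.one_sub
    have hc' : g * (1 - z) = (1 - z) * g := by rw [mul_sub, sub_mul, hc, mul_one, one_mul]
    have hp : IsStarProjection (g * (1 - z)) := gp.mul hz' hc'
    have hmem : g * (1 - z) ∈ A := mul_mem gA (sub_mem (one_mem A) hzA)
    by_contra hne
    have hne' : g * (1 - z) ≠ 0 := by
      intro h
      apply hne
      rw [mul_sub, mul_one, hc, sub_eq_zero] at h
      exact h.symm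
    apply gf (g * (1 - z)) hmem hp (by rw [← mul_assoc, gp.isIdempotentElem]) hne'
    exact hψ.mono_null hA hmem hp (sub_mem (one_mem A) hzA) hz'
      (by rw [mul_assoc, hz'.isIdempotentElem]) (h1 ψ hψ)
  obtain ⟨T, hTA, hTp, hTm, I, U, s, hsZ, hsT⟩ := exists_sup hA
    {g | IsStateCorner M A g} (fun g hg => hg.1) (fun g hg => hg.2.1)
    zero_isStateCorner
    (fun g hg k hk => hg.join hA hk)
  have hTz : T = z := by
    have hzT : z * T = T := by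
      ext v
      apply ext_inner_right ℂ
      intro w
      have e1 := hsT v (z w)
      have e2 : Tendsto (fun i => ⟪s i v, z w⟫_ℂ) U (𝓝 ⟪T v, w⟫_ℂ) := by
        refine (hsT v w).congr (fun i => ?_)
        rw [← sa_inner hz.isSelfAdjoint]
        have : z (s i v) = s i v := congrArg (fun S : H →L[ℂ] H => S v) (hle _ (hsZ i))
        rw [this]
      have e3 := tendsto_nhds_unique e1 e2
      rw [mul_apply', sa_inner hz.isSelfAdjoint]
      exact e3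
    have hTz' : T * z = T := by
      have := congrArg star hzT
      rwa [star_mul, hTp.isSelfAdjoint.star_eq, hz.isSelfAdjoint.star_eq] at this
    by_contra hne
    have hp : IsStarProjection (z - T) := hTp.sub_of_mul_eq_left hz hTz'
    have hmem : z - T ∈ A := sub_mem hzA hTA
    obtain ⟨ψ, hψ, hψne⟩ := h2 (z - T) hmem hp
      (by rw [mul_sub, hz.isIdempotentElem, hzT]) (fun h => hne (sub_eq_zero.mp h).symm)
    obtain ⟨g, hg, hgle, hg0⟩ := exists_stateCorner_le hA hψ hmem hp hψne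
    apply hg0
    rw [← hgle, sub_mul, hle g hg, hTm g hg, sub_self]
  subst hTz
  have hev : ∀ᶠ i in (U : Filter I), ∀ ξ ∈ F, ‖(T - s i) ξ‖ < δ := by
    rw [Filter.eventually_all_finset]
    intro ξ _
    have e1 : Tendsto (fun i => ⟪s i ξ, ξ⟫_ℂ) U (𝓝 ⟪T ξ, ξ⟫_ℂ) := hsT ξ ξ
    have e2 : Tendsto (fun i => (⟪T ξ, ξ⟫_ℂ - ⟪s i ξ, ξ⟫_ℂ).re) U (𝓝 0) := by
      have e3 := (tendsto_const_nhds (x := ⟪T ξ, ξ⟫_ℂ) (f := (U : Filter I))).sub e1
      rw [sub_self] at e3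
      exact (Complex.continuous_re.tendsto 0).comp e3
    have e4 : ∀ i, ‖(T - s i) ξ‖ ^ 2 = (⟪T ξ, ξ⟫_ℂ - ⟪s i ξ, ξ⟫_ℂ).re := by
      intro i
      have hsi := hsZ i
      have hsT' : s i * T = s i := by
        have := congrArg star (hle _ hsi)
        rwa [star_mul, hsi.2.1.isSelfAdjoint.star_eq, hTp.isSelfAdjoint.star_eq] at this
      rw [proj_norm_sq (hsi.2.1.sub_of_mul_eq_left hTp hsT'), sub_apply, inner_sub_left]
    have e5 : ∀ᶠ i in (U : Filter I), (⟪T ξ, ξ⟫_ℂ - ⟪s i ξ, ξ⟫_ℂ).re < δ ^ 2 :=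
      e2.eventually_lt_const (by positivity)
    filter_upwards [e5] with i hi
    rw [← e4] at hi
    exact lt_of_pow_lt_pow_left₀ 2 hδ.le hi
  obtain ⟨i, hi⟩ := hev.exists
  exact ⟨s i, hsZ i, hle _ (hsZ i), hi⟩

end Vale.Agent.P078
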