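import Vale.Agent.P078.State

open scoped InnerProductSpace Topology ComplexOrder

namespace Vale.Agent.P078

universe u

variable {H : Type u} [NormedAddCommGroup H] [InnerProductSpace ℂ H] [CompleteSpace H]
variable {A : StarSubalgebra ℂ (H →L[ℂ] H)} {M : VonNeumannAlgebra H} {e f : H →L[ℂ] H}

theorem SoPavableOn.mono {x : H →L[ℂ] H} {ε : ℝ} {r r' : ℕ} (hr : r ≤ r')
    (h : SoPavableOn M A e x ε r) : SoPavableOn M A e x ε r' := by
  obtain ⟨k, rfl⟩ := Nat.exists_eq_add_of_le hr
  intro F δ hδ
  obtain ⟨p, a, q, hp, h2, h3, h4, h5, h6, h7, h8, h9, h10⟩ := h F δ hδ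
  refine ⟨Fin.append p (fun _ : Fin k => 0), a, q, ?_, h2, h3, h4, h5, h6, h7, h8, h9, ?_⟩
  · constructor
    · intro i
      refine Fin.addCases (fun i => ?_) (fun i => ?_) i
      · rw [Fin.append_left]; exact hp.mem i
      · rw [Fin.append_right]; exact zero_mem A
    · intro i
      refine Fin.addCases (fun i => ?_) (fun i => ?_) i
      · rw [Fin.append_left]; exact hp.proj i
      · rw [Fin.append_right]; exact IsStarProjection.zero _
    · intro i j
      refine Fin.addCases (fun i => ?_) (fun i => ?_) i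
      · refine Fin.addCases (fun j => ?_) (fun j => ?_) j
        · intro h
          rw [Fin.append_left, Fin.append_left]
          exact hp.orth i j (fun h' => h (by rw [h']))
        · intro _
          rw [Fin.append_right, mul_zero]
      · intro _
        rw [Fin.append_right, zero_mul]
    · rw [Fin.sum_univ_add]
      simp only [Fin.append_left, Fin.append_right]
      rw [hp.sum]
      simp
  · have : pinching (Fin.append p (fun _ : Fin k => 0)) x = pinching p x := by
      rw [pinching, Fin.sum_univ_add]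
      simp only [Fin.append_left, Fin.append_right]
      simp [pinching]
    rw [this]
    exact h10

theorem soPavableOn_of_cornerPavingNumber_le {ε : ℝ} {N : ℕ}
    (h : cornerPavingNumber M A e ε ≤ N) {x : H →L[ℂ] H} (hx : x ∈ M) (hxs : IsSelfAdjoint x)
    (hexe : e * x * e = x) : SoPavableOn M A e x ε N := by
  by_contra hne
  have h1 : ((N + 1 : ℕ) : ℕ∞) ≤ cornerPavingNumber M A e ε := by
    refine le_iInf₂ (fun r hr => ?_)
    rw [Nat.cast_le]
    by_contra hlt
    push Not at hlt
    exact hne ((hr.2 x hx hxs hexe).mono (by omega))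
  have h2 := h1.trans h
  rw [Nat.cast_le] at h2
  omega

theorem one_le_cornerPavingNumber (ε : ℝ) : 1 ≤ cornerPavingNumber M A e ε := by
  refine le_iInf₂ (fun r hr => ?_)
  exact_mod_cast hr.1

theorem soPavableOn_of_corners {z : H →L[ℂ] H} (hzA : z ∈ A)
    (hz : IsStarProjection z) {x : H →L[ℂ] H} {ε : ℝ} (hε : 0 ≤ ε) {r : ℕ} (hr : 1 ≤ r)
    (h : ∀ (F : Finset H) (δ : ℝ), 0 < δ → ∃ g, g ∈ A ∧ IsStarProjection g ∧ z * g = g ∧
      (∀ ξ ∈ F, ‖(z - g) ξ‖ < δ) ∧ SoPavableOn M A g (g * x * g) ε r) :
    SoPavableOn M A z x ε r := by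
  classical
  intro F δ hδ
  obtain ⟨g, gA, gp, zg, gF, gpav⟩ := h F (δ / 2) (by positivity)
  obtain ⟨p, a, q, hp, haA, has, hag, han, hqM, hq, hqg, hqF, hn⟩ := gpav F (δ / 2) (by positivity)
  have gz : g * z = g := by
    have := congrArg star zg
    rwa [star_mul, gp.isSelfAdjoint.star_eq, hz.isSelfAdjoint.star_eq] at this
  have hgg : g * g = g := gp.isIdempotentElem
  set d := z - g with hd
  have hdp : IsStarProjection d := gp.sub_of_mul_eq_left hz gz
  have hdA : d ∈ A := sub_mem hzA gA
  have hgd : g * d = 0 := by rw [hd, mul_sub, gz, hgg, sub_self]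
  have hdg : d * g = 0 := by rw [hd, sub_mul, zg, hgg, sub_self]
  have hpd : ∀ i, p i * d = 0 := fun i => by
    rw [← (hp.mul_eq i).2, mul_assoc, hgd, mul_zero]
  have hdpi : ∀ i, d * p i = 0 := fun i => by
    rw [← (hp.mul_eq i).1, ← mul_assoc, hdg, zero_mul]
  let i0 : Fin r := ⟨0, hr⟩
  let D : Fin r → H →L[ℂ] H := fun i => if i = i0 then d else 0
  have hpD : ∀ i j, p i * D j = 0 := by
    intro i j
    show p i * (if j = i0 then d else 0) = 0
    split_ifs
    · exact hpd i
    · exact mul_zero _
  have hDp : ∀ i j, D i * p j = 0 := by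
    intro i j
    show (if i = i0 then d else 0) * p j = 0
    split_ifs
    · exact hdpi j
    · exact zero_mul _
  have hDproj : ∀ i, IsStarProjection (D i) := by
    intro i
    show IsStarProjection (if i = i0 then d else 0)
    split_ifs
    · exact hdp
    · exact IsStarProjection.zero _
  have hDD : ∀ i j, i ≠ j → D i * D j = 0 := by
    intro i j hij
    show (if i = i0 then d else 0) * (if j = i0 then d else 0) = 0
    split_ifs with h1 h2
    · exact absurd (h1.trans h2.symm) hij
    · exact mul_zero _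
    · exact zero_mul _
    · exact zero_mul _
  have hqd : q * d = 0 := by rw [← hqg, mul_assoc, hgd, mul_zero]
  have hqD : ∀ i, q * D i = 0 := by
    intro i
    show q * (if i = i0 then d else 0) = 0
    split_ifs
    · exact hqd
    · exact mul_zero _
  have hDq : ∀ i, D i * q = 0 := by
    intro i
    have := congrArg star (hqD i)
    rwa [star_mul, (hDproj i).isSelfAdjoint.star_eq, hq.isSelfAdjoint.star_eq, star_zero] at this
  refine ⟨fun i => p i + D i, a, q, ?_, haA, has, ?_, ?_, hqM, hq, ?_, ?_, ?_⟩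
  · constructor
    · intro i
      refine add_mem (hp.mem i) ?_
      show (if i = i0 then d else 0) ∈ A
      split_ifs
      · exact hdA
      · exact zero_mem A
    · intro i
      exact (hp.proj i).add (hDproj i) (hpD i i)
    · intro i j hij
      show (p i + D i) * (p j + D j) = 0
      rw [add_mul, mul_add, mul_add, hp.orth i j hij, hpD, hDp, hDD i j hij]
      simp
    · rw [Finset.sum_add_distrib, hp.sum]
      have : ∑ i, D i = d := by
        show ∑ i, (if i = i0 then d else 0) = d
        rw [Finset.sum_ite_eq' Finset.univ i0 (fun _ => d)]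
        simp
      rw [this, hd]
      abel
  · rw [← hag, mul_assoc, gz]
  · exact han.trans (conj_norm_le gp x)
  · rw [← hqg, mul_assoc, gz]
  · intro ξ hξ
    have e1 : (z - q) ξ = (z - g) ξ + (g - q) ξ := by
      have : z - q = (z - g) + (g - q) := by abel
      rw [this]; rfl
    rw [e1]
    calc _ ≤ ‖(z - g) ξ‖ + ‖(g - q) ξ‖ := norm_add_le _ _
      _ < δ / 2 + δ / 2 := add_lt_add (gF ξ hξ) (hqF ξ hξ)
      _ = δ := by ring
  · have e1 : q * (pinching (fun i => p i + D i) x - a) * q =
        q * (pinching p (g * x * g) - a) * q := by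
      have e2 : q * pinching (fun i => p i + D i) x * q = q * pinching p (g * x * g) * q := by
        rw [pinching, pinching, Finset.mul_sum, Finset.mul_sum, Finset.sum_mul, Finset.sum_mul]
        refine Finset.sum_congr rfl (fun i _ => ?_)
        have l1 : q * (p i + D i) = q * p i := by rw [mul_add, hqD, add_zero]
        have l2 : (p i + D i) * q = p i * q := by rw [add_mul, hDq, add_zero]
        calc q * ((p i + D i) * x * (p i + D i)) * q
            = (q * (p i + D i)) * x * ((p i + D i) * q) := by simp only [mul_assoc]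
          _ = (q * p i) * x * (p i * q) := by rw [l1, l2]
          _ = q * (p i * g) * x * ((g * p i) * q) := by
              rw [(hp.mul_eq i).1, (hp.mul_eq i).2]
          _ = _ := by simp only [mul_assoc]
      rw [mul_sub, sub_mul, e2, mul_sub, sub_mul]
    rw [e1]
    exact hn.trans (mul_le_mul_of_nonneg_left (conj_norm_le gp x) hε)

theorem cornerPavingNumber_le_iSup (hA : IsMASA M A) {z : H →L[ℂ] H} (hzA : z ∈ A)
    (hz : IsStarProjection z) (h1 : ∀ ψ, IsCentralised M A ψ → ψ (1 - z) = 0)
    (h2 : ∀ g ∈ A, IsStarProjection g → z * g = g → g ≠ 0 →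
        ∃ ψ, IsCentralised M A ψ ∧ ψ g ≠ 0) {ε : ℝ} (hε : 0 ≤ ε) :
    cornerPavingNumber M A z ε ≤
      ⨆ (g : H →L[ℂ] H) (_ : IsStateCorner M A g), cornerPavingNumber M A g ε := by
  set S := ⨆ (g : H →L[ℂ] H) (_ : IsStateCorner M A g), cornerPavingNumber M A g ε with hS
  have hle : ∀ g, IsStateCorner M A g → cornerPavingNumber M A g ε ≤ S := fun g hg =>
    le_iSup₂ (f := fun g (_ : IsStateCorner M A g) => cornerPavingNumber M A g ε) g hg
  rcases eq_or_ne S ⊤ with h | h
  · rw [h]; exact le_top
  · obtain ⟨N, hN⟩ := ENat.ne_top_iff_exists.mp h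
    have hN1 : 1 ≤ N := by
      have h3 := (one_le_cornerPavingNumber (M := M) (A := A) (e := 0) ε).trans
        (hle 0 zero_isStateCorner)
      rw [← hN] at h3
      exact_mod_cast h3
    rw [← hN]
    refine iInf₂_le N ⟨hN1, fun x hx hxs hzx => ?_⟩
    apply soPavableOn_of_corners hzA hz hε hN1
    intro F δ hδ
    obtain ⟨g, hg, hzg, hgF⟩ := exists_stateCorner_approx hA hzA hz h1 h2 F hδ
    refine ⟨g, hg.1, hg.2.1, hzg, hgF, ?_⟩
    have hgM := hA.subset g hg.1
    have hgg : g * g = g := hg.2.1.isIdempotentElem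
    apply soPavableOn_of_cornerPavingNumber_le _ (mul_mem (mul_mem hgM hx) hgM)
      (conj_sa hg.2.1.isSelfAdjoint hxs)
    · rw [← mul_assoc, ← mul_assoc, hgg, mul_assoc, mul_assoc, hgg, mul_assoc]
    · rw [hN]; exact hle g hg

end Vale.Agent.P078
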