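import Vale.Agent.P078.Generate

open scoped InnerProductSpace Topology
open Filter

namespace Vale.Agent.P078

variable {H : Type*} [NormedAddCommGroup H] [InnerProductSpace ℂ H] [CompleteSpace H]

theorem exists_wot_limit {ι : Type*} (U : Ultrafilter ι) (T : ι → H →L[ℂ] H) (c : ℝ)
    (hc : ∀ i, ‖T i‖ ≤ c) :
    ∃ S : H →L[ℂ] H, ‖S‖ ≤ c ∧
      ∀ v w, Tendsto (fun i => ⟪T i v, w⟫_ℂ) U (𝓝 ⟪S v, w⟫_ℂ) := by
  have hc0 : 0 ≤ c := by
    obtain ⟨i, -⟩ := U.neBot.nonempty_of_mem univ_mem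
    exact (norm_nonneg _).trans (hc i)
  have hb : ∀ i v w, ‖⟪T i v, w⟫_ℂ‖ ≤ c * ‖v‖ * ‖w‖ := by
    intro i v w
    calc ‖⟪T i v, w⟫_ℂ‖ ≤ ‖T i v‖ * ‖w‖ := norm_inner_le_norm _ _
      _ ≤ (c * ‖v‖) * ‖w‖ := by
        gcongr
        exact (T i).le_of_opNorm_le (hc i) v
  have hex : ∀ v w, ∃ z : ℂ, ‖z‖ ≤ c * ‖v‖ * ‖w‖ ∧
      Tendsto (fun i => ⟪T i v, w⟫_ℂ) U (𝓝 z) := by
    intro v w
    have hK : IsCompact (Metric.closedBall (0 : ℂ) (c * ‖v‖ * ‖w‖)) := isCompact_closedBall _ _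
    have hmem : (U.map (fun i => ⟪T i v, w⟫_ℂ) : Filter ℂ) ≤
        𝓟 (Metric.closedBall (0 : ℂ) (c * ‖v‖ * ‖w‖)) := by
      rw [le_principal_iff]
      show _ ∈ Filter.map _ _
      rw [Filter.mem_map]
      apply Filter.univ_mem'
      intro i
      simpa using hb i v w
    obtain ⟨z, hz, hz2⟩ := hK.ultrafilter_le_nhds _ hmem
    exact ⟨z, by simpa using hz, hz2⟩
  choose L hL1 hL2 using hex
  have hadd1 : ∀ v v' w, L (v + v') w = L v w + L v' w := by
    intro v v' w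
    apply tendsto_nhds_unique (hL2 (v + v') w)
    have := (hL2 v w).add (hL2 v' w)
    refine this.congr (fun i => ?_)
    rw [map_add, inner_add_left]
  have hadd2 : ∀ v w w', L v (w + w') = L v w + L v w' := by
    intro v w w'
    apply tendsto_nhds_unique (hL2 v (w + w'))
    have := (hL2 v w).add (hL2 v w')
    refine this.congr (fun i => ?_)
    rw [inner_add_right]
  have hsmul1 : ∀ (k : ℂ) v w, L (k • v) w = (starRingEnd ℂ k) * L v w := by
    intro k v w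
    apply tendsto_nhds_unique (hL2 (k • v) w)
    have := (hL2 v w).const_mul (starRingEnd ℂ k)
    refine this.congr (fun i => ?_)
    rw [map_smul, inner_smul_left]
  have hsmul2 : ∀ (k : ℂ) v w, L v (k • w) = k * L v w := by
    intro k v w
    apply tendsto_nhds_unique (hL2 v (k • w))
    have := (hL2 v w).const_mul k
    refine this.congr (fun i => ?_)
    rw [inner_smul_right]
  let B : H →ₗ⋆[ℂ] H →ₗ[ℂ] ℂ :=
    LinearMap.mk₂'ₛₗ (starRingEnd ℂ) (RingHom.id ℂ) L hadd1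
      (fun k v w => by rw [hsmul1]; rfl) hadd2 (fun k v w => by rw [hsmul2]; rfl)
  let B' : H →L⋆[ℂ] H →L[ℂ] ℂ := B.mkContinuous₂ c (fun v w => hL1 v w)
  have hB' : ∀ v w, B' v w = L v w := fun v w => rfl
  let S : H →L[ℂ] H := InnerProductSpace.continuousLinearMapOfBilin B'
  have hS : ∀ v w, ⟪S v, w⟫_ℂ = L v w := by
    intro v w
    rw [← hB']
    exact InnerProductSpace.continuousLinearMapOfBilin_apply B' v w
  refine ⟨S, ?_, ?_⟩
  · apply ContinuousLinearMap.opNorm_le_bound _ hc0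
    intro v
    have h1 : ‖S v‖ ^ 2 ≤ c * ‖v‖ * ‖S v‖ := by
      calc ‖S v‖ ^ 2 = ‖⟪S v, S v⟫_ℂ‖ := by
            rw [inner_self_eq_norm_sq_to_K]; simp
        _ = ‖L v (S v)‖ := by rw [hS]
        _ ≤ _ := hL1 _ _
    by_cases h0 : ‖S v‖ = 0
    · rw [h0]; positivity
    · have : 0 < ‖S v‖ := lt_of_le_of_ne (norm_nonneg _) (Ne.symm h0)
      nlinarith
  · intro v w
    rw [hS]
    exact hL2 v w

theorem wot_limit_commute {ι : Type*} (U : Ultrafilter ι) (T : ι → H →L[ℂ] H) (S g : H →L[ℂ] H)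
    (hS : ∀ v w, Tendsto (fun i => ⟪T i v, w⟫_ℂ) U (𝓝 ⟪S v, w⟫_ℂ))
    (hg : ∀ᶠ i in (U : Filter ι), g * T i = T i * g) : g * S = S * g := by
  ext v
  apply ext_inner_right ℂ
  intro w
  have h1 := hS (g v) w
  have h2 := hS v (star g w)
  have h3 : Tendsto (fun i => ⟪T i v, star g w⟫_ℂ) U (𝓝 ⟪S (g v), w⟫_ℂ) := by
    refine h1.congr' ?_
    filter_upwards [hg] with i hi
    have : T i (g v) = g (T i v) := (congrArg (fun S : H →L[ℂ] H => S v) hi).symm
    rw [this, ContinuousLinearMap.star_eq_adjoint, ContinuousLinearMap.adjoint_inner_right]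
  have h4 := tendsto_nhds_unique h2 h3
  rw [ContinuousLinearMap.star_eq_adjoint, ContinuousLinearMap.adjoint_inner_right] at h4
  exact h4

theorem wot_limit_isSelfAdjoint {ι : Type*} (U : Ultrafilter ι) (T : ι → H →L[ℂ] H)
    (S : H →L[ℂ] H)
    (hS : ∀ v w, Tendsto (fun i => ⟪T i v, w⟫_ℂ) U (𝓝 ⟪S v, w⟫_ℂ))
    (hT : ∀ i, IsSelfAdjoint (T i)) : IsSelfAdjoint S := by
  rw [ContinuousLinearMap.isSelfAdjoint_iff_isSymmetric]
  intro v w
  have h1 := hS v w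
  have h2 := (Complex.continuous_conj.tendsto _).comp (hS w v)
  have h3 : Tendsto (fun i => ⟪T i v, w⟫_ℂ) U (𝓝 (starRingEnd ℂ ⟪S w, v⟫_ℂ)) := by
    refine h2.congr (fun i => ?_)
    have := (ContinuousLinearMap.isSelfAdjoint_iff_isSymmetric.mp (hT i)) w v
    show starRingEnd ℂ ⟪T i w, v⟫_ℂ = _
    rw [inner_conj_symm]
    have h5 := (ContinuousLinearMap.isSelfAdjoint_iff_isSymmetric.mp (hT i)) v w
    exact h5.symm
  have h4 := tendsto_nhds_unique h1 h3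
  rw [inner_conj_symm] at h4
  exact h4

end Vale.Agent.P078
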