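import Vale.Agent.P078.Defs
import Vale.Agent.P078.Final3

open scoped InnerProductSpace Topology ComplexOrder

namespace Vale.Agent.P078

universe u

variable {H : Type u} [NormedAddCommGroup H] [InnerProductSpace ℂ H] [CompleteSpace H]
variable {A : StarSubalgebra ℂ (H →L[ℂ] H)} {M : VonNeumannAlgebra H}

theorem one_isStarProjection : IsStarProjection (1 : H →L[ℂ] H) :=
  ⟨by simp [IsIdempotentElem], IsSelfAdjoint.one _⟩

theorem SoPavableOn.soPavable {x : H →L[ℂ] H} {ε : ℝ} {r : ℕ}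
    (h : SoPavableOn M A 1 x ε r) : SoPavable M A x ε r := by
  intro F δ hδ
  obtain ⟨p, a, q, h1, h2, h3, h4, h5, h6, h7, h8, h9, h10⟩ := h F δ hδ
  exact ⟨p, a, q, h1, h2, h3, h5, h6, h7, h9, h10⟩

theorem soPavable_of_nowhere (hA : IsMASA M A) (hN : ∀ ψ, IsCentralised M A ψ → ∀ x ∈ M, ψ x = 0)
    {x : H →L[ℂ] H} (hx : x ∈ M) (hxs : IsSelfAdjoint x) {ε : ℝ} {r : ℕ} (hr : 1 < r * ε) :
    SoPavable M A x ε r := by
  apply SoPavableOn.soPavable
  apply soPavableOn_of_infinitesimal hA (one_mem A) one_isStarProjection _ x hx hxs ε r hr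
  apply infinitesimal_of_noCentralised hA (one_mem A) one_isStarProjection
  intro ψ hψ
  exact hN ψ hψ 1 (one_mem M)

theorem floor_mul {ε : ℝ} (hε : 0 < ε) : 1 < ((⌊1 / ε⌋₊ + 1 : ℕ) : ℝ) * ε := by
  have h := Nat.lt_floor_add_one (1 / ε)
  have h2 : (1 / ε) * ε < ((⌊1 / ε⌋₊ : ℝ) + 1) * ε := mul_lt_mul_of_pos_right h hε
  rw [one_div_mul_cancel hε.ne'] at h2
  push_cast
  exact h2

theorem pavingNumber_le {ε : ℝ} {r : ℕ} (h1 : 1 ≤ r)
    (h : ∀ x ∈ M, IsSelfAdjoint x → SoPavable M A x ε r) : pavingNumber M A ε ≤ r :=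
  iInf₂_le r ⟨h1, h⟩

end Vale.Agent.P078
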